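import Mathlib

/-!
# P192: a finitely generated group of isometries of a tree all of whose elements have finite order
(and move every vertex by an even distance) fixes a vertex
-/

namespace Vale.Agent.P192.H260

/-- `d` is the distance of a tree with vertex set `V`. -/
structure IsTree {V : Type*} (d : V → V → ℕ) : Prop where
  eq0 : ∀ u v, d u v = 0 ↔ u = v
  symm : ∀ u v, d u v = d v u
  par : ∀ u v w, d u v = 1 → d u w = d v w + 1 ∨ d v w = d u w + 1
  step : ∀ v w, v ≠ w → ∃ u, (d v u = 1 ∧ d u w + 1 = d v w) ∧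
    ∀ u', d v u' = 1 → d u' w + 1 = d v w → u' = u

/-- `u` is the first vertex on the way from `v` to `w`. -/
def St {V : Type*} (d : V → V → ℕ) (v w u : V) : Prop := d v u = 1 ∧ d u w + 1 = d v w

section tree

variable {V : Type*} {d : V → V → ℕ} (h : IsTree d)

include h

theorem exists_St {v w : V} (hvw : v ≠ w) : ∃ u, St d v w u := by
  obtain ⟨u, hu, -⟩ := h.step v w hvw
  exact ⟨u, hu⟩

theorem St_ne {v w u : V} (hu : St d v w u) : v ≠ w := by
  rintro rfl
  have h0 := (h.eq0 v v).2 rfl
  have := hu.2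
  omega

theorem St_uniq {v w u u' : V} (hu : St d v w u) (hu' : St d v w u') : u = u' := by
  obtain ⟨s, -, hs⟩ := h.step v w (St_ne h hu)
  rw [hs u hu.1 hu.2, hs u' hu'.1 hu'.2]

theorem d_self (v : V) : d v v = 0 := (h.eq0 v v).2 rfl

theorem St_ext {y z z' b : V} (hz : St d z y z') (hb : St d y z' b) : St d y z b := by
  refine ⟨hb.1, ?_⟩
  have h1 := h.par z z' b hz.1
  have h2 := h.par y b z hb.1
  have h3 := hz.2
  have h4 := hb.2
  rw [h.symm z b, h.symm z' b] at h1
  rw [h.symm z' y, h.symm z y] at h3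
  omega

theorem concat : ∀ (n : ℕ) (x y z a b : V), d y z = n → St d y x a → St d y z b → a ≠ b →
    d x z = d x y + d y z ∧ ∀ c, St d z y c → St d z x c := by
  intro n
  induction n with
  | zero =>
    intro x y z a b hn ha hb hab
    have := hb.2
    omega
  | succ n ih =>
    intro x y z a b hn ha hb hab
    have hyz : y ≠ z := St_ne h hb
    obtain ⟨z', hz'⟩ := exists_St h hyz.symm
    by_cases hy : z' = y
    · subst hy
      have h1 : d z z' = 1 := hz'.1
      have h1' : d z' z = 1 := by rw [h.symm]; exact h1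
      have hbz : b = z := by
        have := hb.2
        rw [h1'] at this
        exact (h.eq0 b z).1 (by omega)
      subst hbz
      have hne : ¬ (d z' x = d b x + 1) := by
        intro h2
        exact hab (St_uniq h ha ⟨h1', h2.symm⟩)
      have h2 : d b x = d z' x + 1 := by
        rcases h.par z' b x h1' with h3 | h3
        · exact absurd h3 hne
        · exact h3
      refine ⟨by rw [h.symm x b, h.symm x z', h1', h2], ?_⟩
      intro c hc
      have hcz : c = z' := St_uniq h hc hz'
      subst hcz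
      exact ⟨h1, h2.symm⟩
    · have hyz' : y ≠ z' := fun e => hy e.symm
      obtain ⟨b', hb'⟩ := exists_St h hyz'
      have hbb : b' = b := St_uniq h (St_ext h hz' hb') hb
      subst hbb
      have hd : d y z' = n := by
        have := hz'.2
        rw [h.symm z' y, h.symm z y] at this
        omega
      obtain ⟨i1, i2⟩ := ih x y z' a b' hd ha hb' hab
      have h1 : d z z' = 1 := hz'.1
      have h1' : d z' z = 1 := by rw [h.symm]; exact h1
      have h2 : d z x = d z' x + 1 := by
        rcases h.par z' z x h1' with h3 | h3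
        · exfalso
          obtain ⟨c, hc⟩ := exists_St h hy
          have hcz : c = z := St_uniq h (i2 c hc) ⟨h1', h3.symm⟩
          subst hcz
          have h4 := hc.2
          have h5 := hz'.2
          omega
        · exact h3
      refine ⟨?_, ?_⟩
      · rw [h.symm x z, h2, h.symm z' x, i1, hd, hn]
        omega
      · intro c hc
        have hcz : c = z' := St_uniq h hc hz'
        subst hcz
        exact ⟨h1, h2.symm⟩

end tree

section action

variable {V : Type*} {d : V → V → ℕ} (h : IsTree d) {Γ : Type*} [Group Γ] [MulAction Γ V]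
  (hiso : ∀ (g : Γ) (u v : V), d (g • u) (g • v) = d u v)

include h hiso

omit h in
theorem St_smul (g : Γ) {v w u : V} (hu : St d v w u) : St d (g • v) (g • w) (g • u) :=
  ⟨by rw [hiso]; exact hu.1, by rw [hiso, hiso]; exact hu.2⟩

theorem hyp_pow {g : Γ} {x u c : V} (hu : St d x (g • x) u) (hc : St d (g • x) x c)
    (hne : c ≠ g • u) : ∀ n : ℕ, d x (g ^ (n + 1) • x) = (n + 1) * d x (g • x) ∧
      St d (g ^ (n + 1) • x) x (g ^ n • c) := by
  intro n
  induction n with
  | zero => simpa using hc
  | succ n ih =>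
    have e1 : St d (g ^ (n + 1) • x) (g ^ (n + 2) • x) (g ^ (n + 1) • u) := by
      have := St_smul hiso (g ^ (n + 1)) hu
      rwa [← mul_smul, ← pow_succ] at this
    have e2 : St d (g ^ (n + 2) • x) (g ^ (n + 1) • x) (g ^ (n + 1) • c) := by
      have := St_smul hiso (g ^ (n + 1)) hc
      rwa [← mul_smul, ← pow_succ] at this
    have e3 : g ^ n • c ≠ g ^ (n + 1) • u := by
      intro e
      rw [pow_succ, mul_smul] at e
      exact hne (smul_left_cancel _ e)
    obtain ⟨f1, f2⟩ := concat h _ x _ _ _ _ rfl ih.2 e1 e3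
    refine ⟨?_, f2 _ e2⟩
    have e4 : d (g ^ (n + 1) • x) (g ^ (n + 2) • x) = d x (g • x) := by
      have := hiso (g ^ (n + 1)) x (g • x)
      rwa [← mul_smul, ← pow_succ] at this
    show d x (g ^ (n + 2) • x) = _
    rw [f1, ih.1, e4]
    ring

theorem fin_step {g : Γ} (hg : IsOfFinOrder g) {x u c : V} (hu : St d x (g • x) u)
    (hc : St d (g • x) x c) : c = g • u := by
  by_contra hne
  obtain ⟨n, hn, hgn⟩ := isOfFinOrder_iff_pow_eq_one.1 hg
  obtain ⟨m, rfl⟩ : ∃ m, n = m + 1 := ⟨n - 1, by omega⟩
  have h1 := (hyp_pow h hiso hu hc hne m).1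
  rw [hgn, one_smul, d_self h] at h1
  have h2 : d x (g • x) = 0 := by
    rcases Nat.eq_zero_or_pos (d x (g • x)) with h3 | h3
    · exact h3
    · have : 0 < (m + 1) * d x (g • x) := Nat.mul_pos (by omega) h3
      omega
  exact St_ne h hu ((h.eq0 _ _).1 h2)

theorem ell_step {a : Γ} (ha : IsOfFinOrder a) {v u : V} (hev : Even (d v (a • v)))
    (hu : St d v (a • v) u) : St d (a • v) v (a • u) ∧ d u (a • u) + 2 = d v (a • v) := by
  have hne : v ≠ a • v := St_ne h hu
  obtain ⟨c, hc⟩ := exists_St h hne.symm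
  have hcu := fin_step h hiso ha hu hc
  subst hcu
  refine ⟨hc, ?_⟩
  have hN : d v (a • v) ≠ 0 := fun e => hne ((h.eq0 _ _).1 e)
  have h1 := hu.2
  have hua : u ≠ a • v := by
    rintro rfl
    rw [hu.1] at hev
    exact absurd hev (by decide)
  obtain ⟨c', hc'⟩ := exists_St h hua.symm
  have h3 : c' = a • u := St_uniq h (St_ext h hu hc') hc
  subst h3
  have h4 := hc'.2
  rw [h.symm (a • u) u, h.symm (a • v) u] at h4
  omega

theorem two_step (hfin : ∀ g : Γ, IsOfFinOrder g) (hev : ∀ (g : Γ) (v : V), Even (d v (g • v)))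
    {a : Γ} {v u : V} (hu : St d v (a • v) u) (b : Γ) :
    (b • v = v ∧ b • u = u) ∨ d u (b • u) + 2 = d v (b • v) := by
  obtain ⟨hau, -⟩ := ell_step h hiso (hfin a) (hev a v) hu
  by_cases hb : b • v = v
  · left
    refine ⟨hb, ?_⟩
    have e1 : (a * b) • v = a • v := by rw [mul_smul, hb]
    have h1 : a • u = (a * b) • u := by
      refine fin_step h hiso (hfin (a * b)) (x := v) (u := u) ?_ ?_
      · rw [e1]; exact hu
      · rw [e1]; exact hau
    rw [mul_smul] at h1
    exact (smul_left_cancel _ h1).symm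
  · right
    have hb' : v ≠ b • v := fun e => hb e.symm
    obtain ⟨s, hs⟩ := exists_St h hb'
    obtain ⟨hbs, hd⟩ := ell_step h hiso (hfin b) (hev b v) hs
    have hsu : s = u := by
      by_contra hne
      have c1 := concat h _ (b • v) v (a • v) s u rfl hs hu hne
      have c2 := concat h _ (a • v) v (b • v) u s rfl hu hs (fun e => hne e.symm)
      have c3 := c1.2 _ hau
      have c4 := c2.2 _ hbs
      have e1 : (a * b⁻¹) • (b • v) = a • v := by rw [← mul_smul]; simp
      have h1 : a • u = (a * b⁻¹) • (b • s) := by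
        refine fin_step h hiso (hfin (a * b⁻¹)) (x := b • v) (u := b • s) ?_ ?_
        · rw [e1]; exact c4
        · rw [e1]; exact c3
      rw [← mul_smul] at h1
      simp only [inv_mul_cancel_right] at h1
      exact hne (smul_left_cancel _ h1).symm
    subst hsu
    exact hd

/-- **Fixed vertex.** -/
theorem exists_fixed [Group.FG Γ] [Nonempty V] (hfin : ∀ g : Γ, IsOfFinOrder g)
    (hev : ∀ (g : Γ) (v : V), Even (d v (g • v))) : ∃ v : V, ∀ g : Γ, g • v = v := by
  obtain ⟨S, hS⟩ : ∃ S : Finset Γ, Subgroup.closure (S : Set Γ) = ⊤ := by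
    obtain ⟨S', hS'⟩ := ‹Group.FG Γ›.out
    exact ⟨S', hS'⟩
  obtain ⟨v, hv⟩ : ∃ v : V, ∀ u : V, ∑ b ∈ S, d v (b • v) ≤ ∑ b ∈ S, d u (b • u) := by
    let F : V → ℕ := fun v => ∑ b ∈ S, d v (b • v)
    exact ⟨Function.argmin F, fun u => Function.argmin_le F u⟩
  have hall : ∀ a ∈ S, a • v = v := by
    by_contra hcon
    push Not at hcon
    obtain ⟨a, haS, hav⟩ := hcon
    obtain ⟨u, hu⟩ := exists_St h (fun e : v = a • v => hav e.symm)
    have key := two_step h hiso hfin hev hu
    have hlt : ∑ b ∈ S, d u (b • u) < ∑ b ∈ S, d v (b • v) := by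
      refine Finset.sum_lt_sum ?_ ⟨a, haS, ?_⟩
      · intro b _
        rcases key b with ⟨h1, h2⟩ | h1
        · rw [h1, h2, d_self h, d_self h]
        · omega
      · rcases key a with ⟨h1, h2⟩ | h1
        · exact absurd h1 hav
        · omega
    have := hv u
    omega
  refine ⟨v, fun g => ?_⟩
  have hle : Subgroup.closure (S : Set Γ) ≤ MulAction.stabilizer Γ v := by
    rw [Subgroup.closure_le]
    intro b hb
    exact hall b hb
  have : g ∈ Subgroup.closure (S : Set Γ) := by rw [hS]; trivial
  exact hle this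

end action

end Vale.Agent.P192.H260
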