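import Mathlib
import Vale.Agent.P192.H663.Defs
import Vale.Agent.P192.H260.Fix

/-!
# P192: `FPB` passes to HNN extensions
-/

namespace Vale.Agent.P192.H260

open HNNExtension HNNExtension.NormalWord

variable {G : Type*} [Group G] {A B : Subgroup G} (φ : A ≃* B) (D : TransversalPair G A B)

/-- number of letters `t` in the normal form -/
noncomputable def len (x : HNNExtension G A B φ) : ℕ :=
  (x • (NormalWord.empty : NormalWord D)).toList.length

theorem len_prod (w : NormalWord D) : len φ D (w.prod φ) = w.toList.length := by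
  unfold len
  rw [prod_smul_empty]

theorem len_of_mul (g : G) (x : HNNExtension G A B φ) : len φ D (of g * x) = len φ D x := by
  unfold len
  rw [mul_smul, of_smul_eq_smul, group_smul_toList]

theorem length_unitsSMul_of (u : ℤˣ) (w : NormalWord D) (h : Cancels u w) :
    (unitsSMul φ u w).toList.length + 1 = w.toList.length := by
  unfold unitsSMul
  rw [dif_pos h]
  cases w using consRecOn with
  | ofGroup g => simp [Cancels] at h
  | cons g u' w h1 h2 => simp [unitsSMulWithCancel]

theorem length_unitsSMul_not (u : ℤˣ) (w : NormalWord D) (h : ¬ Cancels u w) :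
    (unitsSMul φ u w).toList.length = w.toList.length + 1 := by
  unfold unitsSMul
  rw [dif_neg h]
  simp

theorem len_t (u : ℤˣ) (x : HNNExtension G A B φ) :
    len φ D (t ^ (u : ℤ) * x) = len φ D x + 1 ∨ len φ D x = len φ D (t ^ (u : ℤ) * x) + 1 := by
  unfold len
  rw [mul_smul, t_pow_smul_eq_unitsSMul]
  by_cases h : Cancels u (x • (NormalWord.empty : NormalWord D))
  · right; exact (length_unitsSMul_of φ D u _ h).symm
  · left; exact length_unitsSMul_not φ D u _ h

theorem len_zero_iff (x : HNNExtension G A B φ) :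
    len φ D x = 0 ↔ x ∈ (of : G →* HNNExtension G A B φ).range := by
  constructor
  · intro h
    have h1 : (x • (NormalWord.empty : NormalWord D)).toList = [] := List.length_eq_zero_iff.1 h
    have h2 : (x • (NormalWord.empty : NormalWord D)).prod φ = x := by simp
    refine ⟨(x • (NormalWord.empty : NormalWord D)).head, ?_⟩
    conv_rhs => rw [← h2]
    unfold ReducedWord.prod
    rw [h1]
    simp
  · rintro ⟨g, rfl⟩
    simp [len, of_smul_eq_smul]

theorem len_mul_le (x y : HNNExtension G A B φ) : len φ D (x * y) ≤ len φ D x + len φ D y := by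
  have key : ∀ w : NormalWord D, len φ D (w.prod φ * y) ≤ w.toList.length + len φ D y := by
    intro w
    induction w using consRecOn with
    | ofGroup g =>
      have : (ofGroup g : NormalWord D).prod φ = of g := by simp [ReducedWord.prod]
      rw [this, len_of_mul]
      simp
    | cons g u w h1 h2 ih =>
      rw [prod_cons, mul_assoc, len_of_mul, mul_assoc]
      have h3 : (NormalWord.cons g u w h1 h2).toList.length = w.toList.length + 1 := by simp
      rw [h3]
      rcases len_t φ D u (w.prod φ * y) with h4 | h4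
      · omega
      · omega
  have h2 : (x • (NormalWord.empty : NormalWord D)).prod φ = x := by simp
  have := key (x • (NormalWord.empty : NormalWord D))
  rwa [h2] at this

theorem len_of (g : G) : len φ D (of g) = 0 := (len_zero_iff φ D _).2 ⟨g, rfl⟩

theorem len_one : len φ D 1 = 0 := (len_zero_iff φ D _).2 (one_mem _)

theorem len_t_pow (u : ℤˣ) : len φ D (t ^ (u : ℤ)) = 1 := by
  have h := len_t φ D u 1
  rw [len_one, mul_one] at h
  omega

theorem len_inv_le (x : HNNExtension G A B φ) : len φ D x⁻¹ ≤ len φ D x := by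
  have key : ∀ w : NormalWord D, len φ D (w.prod φ)⁻¹ ≤ w.toList.length := by
    intro w
    induction w using consRecOn with
    | ofGroup g =>
      have : (ofGroup g : NormalWord D).prod φ = of g := by simp [ReducedWord.prod]
      rw [this, ← map_inv, len_of]
      exact Nat.zero_le _
    | cons g u w h1 h2 ih =>
      have h3 : (NormalWord.cons g u w h1 h2).toList.length = w.toList.length + 1 := by simp
      rw [h3, prod_cons, mul_inv_rev, mul_inv_rev, ← map_inv]
      have e1 : (t ^ (u : ℤ))⁻¹ = (t ^ ((-u : ℤˣ) : ℤ) : HNNExtension G A B φ) := by simp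
      rw [e1]
      have l1 := len_mul_le φ D ((w.prod φ)⁻¹ * t ^ ((-u : ℤˣ) : ℤ)) (of g⁻¹)
      have l2 := len_mul_le φ D ((w.prod φ)⁻¹) (t ^ ((-u : ℤˣ) : ℤ))
      rw [len_of] at l1
      rw [len_t_pow] at l2
      omega
  have h2 : (x • (NormalWord.empty : NormalWord D)).prod φ = x := by simp
  have := key (x • (NormalWord.empty : NormalWord D))
  rwa [h2] at this

theorem len_inv (x : HNNExtension G A B φ) : len φ D x⁻¹ = len φ D x := by
  refine le_antisymm (len_inv_le φ D x) ?_
  have := len_inv_le φ D x⁻¹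
  rwa [inv_inv] at this

theorem len_mul_of (x : HNNExtension G A B φ) (g : G) : len φ D (x * of g) = len φ D x := by
  rw [← len_inv, mul_inv_rev, ← map_inv, len_of_mul, len_inv]

theorem conj_mem (u : ℤˣ) (c : G) (hc : c ∈ toSubgroup A B u) :
    t ^ (u : ℤ) * of c * (t ^ (u : ℤ))⁻¹ ∈ (of : G →* HNNExtension G A B φ).range := by
  rcases Int.units_eq_one_or u with rfl | rfl
  · refine ⟨φ ⟨c, hc⟩, ?_⟩
    rw [equiv_eq_conj]
    simp
  · refine ⟨φ.symm ⟨c, hc⟩, ?_⟩
    rw [equiv_symm_eq_conj]
    simp

theorem exists_cons (x : HNNExtension G A B φ) (hx : len φ D x ≠ 0) :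
    ∃ (g : G) (u : ℤˣ) (x' : HNNExtension G A B φ), x = of g * (t ^ (u : ℤ) * x') ∧
      len φ D x = len φ D x' + 1 ∧ (x • (NormalWord.empty : NormalWord D)).head = g ∧
      (x • (NormalWord.empty : NormalWord D)).toList.head?.map Prod.fst = some u := by
  have key : ∀ w : NormalWord D, w.toList.length ≠ 0 → ∃ (g : G) (u : ℤˣ) (w' : NormalWord D),
      w.prod φ = of g * (t ^ (u : ℤ) * w'.prod φ) ∧ w.toList.length = w'.toList.length + 1 ∧
      w.head = g ∧ w.toList.head?.map Prod.fst = some u := by
    intro w hw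
    cases w using consRecOn with
    | ofGroup g => exact absurd rfl hw
    | cons g u w h1 h2 => exact ⟨g, u, w, by rw [prod_cons], by simp, by simp, by simp⟩
  obtain ⟨g, u, w', h1, h2, h3, h4⟩ := key (x • (NormalWord.empty : NormalWord D)) hx
  have h5 : (x • (NormalWord.empty : NormalWord D)).prod φ = x := by simp
  refine ⟨g, u, w'.prod φ, by rw [← h1, h5], ?_, h3, h4⟩
  rw [len_prod]
  exact h2

/-- elements of length one -/
theorem len_eq_one {x : HNNExtension G A B φ} (hx : len φ D x = 1) :
    ∃ (a : G) (u : ℤˣ) (b : G), x = of a * t ^ (u : ℤ) * of b := by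
  obtain ⟨g, u, x', h1, h2, -, -⟩ := exists_cons φ D x (by omega)
  have h3 : len φ D x' = 0 := by omega
  obtain ⟨b, rfl⟩ := (len_zero_iff φ D x').1 h3
  exact ⟨g, u, b, by rw [h1, mul_assoc]⟩

/-- distance on the left cosets -/
noncomputable def dd (p q : HNNExtension G A B φ ⧸ (of : G →* HNNExtension G A B φ).range) : ℕ :=
  len φ D (p.out⁻¹ * q.out)

theorem dd_mk (x y : HNNExtension G A B φ) :
    dd φ D (x : HNNExtension G A B φ ⧸ (of : G →* HNNExtension G A B φ).range)
      (y : HNNExtension G A B φ ⧸ (of : G →* HNNExtension G A B φ).range) = len φ D (x⁻¹ * y) := by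
  unfold dd
  obtain ⟨⟨_, g, rfl⟩, hg⟩ := QuotientGroup.mk_out_eq_mul (of : G →* HNNExtension G A B φ).range x
  obtain ⟨⟨_, g', rfl⟩, hg'⟩ :=
    QuotientGroup.mk_out_eq_mul (of : G →* HNNExtension G A B φ).range y
  rw [hg, hg']
  simp only
  rw [mul_inv_rev, ← map_inv, mul_assoc, len_of_mul, ← mul_assoc, len_mul_of]

theorem len_one_mul {y : HNNExtension G A B φ} (hy : len φ D y = 1) (x : HNNExtension G A B φ) :
    len φ D (y * x) = len φ D x + 1 ∨ len φ D x = len φ D (y * x) + 1 := by
  obtain ⟨a, u, b, rfl⟩ := len_eq_one φ D hy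
  have h := len_t φ D u (of b * x)
  rw [len_of_mul] at h
  rwa [mul_assoc, mul_assoc, len_of_mul]

theorem isTree : IsTree (dd φ D) where
  eq0 := by
    intro p q
    obtain ⟨x, rfl⟩ := QuotientGroup.mk_surjective p
    obtain ⟨y, rfl⟩ := QuotientGroup.mk_surjective q
    rw [dd_mk, len_zero_iff, QuotientGroup.eq]
  symm := by
    intro p q
    obtain ⟨x, rfl⟩ := QuotientGroup.mk_surjective p
    obtain ⟨y, rfl⟩ := QuotientGroup.mk_surjective q
    rw [dd_mk, dd_mk, ← len_inv, mul_inv_rev, inv_inv]
  par := by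
    intro p q r
    obtain ⟨x, rfl⟩ := QuotientGroup.mk_surjective p
    obtain ⟨y, rfl⟩ := QuotientGroup.mk_surjective q
    obtain ⟨z, rfl⟩ := QuotientGroup.mk_surjective r
    rw [dd_mk, dd_mk, dd_mk]
    intro h
    have e1 : x⁻¹ * z = (x⁻¹ * y) * (y⁻¹ * z) := by group
    rw [e1]
    exact len_one_mul φ D h _
  step := by
    intro p q hpq
    obtain ⟨x, rfl⟩ := QuotientGroup.mk_surjective p
    obtain ⟨z, rfl⟩ := QuotientGroup.mk_surjective q
    have hk : len φ D (x⁻¹ * z) ≠ 0 := by
      intro h0
      exact hpq (QuotientGroup.eq.2 ((len_zero_iff φ D _).1 h0))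
    obtain ⟨g, u, k', h1, h2, h3, h4⟩ := exists_cons φ D _ hk
    refine ⟨((x * (of g * t ^ (u : ℤ)) : HNNExtension G A B φ) :
      HNNExtension G A B φ ⧸ (of : G →* HNNExtension G A B φ).range), ⟨?_, ?_⟩, ?_⟩
    · rw [dd_mk, inv_mul_cancel_left, len_of_mul, len_t_pow]
    · rw [dd_mk, dd_mk]
      have e1 : (x * (of g * t ^ (u : ℤ)))⁻¹ * z = k' := by
        rw [mul_inv_rev, mul_assoc, h1]
        group
      rw [e1, h2]
    · intro r
      obtain ⟨y, rfl⟩ := QuotientGroup.mk_surjective r
      rw [dd_mk, dd_mk, dd_mk]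
      intro hy1 hy2
      obtain ⟨a, v, b, hab⟩ := len_eq_one φ D hy1
      have e1 : y⁻¹ * z = of b⁻¹ * (t ^ ((-v : ℤˣ) : ℤ) * (of a⁻¹ * (x⁻¹ * z))) := by
        have e2 : y⁻¹ * z = (x⁻¹ * y)⁻¹ * (x⁻¹ * z) := by group
        rw [e2, hab]
        simp only [mul_inv_rev, map_inv, Units.val_neg, zpow_neg, mul_assoc]
      rw [e1, len_of_mul] at hy2
      have hc : Cancels (-v) (a⁻¹ • ((x⁻¹ * z) • (NormalWord.empty : NormalWord D))) := by
        by_contra hnc
        have h5 := length_unitsSMul_not φ D (-v) _ hnc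
        have h6 : unitsSMul φ (-v) (a⁻¹ • ((x⁻¹ * z) • (NormalWord.empty : NormalWord D))) =
            (t ^ ((-v : ℤˣ) : ℤ) * (of a⁻¹ * (x⁻¹ * z))) • (NormalWord.empty : NormalWord D) := by
          rw [mul_smul (t ^ ((-v : ℤˣ) : ℤ)), t_pow_smul_eq_unitsSMul, mul_smul (of a⁻¹),
            of_smul_eq_smul]
        rw [h6, group_smul_toList] at h5
        unfold len at hy2
        omega
      obtain ⟨hc1, hc2⟩ := hc
      rw [group_smul_head, h3] at hc1
      rw [group_smul_toList, h4] at hc2
      have huv : u = v := by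
        have := Option.some.inj hc2
        rw [neg_neg] at this
        exact this
      subst huv
      rw [QuotientGroup.eq]
      have e3 : y = x * (of a * t ^ (u : ℤ) * of b) := by rw [← hab]; group
      have h6 := conj_mem φ (-u) _ hc1
      have h7 := Subgroup.mul_mem _ (⟨b⁻¹, rfl⟩ : of b⁻¹ ∈ (of : G →* HNNExtension G A B φ).range) h6
      have e4 : y⁻¹ * (x * (of g * t ^ (u : ℤ))) =
          of b⁻¹ * (t ^ ((-u : ℤˣ) : ℤ) * of (a⁻¹ * g) * (t ^ ((-u : ℤˣ) : ℤ))⁻¹) := by
        rw [e3]
        simp only [mul_inv_rev, map_inv, map_mul, Units.val_neg, zpow_neg, inv_inv]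
        group
      rw [e4]
      exact h7

/-- exponent sum of the stable letter -/
noncomputable def chi : HNNExtension G A B φ →* Multiplicative ℤ :=
  HNNExtension.lift 1 (Multiplicative.ofAdd 1) (fun _ => by simp)

theorem chi_parity (x : HNNExtension G A B φ) :
    Even ((len φ D x : ℤ) - Multiplicative.toAdd (chi φ x)) := by
  have key : ∀ w : NormalWord D,
      Even ((w.toList.length : ℤ) - Multiplicative.toAdd (chi φ (w.prod φ))) := by
    intro w
    induction w using consRecOn with
    | ofGroup g =>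
      have : (ofGroup g : NormalWord D).prod φ = of g := by simp [ReducedWord.prod]
      rw [this]
      simp [chi]
    | cons g u w h1 h2 ih =>
      have h3 : (NormalWord.cons g u w h1 h2).toList.length = w.toList.length + 1 := by simp
      have h4 : chi φ (of g) = 1 := by simp [chi]
      have h5 : chi φ t = Multiplicative.ofAdd 1 := by simp [chi]
      rw [h3, prod_cons, MonoidHom.map_mul, MonoidHom.map_mul, MonoidHom.map_zpow, h4, h5,
        one_mul, toAdd_mul, toAdd_zpow, toAdd_ofAdd]
      rcases Int.units_eq_one_or u with rfl | rfl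
      · push_cast
        simp only [smul_eq_mul, mul_one]
        have e : (w.toList.length : ℤ) + 1 - (1 + Multiplicative.toAdd (chi φ (w.prod φ))) =
          (w.toList.length : ℤ) - Multiplicative.toAdd (chi φ (w.prod φ)) := by ring
        rw [e]; exact ih
      · push_cast
        simp only [smul_eq_mul, mul_one]
        have e : (w.toList.length : ℤ) + 1 - (-1 + Multiplicative.toAdd (chi φ (w.prod φ))) =
          ((w.toList.length : ℤ) - Multiplicative.toAdd (chi φ (w.prod φ))) + 2 := by ring
        rw [e]; exact ih.add (by decide)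
  have h2 : (x • (NormalWord.empty : NormalWord D)).prod φ = x := by simp
  have := key (x • (NormalWord.empty : NormalWord D))
  rwa [h2] at this

theorem even_of_finOrder (γ x : HNNExtension G A B φ) (hγ : IsOfFinOrder γ) :
    Even (len φ D (x⁻¹ * (γ * x))) := by
  have h1 : chi φ γ = 1 := by
    have h2 : IsOfFinOrder (chi φ γ) := MonoidHom.isOfFinOrder _ hγ
    exact (isOfFinOrder_iff_eq_one _).1 h2
  have h3 : chi φ (x⁻¹ * (γ * x)) = 1 := by
    rw [map_mul, map_mul, h1, map_inv]
    simp
  have h4 := chi_parity φ D (x⁻¹ * (γ * x))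
  rw [h3, toAdd_one, sub_zero] at h4
  exact_mod_cast h4

/-- a finitely generated periodic group mapped to an HNN extension is conjugate into the base -/
theorem exists_conj_base {Γ : Type*} [Group Γ] [Group.FG Γ] (hfin : ∀ x : Γ, IsOfFinOrder x)
    (f : Γ →* HNNExtension G A B φ) : ∃ x : HNNExtension G A B φ, ∀ g : Γ,
      x⁻¹ * f g * x ∈ (of : G →* HNNExtension G A B φ).range := by
  obtain ⟨D⟩ := TransversalPair.nonempty G A B
  let _ : MulAction Γ (HNNExtension G A B φ ⧸ (of : G →* HNNExtension G A B φ).range) :=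
    MulAction.compHom _ f
  have hs : ∀ (g : Γ) (x : HNNExtension G A B φ),
      g • (x : HNNExtension G A B φ ⧸ (of : G →* HNNExtension G A B φ).range) =
        ((f g * x : HNNExtension G A B φ) :
          HNNExtension G A B φ ⧸ (of : G →* HNNExtension G A B φ).range) := fun g x => rfl
  obtain ⟨v, hv⟩ := exists_fixed (isTree φ D) (Γ := Γ) (by
    intro g p q
    obtain ⟨x, rfl⟩ := QuotientGroup.mk_surjective p
    obtain ⟨y, rfl⟩ := QuotientGroup.mk_surjective q
    rw [hs, hs, dd_mk, dd_mk]
    have e : (f g * x)⁻¹ * (f g * y) = x⁻¹ * y := by group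
    rw [e]) hfin (by
    intro g p
    obtain ⟨x, rfl⟩ := QuotientGroup.mk_surjective p
    rw [hs, dd_mk]
    exact even_of_finOrder φ D _ _ (MonoidHom.isOfFinOrder f (hfin g)))
  obtain ⟨x, rfl⟩ := QuotientGroup.mk_surjective v
  refine ⟨x, fun g => ?_⟩
  have h1 := hv g
  rw [hs] at h1
  have h2 := QuotientGroup.eq.1 h1.symm
  rwa [← mul_assoc] at h2

theorem fg_of_fp {Γ : Type*} [Group Γ] (h : Group.IsFinitelyPresented Γ) : Group.FG Γ := by
  obtain ⟨n, ψ, hψ, -⟩ := h.out
  exact Group.fg_of_surjective hψ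

/-- **`FPB` passes to HNN extensions.** -/
theorem fpb_hnn (hG : FPB G) : FPB (HNNExtension G A B φ) := by
  intro Γ _ hfp hfin f
  have := fg_of_fp hfp
  obtain ⟨x, hx⟩ := exists_conj_base φ hfin f
  let e : G ≃* (of : G →* HNNExtension G A B φ).range :=
    MonoidHom.ofInjective (of_injective (φ := φ))
  let c : Γ →* HNNExtension G A B φ := (MulAut.conj x⁻¹).toMonoidHom.comp f
  have hc : ∀ g, c g ∈ (of : G →* HNNExtension G A B φ).range := by
    intro g
    have : c g = x⁻¹ * f g * x := by simp [c]
    rw [this]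
    exact hx g
  let k : Γ →* G := e.symm.toMonoidHom.comp (c.codRestrict _ hc)
  have hk : ∀ g, of (k g) = x⁻¹ * f g * x := by
    intro g
    have h1 : e (k g) = c.codRestrict _ hc g := by simp [k]
    have h2 : ((e (k g) : (of : G →* HNNExtension G A B φ).range) : HNNExtension G A B φ) =
      of (k g) := rfl
    rw [← h2, h1]
    simp [c]
  have hfk : Finite k.range := hG Γ hfp hfin k
  have hsub : (f.range : Set (HNNExtension G A B φ)) ⊆
      (fun y : G => x * of y * x⁻¹) '' (k.range : Set G) := by
    rintro _ ⟨g, rfl⟩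
    refine ⟨k g, ⟨g, rfl⟩, ?_⟩
    simp only
    rw [hk]
    group
  have hfs : (k.range : Set G).Finite := Set.toFinite _
  exact ((hfs.image _).subset hsub).to_subtype

end Vale.Agent.P192.H260
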