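import Mathlib
import Vale.Agent.P192.H260.Hnn

/-!
# P192: `FPB` passes to amalgamated products
-/

namespace Vale.Agent.P192.H260

open HNNExtension HNNExtension.NormalWord

/-- `FPB` passes to groups which embed. -/
theorem fpb_of_injective {G G' : Type*} [Group G] [Group G'] (k : G →* G')
    (hk : Function.Injective k) (h : FPB G') : FPB G := by
  intro Γ _ hfp hfin f
  have h1 : Finite (k.comp f).range := h Γ hfp hfin (k.comp f)
  have h2 : ((k.comp f).range : Set G').Finite := Set.toFinite _
  have h3 : (k '' (f.range : Set G)).Finite := by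
    refine h2.subset ?_
    rintro _ ⟨_, ⟨g, rfl⟩, rfl⟩
    exact ⟨g, rfl⟩
  exact (h3.of_finite_image hk.injOn).to_subtype

theorem fpb_prod {G G' : Type*} [Group G] [Group G'] (h : FPB G) (h' : FPB G') :
    FPB (G × G') := by
  intro Γ _ hfp hfin f
  have h1 : Finite ((MonoidHom.fst G G').comp f).range := h Γ hfp hfin _
  have h2 : Finite ((MonoidHom.snd G G').comp f).range := h' Γ hfp hfin _
  have h3 : (((MonoidHom.fst G G').comp f).range : Set G).Finite := Set.toFinite _
  have h4 : (((MonoidHom.snd G G').comp f).range : Set G').Finite := Set.toFinite _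
  refine ((h3.prod h4).subset ?_).to_subtype
  rintro _ ⟨g, rfl⟩
  exact ⟨⟨g, rfl⟩, ⟨g, rfl⟩⟩

section amalg

variable {D H V : Type*} [Group D] [Group H] [Group V] (i : D →* H) (j : D →* V)

/-- the left factor -/
def amL : H →* Amalg i j :=
  (QuotientGroup.mk' (Subgroup.normalClosure
    {x | ∃ d : D, x = Monoid.Coprod.inl (i d) * (Monoid.Coprod.inr (j d))⁻¹})).comp
      Monoid.Coprod.inl

/-- the right factor -/
def amR : V →* Amalg i j :=
  (QuotientGroup.mk' (Subgroup.normalClosure
    {x | ∃ d : D, x = Monoid.Coprod.inl (i d) * (Monoid.Coprod.inr (j d))⁻¹})).comp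
      Monoid.Coprod.inr

theorem am_eq (d : D) : amL i j (i d) = amR i j (j d) := by
  have h : (Monoid.Coprod.inl (i d) * (Monoid.Coprod.inr (j d))⁻¹ : Monoid.Coprod H V) ∈
      Subgroup.normalClosure
        {x : Monoid.Coprod H V | ∃ d : D, x = Monoid.Coprod.inl (i d) *
          (Monoid.Coprod.inr (j d))⁻¹} := Subgroup.subset_normalClosure ⟨d, rfl⟩
  have h1 := (QuotientGroup.eq_one_iff _).2 h
  rw [QuotientGroup.mk_mul, QuotientGroup.mk_inv] at h1
  exact mul_inv_eq_one.1 h1

theorem am_induction {C : Amalg i j → Prop} (x : Amalg i j) (one : C 1)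
    (left : ∀ h x, C x → C (amL i j h * x)) (right : ∀ v x, C x → C (amR i j v * x)) : C x := by
  obtain ⟨y, rfl⟩ := QuotientGroup.mk_surjective x
  induction y using Monoid.Coprod.induction_on' with
  | one => exact one
  | inl_mul m y ih => exact left m _ ih
  | inr_mul m y ih => exact right m _ ih

/-- product of an alternating word -/
def wprod (l : List (V × H)) : Amalg i j :=
  (l.map fun p => amR i j p.1 * amL i j p.2).prod

/-- reducedness of an alternating word -/
def Red (l : List (V × H)) : Prop :=
  (∀ p ∈ l, p.1 ∉ j.range) ∧ l.IsChain fun p _ => p.2 ∉ i.range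

theorem exists_red (x : Amalg i j) :
    ∃ (h : H) (l : List (V × H)), Red i j l ∧ x = amL i j h * wprod i j l := by
  induction x using am_induction i j with
  | one => exact ⟨1, [], ⟨by simp, List.isChain_nil⟩, by simp [wprod]⟩
  | left h x ih =>
    obtain ⟨h0, l, hl, rfl⟩ := ih
    exact ⟨h * h0, l, hl, by rw [map_mul, mul_assoc]⟩
  | right v x ih =>
    obtain ⟨h0, l, hl, rfl⟩ := ih
    by_cases hv : v ∈ j.range
    · obtain ⟨d, rfl⟩ := hv
      exact ⟨i d * h0, l, hl, by rw [← am_eq, map_mul, mul_assoc]⟩
    · by_cases hh : h0 ∈ i.range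
      · obtain ⟨d, rfl⟩ := hh
        cases l with
        | nil =>
          refine ⟨1, [(v, i d)], ⟨by simpa using hv, List.isChain_singleton _⟩, ?_⟩
          simp [wprod]
        | cons p l =>
          have hl2 : Red i j l := by
            refine ⟨fun q hq => hl.1 q (List.mem_cons_of_mem _ hq), ?_⟩
            exact (List.isChain_cons.1 hl.2).2
          have e : amR i j v * (amL i j (i d) * wprod i j (p :: l)) =
              amR i j (v * j d * p.1) * (amL i j p.2 * wprod i j l) := by
            simp only [wprod, List.map_cons, List.prod_cons, map_mul, am_eq, mul_assoc]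
          by_cases hv2 : v * j d * p.1 ∈ j.range
          · obtain ⟨d', hd'⟩ := hv2
            refine ⟨i d' * p.2, l, hl2, ?_⟩
            rw [e, ← hd', ← am_eq, map_mul, mul_assoc]
          · refine ⟨1, (v * j d * p.1, p.2) :: l, ⟨?_, ?_⟩, ?_⟩
            · intro q hq
              rcases List.mem_cons.1 hq with rfl | hq
              · exact hv2
              · exact hl2.1 q hq
            · have := List.isChain_cons.1 hl.2
              exact List.isChain_cons.2 ⟨fun y hy => this.1 y hy, this.2⟩
            · rw [e]
              simp only [wprod, List.map_cons, List.prod_cons, map_one, one_mul, mul_assoc]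
      · refine ⟨1, (v, h0) :: l, ⟨?_, ?_⟩, ?_⟩
        · intro q hq
          rcases List.mem_cons.1 hq with rfl | hq
          · exact hv
          · exact hl.1 q hq
        · exact List.isChain_cons.2 ⟨fun y _ => hh, hl.2⟩
        · simp only [wprod, List.map_cons, List.prod_cons, map_one, one_mul, mul_assoc]

variable (hi : Function.Injective i) (hj : Function.Injective j)

/-- `d ↦ (1, j d)` -/
def aA : D →* H × V := (MonoidHom.inr H V).comp j

/-- `d ↦ (i d, 1)` -/
def aB : D →* H × V := (MonoidHom.inl H V).comp i

theorem aA_inj (hj : Function.Injective j) : Function.Injective (aA (H := H) j) := by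
  intro x y hxy
  exact hj (congrArg Prod.snd hxy)

theorem aB_inj (hi : Function.Injective i) : Function.Injective (aB (V := V) i) := by
  intro x y hxy
  exact hi (congrArg Prod.fst hxy)

/-- the isomorphism of the associated subgroups -/
noncomputable def amPhi : (aA (H := H) j).range ≃* (aB (V := V) i).range :=
  (MonoidHom.ofInjective (aA_inj (H := H) j hj)).symm.trans
    (MonoidHom.ofInjective (aB_inj (V := V) i hi))

theorem amPhi_apply (d : D) :
    ((amPhi i j hi hj ⟨aA (H := H) j d, ⟨d, rfl⟩⟩ : (aB (V := V) i).range) : H × V) = (i d, 1) := by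
  have h1 : (⟨aA (H := H) j d, ⟨d, rfl⟩⟩ : (aA (H := H) j).range) =
      MonoidHom.ofInjective (aA_inj (H := H) j hj) d := rfl
  unfold amPhi
  rw [h1, MulEquiv.trans_apply, MulEquiv.symm_apply_apply]
  rfl

/-- the map to the HNN extension on the free product -/
noncomputable def amF0 : Monoid.Coprod H V →*
    HNNExtension (H × V) (aA (H := H) j).range (aB (V := V) i).range (amPhi i j hi hj) :=
  Monoid.Coprod.lift (of.comp (MonoidHom.inl H V))
    ((MulAut.conj t).toMonoidHom.comp (of.comp (MonoidHom.inr H V)))

theorem amF0_inl (h : H) : amF0 i j hi hj (Monoid.Coprod.inl h) = of (h, 1) := by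
  simp [amF0]

theorem amF0_inr (v : V) : amF0 i j hi hj (Monoid.Coprod.inr v) = t * of (1, v) * t⁻¹ := by
  simp [amF0]

/-- the map to the HNN extension -/
noncomputable def amF : Amalg i j →*
    HNNExtension (H × V) (aA (H := H) j).range (aB (V := V) i).range (amPhi i j hi hj) :=
  QuotientGroup.lift _ (amF0 i j hi hj) (by
    refine Subgroup.normalClosure_le_normal ?_
    rintro _ ⟨d, rfl⟩
    change amF0 i j hi hj _ = 1
    rw [map_mul, map_inv, amF0_inl, amF0_inr, mul_inv_eq_one]
    have h := equiv_eq_conj (φ := amPhi i j hi hj) ⟨aA (H := H) j d, ⟨d, rfl⟩⟩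
    rw [amPhi_apply] at h
    exact h)

theorem amF_L (h : H) : amF i j hi hj (amL i j h) = of (h, 1) := by
  have : amF i j hi hj (amL i j h) = amF0 i j hi hj (Monoid.Coprod.inl h) := rfl
  rw [this, amF0_inl]

theorem amF_R (v : V) : amF i j hi hj (amR i j v) = t * of (1, v) * t⁻¹ := by
  have : amF i j hi hj (amR i j v) = amF0 i j hi hj (Monoid.Coprod.inr v) := rfl
  rw [this, amF0_inr]

/-- list of letters in the HNN extension -/
def toL : List (V × H) → List (ℤˣ × (H × V))
  | [] => []
  | p :: l => (1, (1, p.1)) :: (-1, (p.2, 1)) :: toL l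

theorem toL_chain (l : List (V × H)) (hl : Red i j l) :
    (toL l).IsChain (fun a b => a.2 ∈ toSubgroup (aA (H := H) j).range (aB (V := V) i).range a.1 →
      a.1 = b.1) := by
  induction l with
  | nil => exact List.isChain_nil
  | cons p l ih =>
    have hl2 : Red i j l := by
      refine ⟨fun q hq => hl.1 q (List.mem_cons_of_mem _ hq), ?_⟩
      exact (List.isChain_cons.1 hl.2).2
    refine List.isChain_cons_cons.2 ⟨?_, ?_⟩
    · rintro ⟨d, hd⟩
      exfalso
      exact hl.1 p (by simp) ⟨d, congrArg Prod.snd hd⟩
    · cases l with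
      | nil => exact List.isChain_singleton _
      | cons q l =>
        refine List.isChain_cons_cons.2 ⟨?_, ih hl2⟩
        rintro ⟨d, hd⟩
        exfalso
        exact (List.isChain_cons_cons.1 hl.2).1 ⟨d, congrArg Prod.fst hd⟩

theorem amF_wprod (l : List (V × H)) : amF i j hi hj (wprod i j l) =
    ((toL l).map (fun x => (t ^ (x.1 : ℤ) * of x.2 :
      HNNExtension (H × V) (aA (H := H) j).range (aB (V := V) i).range (amPhi i j hi hj)))).prod := by
  induction l with
  | nil => simp [wprod, toL]
  | cons p l ih =>
    have e : wprod i j (p :: l) = amR i j p.1 * amL i j p.2 * wprod i j l := by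
      simp [wprod]
    rw [e, map_mul, map_mul, amF_R, amF_L, ih]
    simp only [toL, List.map_cons, List.prod_cons, Units.val_one, zpow_one, Units.val_neg,
      zpow_neg, mul_assoc]

theorem amF_injective : Function.Injective (amF i j hi hj) := by
  rw [injective_iff_map_eq_one]
  intro x hx
  obtain ⟨h, l, hl, rfl⟩ := exists_red i j x
  rw [map_mul, amF_L, amF_wprod] at hx
  let w : ReducedWord (H × V) (aA (H := H) j).range (aB (V := V) i).range :=
    { head := (h, 1)
      toList := toL l
      chain := toL_chain i j l hl }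
  have hw : w.prod (amPhi i j hi hj) = 1 := hx
  have h1 := ReducedWord.toList_eq_nil_of_mem_of_range (amPhi i j hi hj) w
    (by rw [hw]; exact one_mem _)
  have h2 : l = [] := by
    cases l with
    | nil => rfl
    | cons p l => simp [w, toL] at h1
  subst h2
  simp only [toL, List.map_nil, List.prod_nil, mul_one] at hx
  have h3 : ((h, 1) : H × V) = 1 := by
    apply of_injective (φ := amPhi i j hi hj)
    rw [hx, map_one]
  have h4 : h = 1 := congrArg Prod.fst h3
  rw [h4]
  simp [wprod]

include hi hj in
/-- **`FPB` passes to amalgamated products.** -/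
theorem fpb_amalg (hH : FPB H) (hV : FPB V) : FPB (Amalg i j) :=
  fpb_of_injective (amF i j hi hj) (amF_injective i j hi hj) (fpb_hnn _ (fpb_prod hH hV))

end amalg

end Vale.Agent.P192.H260
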