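import Vale.Agent.P192.H260.Rover3
import Vale.Agent.P192.H491.Sect

/-!
# P192: the action of the automorphisms of the tree of words on the sequences
-/

namespace Vale.Agent.P192.Rover

open Stream'

variable {X : Type*}

/-- the action on sequences -/
def strFun (g : TreeAut X) (ξ : Stream' X) : Stream' X := fun n =>
  ((g : Equiv.Perm (List X)) (ξ.take (n + 1)))[n]'(by
    rw [ta_length, length_take]; exact Nat.lt_succ_self n)

theorem take_strFun (g : TreeAut X) (ξ : Stream' X) (n : ℕ) :
    (strFun g ξ).take n = (g : Equiv.Perm (List X)) (ξ.take n) := by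
  apply List.ext_getElem
  · rw [length_take, ta_length, length_take]
  · intro i h1 h2
    rw [length_take] at h1
    rw [take_get]
    change ((g : Equiv.Perm (List X)) (ξ.take (i + 1)))[i]'_ = _
    have h3 : ξ.take (i + 1) <+: ξ.take n := by
      have h4 : (ξ.take n).take (i + 1) = ξ.take (i + 1) := by
        rw [take_take, Nat.min_eq_right (by omega)]
      rw [← h4]
      exact List.take_prefix _ _
    have h5 := (ta_prefix g _ _).2 h3
    exact h5.getElem _

theorem strFun_mul (g h : TreeAut X) (ξ : Stream' X) :
    strFun (g * h) ξ = strFun g (strFun h ξ) := by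
  apply take_theorem
  intro n
  rw [take_strFun, take_strFun, take_strFun]
  rfl

theorem strFun_one (ξ : Stream' X) : strFun 1 ξ = ξ := by
  apply take_theorem
  intro n
  rw [take_strFun]
  rfl

/-- **The action of the automorphisms of the tree of words on the sequences.** -/
def str : TreeAut X →* Equiv.Perm (Stream' X) where
  toFun := fun g =>
    { toFun := strFun g
      invFun := strFun g⁻¹
      left_inv := fun ξ => by rw [← strFun_mul, inv_mul_cancel, strFun_one]
      right_inv := fun ξ => by rw [← strFun_mul, mul_inv_cancel, strFun_one] }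
  map_one' := Equiv.ext fun ξ => strFun_one ξ
  map_mul' := fun g h => Equiv.ext fun ξ => strFun_mul g h ξ

theorem take_str (g : TreeAut X) (ξ : Stream' X) (n : ℕ) :
    (str g ξ).take n = (g : Equiv.Perm (List X)) (ξ.take n) := take_strFun g ξ n

theorem ext_take (c : ℕ) {s t : Stream' X} (h : ∀ n, s.take (c + n) = t.take (c + n)) : s = t := by
  apply take_theorem
  intro m
  have h1 := congrArg (List.take m) (h m)
  rwa [take_take, take_take, Nat.min_eq_right (by omega)] at h1

theorem take_append_add (v : List X) (ξ : Stream' X) (n : ℕ) :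
    (v ++ₛ ξ).take (v.length + n) = v ++ ξ.take n :=
  (append_take (x := v) (a := ξ) (n := n)).symm

theorem str_append (g : TreeAut X) (v : List X) (ξ : Stream' X) :
    str g (v ++ₛ ξ) = (g : Equiv.Perm (List X)) v ++ₛ str (sect g v) ξ := by
  apply ext_take v.length
  intro n
  have h1 := take_append_add ((g : Equiv.Perm (List X)) v) (str (sect g v) ξ) n
  rw [ta_length] at h1
  rw [take_str, take_append_add, h1, take_str, sect_spec]

theorem str_injective : Function.Injective (str : TreeAut X →* Equiv.Perm (Stream' X)) := by
  rw [injective_iff_map_eq_one]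
  intro g hg
  apply ta_ext
  intro w
  change (g : Equiv.Perm (List X)) w = w
  rcases isEmpty_or_nonempty X with hX | ⟨⟨x⟩⟩
  · cases w with
    | nil => exact ta_nil g
    | cons x w => exact hX.elim x
  · have h1 := take_str g (w ++ₛ Stream'.const x) w.length
    have h2 := take_append_add w (Stream'.const x) 0
    rw [Nat.add_zero, take_zero, List.append_nil] at h2
    rw [hg, Equiv.Perm.one_apply, h2] at h1
    exact h1.symm

/-- self-similarity of the image -/
theorem selfSim_map {H : Subgroup (TreeAut X)} (hH : ∀ g ∈ H, ∀ x : X, sect g [x] ∈ H) :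
    SelfSim (H.map str) := by
  rintro _ ⟨g, hg, rfl⟩ x
  obtain ⟨y, hy⟩ : ∃ y, (g : Equiv.Perm (List X)) [x] = [y] :=
    List.length_eq_one_iff.1 (ta_length g [x])
  refine ⟨y, str (sect g [x]), ⟨_, hH g hg x, rfl⟩, fun ξ => ?_⟩
  rw [← hy]
  exact str_append g [x] ξ

/-- **The Röver–Nekrashevych group of a self-similar group in the class is in the class.** -/
theorem fpb_RN_tree [Finite X] {H : Subgroup (TreeAut X)} (hH : ∀ g ∈ H, ∀ x : X, sect g [x] ∈ H)
    (hF : FPB H) : FPB (RN (H.map str) (selfSim_map hH)) :=
  fpb_RN (selfSim_map hH)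
    (fpb_of_equiv (H.equivMapOfInjective str str_injective).symm hF)

end Vale.Agent.P192.Rover
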