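import Vale.Agent.P192.H663.CMDefs
import Vale.Agent.P192.H826.PMUnif

/-!
# P192: coarsely piecewise monotone bijections: families
-/

namespace Vale.Agent.P192.CM

open Filter PMUnif

section ultra

variable {ι : Type} (U : Ultrafilter ι) {X : ι → Type} [∀ i, LinearOrder (X i)]

/-- short intervals of the ultraproduct -/
theorem up_short (N : ℕ) (f f' : ∀ i, X i)
    (h : ∀ᶠ i in (U : Filter ι), (Set.Icc (f i) (f' i)).encard ≤ N) :
    (Set.Icc (mk U f) (mk U f')).encard ≤ N := by
  classical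
  by_contra hcon
  rw [not_le] at hcon
  have h1 : ((N + 1 : ℕ) : ℕ∞) ≤ (Set.Icc (mk U f) (mk U f')).encard := by
    have := Order.add_one_le_of_lt hcon
    exact_mod_cast this
  obtain ⟨T, hT, hTc⟩ := Set.exists_subset_encard_eq h1
  have hTf : T.Finite := Set.finite_of_encard_eq_coe hTc
  choose rep hrep using fun x : UP U X => exists_mk U x
  have h2 : ∀ a ∈ T, ∀ᶠ i in (U : Filter ι), rep a i ∈ Set.Icc (f i) (f' i) := by
    intro a ha
    have h3 := hT ha
    rw [← hrep a] at h3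
    have h4 := (mk_le U).1 h3.1
    have h5 := (mk_le U).1 h3.2
    filter_upwards [h4, h5] with i e1 e2
    exact ⟨e1, e2⟩
  have h3 : ∀ a ∈ T, ∀ b ∈ T, a ≠ b → ∀ᶠ i in (U : Filter ι), rep a i ≠ rep b i := by
    intro a _ b _ hab
    rw [← hrep a, ← hrep b, Ne, mk_eq, ← Ultrafilter.eventually_not] at hab
    exact hab
  have h2' : ∀ᶠ i in (U : Filter ι), ∀ a ∈ T, rep a i ∈ Set.Icc (f i) (f' i) :=
    (Filter.eventually_all_finite hTf).2 h2
  have h3' : ∀ᶠ i in (U : Filter ι), ∀ a ∈ T, ∀ b ∈ T, a ≠ b → rep a i ≠ rep b i := by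
    refine (Filter.eventually_all_finite hTf).2 (fun a ha => ?_)
    refine (Filter.eventually_all_finite hTf).2 (fun b hb => ?_)
    by_cases hab : a = b
    · exact Eventually.of_forall (fun i h => absurd hab h)
    · filter_upwards [h3 a ha b hb hab] with i e _
      exact e
  obtain ⟨i, ⟨e1, e2⟩, e3⟩ := ((h2'.and h3').and h).exists
  have h4 : ((fun a : UP U X => rep a i) '' T).encard = T.encard := by
    refine Set.InjOn.encard_image ?_
    intro a ha b hb hab
    by_contra hne
    exact e2 a ha b hb hne hab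
  have h5 : (fun a : UP U X => rep a i) '' T ⊆ Set.Icc (f i) (f' i) := by
    rintro _ ⟨a, ha, rfl⟩
    exact e1 a ha
  have h6 := (Set.encard_le_encard h5).trans e3
  rw [h4, hTc] at h6
  have h7 : (N + 1 : ℕ) ≤ N := by exact_mod_cast h6
  omega

variable {Γ : Type} [Group Γ] (ρ : ∀ i, Γ →* Equiv.Perm (X i))

/-- internal pieces -/
theorem up_pieces (N m : ℕ) (g : Γ)
    (h : ∀ i, ∃ C : Fin m → Set (X i), (∀ x, ∃ j, x ∈ C j) ∧
      ∀ j, (C j).OrdConnected ∧ (CMono N (ρ i g) (C j) ∨ CAnti N (ρ i g) (C j))) :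
    CP (act U ρ g) := by
  choose C hC hG using h
  let D : Fin m → Set (UP U X) := fun j => {x | ∃ f, mk U f = x ∧ ∀ᶠ i in (U : Filter ι), f i ∈ C i j}
  have hD : ∀ (j : Fin m) (f : ∀ i, X i), mk U f ∈ D j ↔ ∀ᶠ i in (U : Filter ι), f i ∈ C i j := by
    intro j f
    constructor
    · rintro ⟨f', h1, h2⟩
      rw [mk_eq] at h1
      filter_upwards [h1, h2] with i hi h2
      rw [← hi]
      exact h2
    · intro h
      exact ⟨f, rfl, h⟩
  refine ⟨N, Set.range D, Set.finite_range D, ?_, ?_⟩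
  · rw [Set.eq_univ_iff_forall]
    intro x
    obtain ⟨f, rfl⟩ := exists_mk U x
    have h1 : ∃ j, mk U f ∈ D j := by
      simp only [hD]
      rw [← Ultrafilter.eventually_exists_iff]
      exact Eventually.of_forall (fun i => hC i (f i))
    obtain ⟨j, hj⟩ := h1
    exact ⟨D j, ⟨j, rfl⟩, hj⟩
  · rintro _ ⟨j, rfl⟩
    refine ⟨⟨?_⟩, ?_⟩
    · intro x hx y hy z hz
      obtain ⟨f, rfl⟩ := exists_mk U x
      obtain ⟨f', rfl⟩ := exists_mk U y
      obtain ⟨f'', rfl⟩ := exists_mk U z
      rw [hD] at hx hy ⊢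
      have h1 := (mk_le U).1 hz.1
      have h2 := (mk_le U).1 hz.2
      filter_upwards [hx, hy, h1, h2] with i e1 e2 e3 e4
      exact (hG i j).1.out e1 e2 ⟨e3, e4⟩
    · have h1 : ∀ᶠ i in (U : Filter ι), CMono N (ρ i g) (C i j) ∨ CAnti N (ρ i g) (C i j) :=
        Eventually.of_forall (fun i => (hG i j).2)
      rw [Ultrafilter.eventually_or] at h1
      rcases h1 with h1 | h1
      · left
        intro x hx y hy hxy
        obtain ⟨f, rfl⟩ := exists_mk U x
        obtain ⟨f', rfl⟩ := exists_mk U y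
        rw [hD] at hx hy
        rw [mk_lt] at hxy
        rw [act_mk, act_mk, mk_lt]
        have h2 : ∀ᶠ i in (U : Filter ι), (Set.Icc (f i) (f' i)).encard ≤ N ∨
            ρ i g (f i) < ρ i g (f' i) := by
          filter_upwards [hx, hy, hxy, h1] with i e1 e2 e3 e4
          exact e4 _ e1 _ e2 e3
        rw [Ultrafilter.eventually_or] at h2
        rcases h2 with h2 | h2
        · exact Or.inl (up_short U N f f' h2)
        · exact Or.inr h2
      · right
        intro x hx y hy hxy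
        obtain ⟨f, rfl⟩ := exists_mk U x
        obtain ⟨f', rfl⟩ := exists_mk U y
        rw [hD] at hx hy
        rw [mk_lt] at hxy
        rw [act_mk, act_mk, mk_lt]
        have h2 : ∀ᶠ i in (U : Filter ι), (Set.Icc (f i) (f' i)).encard ≤ N ∨
            ρ i g (f' i) < ρ i g (f i) := by
          filter_upwards [hx, hy, hxy, h1] with i e1 e2 e3 e4
          exact e4 _ e1 _ e2 e3
        rw [Ultrafilter.eventually_or] at h2
        rcases h2 with h2 | h2
        · exact Or.inl (up_short U N f f' h2)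
        · exact Or.inr h2

end ultra

/-- **Families of coarsely piecewise monotone bijections.** -/
theorem cm_family
    (main : ∀ (K : Type) [LinearOrder K] (G : Subgroup (Equiv.Perm K)), (∀ g ∈ G, CP g) → FPB G)
    (B : Type) (X : B → Type) [∀ b, LinearOrder (X b)] (G : Subgroup (∀ b, Equiv.Perm (X b)))
    (hG : ∀ g ∈ G, ∃ N m : ℕ, ∀ b, ∃ C : Fin m → Set (X b), (∀ x, ∃ j, x ∈ C j) ∧
      ∀ j, (C j).OrdConnected ∧ (CMono N (g b) (C j) ∨ CAnti N (g b) (C j))) : FPB G := by
  intro Γ _ hΓ ht f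
  let ρ : ∀ b : B, Γ →* Equiv.Perm (X b) := fun b =>
    (Pi.evalMonoidHom (fun b => Equiv.Perm (X b)) b).comp (G.subtype.comp f)
  have hρ : ∀ (b : B) (γ : Γ), ρ b γ = (f γ).1 b := fun _ _ => rfl
  by_contra hinf
  have h1 : ∀ N : {N : Subgroup Γ // N.Normal ∧ N.FiniteIndex}, ∃ g ∈ N.1, ∃ b, ρ b g ≠ 1 := by
    intro N
    by_contra h2
    push Not at h2
    apply hinf
    have hN := N.2.2
    have hle : N.1 ≤ f.ker := by
      intro g hg
      rw [MonoidHom.mem_ker]
      apply Subtype.ext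
      funext b
      exact h2 g hg b
    have hfi : f.ker.FiniteIndex := Subgroup.finiteIndex_of_le hle
    exact Finite.of_equiv _ (QuotientGroup.quotientKerEquivRange f).toEquiv
  choose g hg b hne using h1
  have hdir : IsDirected {N : Subgroup Γ // N.Normal ∧ N.FiniteIndex} (fun a b => a ≥ b) := by
    refine ⟨?_⟩
    rintro ⟨A, hA1, hA2⟩ ⟨B, hB1, hB2⟩
    refine ⟨⟨A ⊓ B, inferInstance, inferInstance⟩, ?_, ?_⟩
    · show A ⊓ B ≤ A
      exact inf_le_left
    · show A ⊓ B ≤ B
      exact inf_le_right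
  have : Nonempty {N : Subgroup Γ // N.Normal ∧ N.FiniteIndex} :=
    ⟨⟨⊤, inferInstance, inferInstance⟩⟩
  let U : Ultrafilter {N : Subgroup Γ // N.Normal ∧ N.FiniteIndex} := Ultrafilter.of Filter.atBot
  have hU : ∀ N0 : {N : Subgroup Γ // N.Normal ∧ N.FiniteIndex},
      ∀ᶠ N in (U : Filter _), N ≤ N0 :=
    fun N0 => (Ultrafilter.of_le Filter.atBot) (Filter.eventually_le_atBot N0)
  let Y : {N : Subgroup Γ // N.Normal ∧ N.FiniteIndex} → Type := fun i => X (b i)
  let _ : ∀ i, LinearOrder (Y i) := fun i => inferInstanceAs (LinearOrder (X (b i)))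
  let τ : ∀ i, Γ →* Equiv.Perm (Y i) := fun i => ρ (b i)
  have hX : ∀ i, Nonempty (Y i) := by
    intro i
    by_contra h2
    rw [not_nonempty_iff] at h2
    apply hne i
    have h3 : IsEmpty (X (b i)) := h2
    ext x
    exact isEmptyElim x
  have hpw : ∀ γ : Γ, CP (act U τ γ) := by
    intro γ
    obtain ⟨N, m, h⟩ := hG _ (f γ).2
    exact up_pieces U τ N m γ (fun i => h (b i))
  have hF : FPB (act U τ).range := main (UP U Y) (act U τ).range (by
    rintro _ ⟨γ, rfl⟩
    exact hpw γ)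
  have hfin : Finite (act U τ).rangeRestrict.range := hF Γ hΓ ht (act U τ).rangeRestrict
  have hker : (act U τ).ker.FiniteIndex := by
    rw [← MonoidHom.ker_rangeRestrict]
    exact Subgroup.finiteIndex_ker _
  have hΓfg : Group.FG Γ := by
    obtain ⟨n, φ, hφ, -⟩ := hΓ
    exact Group.fg_of_surjective hφ
  have hfg : (act U τ).ker.FG := (Group.fg_iff_subgroup_fg _).1 (Subgroup.fg_of_index_ne_zero _)
  obtain ⟨T, hT⟩ := hfg
  have h3 : ∀ᶠ i in (U : Filter _), ∀ t ∈ T, τ i t = 1 := by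
    rw [Filter.eventually_all_finset]
    intro t ht'
    apply act_eq_one U τ hX
    have h4 : t ∈ (act U τ).ker := by
      rw [← hT]
      exact Subgroup.subset_closure ht'
    exact h4
  obtain ⟨i, hi1, hi2⟩ := ((hU ⟨(act U τ).ker, inferInstance, hker⟩).and h3).exists
  apply hne i
  have h4 : (act U τ).ker ≤ (τ i).ker := by
    rw [← hT, Subgroup.closure_le]
    intro t ht'
    exact hi2 t ht'
  exact h4 (hi1 (hg i))

end Vale.Agent.P192.CM
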