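import Vale.Agent.P192.H260.CMain
import Vale.Agent.P192.H260.CMFam
import Vale.Agent.P192.H663.CMBad
import Vale.Agent.P192.H663.CMUlt
import Vale.Agent.P192.H14.Wob

/-!
# P192: coarsely piecewise monotone bijections of linear orders
-/

namespace Vale.Agent.P192.CM

/-- **Coarsely piecewise monotone groups.** -/
theorem coarse (K : Type) [LinearOrder K] (G : Subgroup (Equiv.Perm K))
    (hG : ∀ g ∈ G, CP g) : FPB G :=
  cmain bad_proof H14.wob ult_proof K G hG

/-- **Families of coarsely piecewise monotone bijections.** -/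
theorem coarse_family (B : Type) (X : B → Type) [∀ b, LinearOrder (X b)]
    (G : Subgroup (∀ b, Equiv.Perm (X b)))
    (hG : ∀ g ∈ G, ∃ N m : ℕ, ∀ b, ∃ C : Fin m → Set (X b), (∀ x, ∃ j, x ∈ C j) ∧
      ∀ j, (C j).OrdConnected ∧ (CMono N (g b) (C j) ∨ CAnti N (g b) (C j))) : FPB G :=
  cm_family coarse B X G hG

end Vale.Agent.P192.CM
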