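import Vale.Agent.P192.H663.CMDefs
import Vale.Agent.P192.H663.Calc
import Vale.Agent.P192.H826.PMUnif
import Vale.Agent.P192.H834.PMain

/-!
# P192: coarsely piecewise monotone bijections of linear orders: assembly
-/

namespace Vale.Agent.P192.CM

open Set

/-- **Coarsely piecewise monotone groups.** -/
theorem cmain (hB : BAD_statement) (hW : WOB_statement) (hU : ULT_statement)
    (K : Type) [LinearOrder K] (G : Subgroup (Equiv.Perm K)) (hG : ∀ g ∈ G, CP g) : FPB G := by
  have hbd : ∀ g ∈ G, BD g := fun g hg => hB K g (hG g hg) (hG g⁻¹ (G.inv_mem hg))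
  obtain ⟨Q, iQ, q, hq, hker⟩ := hU K G hG hbd
  -- the quotient action is piecewise monotone
  have hr : FPB q.range := by
    refine PMUnif.single H834.pmain Q q.range ?_
    rintro _ ⟨g, rfl⟩
    exact hq g
  have hQ : FPB q.range := hr
  -- the kernel moves points boundedly
  let L : Subgroup (Equiv.Perm K) := q.ker.map G.subtype
  have hL : FPB L := by
    refine hW K L ?_
    rintro _ ⟨g, hg, rfl⟩
    exact hker g hg
  let e : q.ker ≃* L := Subgroup.equivMapOfInjective q.ker G.subtype G.subtype_injective
  have hK : FPB q.ker := by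
    intro Γ _ hΓ ht f
    have h1 : Finite (e.toMonoidHom.comp f).range := hL Γ hΓ ht _
    have h2 : (e.toMonoidHom.comp f).range = f.range.map e.toMonoidHom := MonoidHom.range_comp _ _
    rw [h2] at h1
    exact Finite.of_equiv _ (f.range.equivMapOfInjective e.toMonoidHom e.injective).symm.toEquiv
  have hK' : FPB q.rangeRestrict.ker := by
    rw [MonoidHom.ker_rangeRestrict]
    exact hK
  exact fpb_ext q.rangeRestrict hQ hK'

end Vale.Agent.P192.CM
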