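import Vale.Agent.P192.H663.RelColour

/-!
# P192: the tree of the monochromatic components of a coloured triangular presentation

As `H663/ColTree.lean`, for any number of colours such that every triangle has two vertices of
the same colour.
-/

namespace Vale.Agent.P192.ColTreeK

open Vale.Agent.P192.SS

variable {T κ : Type} [Group T] {N : Set T} (C : LC N → κ)

/-- monochromatic edges -/
def same (x z : LC N) : Prop := C x = C z ∧ ∃ a : N, z = gen a * x

/-- the monochromatic components -/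
abbrev V : Type := Quot (same C)

/-- the component of an element -/
abbrev mk (x : LC N) : V C := Quot.mk _ x

theorem mk_of_same {x z : LC N} (a : N) (h : z = gen a * x) (hC : C x = C z) : mk C x = mk C z :=
  Quot.sound ⟨hC, a, h⟩

/-- the colour of a component -/
def col : V C → κ := Quot.lift C (fun _ _ h => h.1)

theorem col_mk (x : LC N) : col C (mk C x) = C x := rfl

/-- the graph of the components -/
def G : SimpleGraph (V C) where
  Adj P Q := ∃ x z : LC N, (∃ a : N, z = gen a * x ∨ x = gen a * z) ∧ ¬ C x = C z ∧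
    mk C x = P ∧ mk C z = Q
  symm := ⟨by
    rintro P Q ⟨x, z, ⟨a, h⟩, h2, h3, h4⟩
    exact ⟨z, x, ⟨a, h.symm⟩, fun h => h2 h.symm, h4, h3⟩⟩
  loopless := ⟨by
    rintro P ⟨x, z, -, h2, h3, h4⟩
    have h5 : col C (mk C x) = col C (mk C z) := by rw [h3, h4]
    rw [col_mk, col_mk] at h5
    exact h2 h5⟩

theorem reach_gen (a : N) (x : LC N) : (G C).Reachable (mk C x) (mk C (gen a * x)) := by
  by_cases h : C x = C (gen a * x)
  · rw [mk_of_same C a rfl h]
  · exact SimpleGraph.Adj.reachable ⟨x, gen a * x, ⟨a, Or.inl rfl⟩, h, rfl, rfl⟩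

theorem reach (g : LC N) : ∀ x, (G C).Reachable (mk C x) (mk C (g * x)) := by
  refine LC_induction N (P := fun g => ∀ x, (G C).Reachable (mk C x) (mk C (g * x)))
    ?_ ?_ ?_ ?_ g
  · intro x
    rw [one_mul]
  · exact reach_gen C
  · intro g hg x
    have := hg (g⁻¹ * x)
    rw [mul_inv_cancel_left] at this
    exact this.symm
  · intro g h hg hh x
    rw [mul_assoc]
    exact (hh x).trans (hg _)

open Classical in
/-- the cochain of an edge -/
noncomputable def th (A B P Q : V C) : ℤ :=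
  if P = A ∧ Q = B then 1 else if P = B ∧ Q = A then -1 else 0

theorem th_self {A B : V C} (hAB : A ≠ B) (P : V C) : th C A B P P = 0 := by
  unfold th
  rw [if_neg, if_neg]
  · rintro ⟨h1, h2⟩
    exact hAB (h2.symm.trans h1)
  · rintro ⟨h1, h2⟩
    exact hAB (h1.symm.trans h2)

theorem th_symm {A B : V C} (hAB : A ≠ B) (P Q : V C) : th C A B P Q + th C A B Q P = 0 := by
  unfold th
  by_cases h1 : P = A ∧ Q = B
  · obtain ⟨rfl, rfl⟩ := h1
    rw [if_pos ⟨rfl, rfl⟩, if_neg, if_pos ⟨rfl, rfl⟩]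
    · rfl
    · rintro ⟨h, -⟩
      exact hAB h.symm
  · by_cases h2 : P = B ∧ Q = A
    · obtain ⟨rfl, rfl⟩ := h2
      rw [if_neg h1, if_pos ⟨rfl, rfl⟩, if_pos ⟨rfl, rfl⟩]
      rfl
    · rw [if_neg h1, if_neg h2, if_neg (fun h => h2 ⟨h.2, h.1⟩), if_neg (fun h => h1 ⟨h.2, h.1⟩)]
      rfl

/-- every triangle has two vertices of the same colour -/
def Tri : Prop := ∀ a b c : N, (a : T) * (b : T) = (c : T) → ∀ x : LC N,
  C x = C (gen b * x) ∨ C (gen b * x) = C (gen c * x) ∨ C x = C (gen c * x)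

theorem th_triangle {A B : V C} (hAB : A ≠ B) (a b c : N) (x : LC N)
    (ht : C x = C (gen b * x) ∨ C (gen b * x) = C (gen c * x) ∨ C x = C (gen c * x))
    (h : gen a * (gen b * x) = gen c * x) :
    th C A B (mk C (gen b * x)) (mk C (gen a * (gen b * x))) + th C A B (mk C x) (mk C (gen b * x)) =
      th C A B (mk C x) (mk C (gen c * x)) := by
  by_cases h1 : C x = C (gen b * x)
  · rw [mk_of_same C b rfl h1, th_self C hAB, add_zero, h]
  · by_cases h2 : C (gen b * x) = C (gen a * (gen b * x))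
    · rw [← mk_of_same C a rfl h2, th_self C hAB, zero_add, mk_of_same C a rfl h2, h]
    · have h3 : C x = C (gen c * x) := by
        rw [h] at h2
        tauto
      rw [← mk_of_same C c rfl h3, th_self C hAB, h, ← mk_of_same C c rfl h3]
      exact th_symm C hAB _ _

variable (hT : Tri C)

/-- the integral of the cochain, as a homomorphism -/
noncomputable def Th (A B : V C) (hAB : A ≠ B) : LC N →* Wr (Multiplicative ℤ) (LC N) :=
  PresentedGroup.toGroup (f := fun a : N => ⟨Equiv.mulLeft (gen a), fun x =>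
    Multiplicative.ofAdd (th C A B (mk C x) (mk C (gen a * x)))⟩) (by
    rintro _ ⟨a, b, c, h, rfl⟩
    rw [map_mul, map_mul, map_inv, FreeGroup.lift_apply_of, FreeGroup.lift_apply_of,
      FreeGroup.lift_apply_of, mul_inv_eq_one]
    have h0 : ∀ x : LC N, gen a * (gen b * x) = gen c * x := by
      intro x
      rw [← mul_assoc, gen_mul a b c h]
    refine Wr.ext' ?_ ?_
    · ext x
      simp only [Wr.mul_p, Equiv.Perm.mul_apply, Equiv.coe_mulLeft]
      exact h0 x
    · intro x
      simp only [Wr.mul_f, Equiv.coe_mulLeft]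
      rw [← ofAdd_add]
      exact congrArg Multiplicative.ofAdd (th_triangle C hAB a b c x (hT a b c h x) (h0 x)))

include hT in
theorem Th_gen (A B : V C) (hAB : A ≠ B) (a : N) : Th C hT A B hAB (gen a) =
    ⟨Equiv.mulLeft (gen a), fun x =>
      Multiplicative.ofAdd (th C A B (mk C x) (mk C (gen a * x)))⟩ := PresentedGroup.toGroup.of _

include hT in
theorem Th_p (A B : V C) (hAB : A ≠ B) (g : LC N) : ∀ x, (Th C hT A B hAB g).p x = g * x := by
  refine LC_induction N (P := fun g => ∀ x, (Th C hT A B hAB g).p x = g * x) ?_ ?_ ?_ ?_ g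
  · intro x
    rw [map_one, one_mul]
    rfl
  · intro a x
    rw [Th_gen]
    rfl
  · intro g hg x
    rw [map_inv]
    change (Th C hT A B hAB g).p⁻¹ x = _
    rw [Equiv.Perm.inv_eq_iff_eq, hg, mul_inv_cancel_left]
  · intro g h hg hh x
    rw [map_mul]
    change (Th C hT A B hAB g).p ((Th C hT A B hAB h).p x) = _
    rw [hh, hg, mul_assoc]

/-- the integral -/
noncomputable def F (A B : V C) (hAB : A ≠ B) (g : LC N) : ℤ :=
  Multiplicative.toAdd ((Th C hT A B hAB g).f 1)

include hT in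
theorem F_gen (A B : V C) (hAB : A ≠ B) (a : N) (g : LC N) : F C hT A B hAB (gen a * g) =
    th C A B (mk C g) (mk C (gen a * g)) + F C hT A B hAB g := by
  unfold F
  rw [map_mul, Wr.mul_f, toAdd_mul, Th_p, mul_one, Th_gen]
  rfl

/-- the integral on the components -/
noncomputable def FV (A B : V C) (hAB : A ≠ B) : V C → ℤ :=
  Quot.lift (F C hT A B hAB) (by
    rintro x z ⟨h, a, rfl⟩
    rw [F_gen, ← mk_of_same C a rfl h, th_self C hAB, zero_add])

include hT in
theorem FV_adj (A B : V C) (hAB : A ≠ B) {P Q : V C} (h : (G C).Adj P Q) :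
    FV C hT A B hAB Q - FV C hT A B hAB P = th C A B P Q := by
  obtain ⟨x, z, ⟨a, h | h⟩, -, rfl, rfl⟩ := h
  · subst h
    change F C hT A B hAB (gen a * x) - F C hT A B hAB x = _
    rw [F_gen]
    ring
  · subst h
    change F C hT A B hAB z - F C hT A B hAB (gen a * z) = _
    rw [F_gen]
    have := th_symm C hAB (mk C z) (mk C (gen a * z))
    linarith

include hT in
/-- **The graph of the components is a tree.** -/
theorem isTree : (G C).IsTree := by
  refine ⟨⟨?_⟩, ?_⟩
  · intro P Q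
    obtain ⟨x, rfl⟩ := Quot.exists_rep P
    obtain ⟨z, rfl⟩ := Quot.exists_rep Q
    have := reach C (z * x⁻¹) x
    rwa [inv_mul_cancel_right] at this
  · rw [SimpleGraph.isAcyclic_iff_forall_adj_isBridge]
    intro A B hAB
    have hne : A ≠ B := hAB.ne
    rw [SimpleGraph.isBridge_iff]
    rintro ⟨p⟩
    have key : ∀ {P Q : V C} (p : ((G C).deleteEdges {s(A, B)}).Walk P Q),
        FV C hT A B hne P = FV C hT A B hne Q := by
      intro P Q p
      induction p with
      | nil => rfl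
      | @cons P R Q h p ih =>
        rw [← ih]
        rw [SimpleGraph.deleteEdges_adj] at h
        have h1 := FV_adj C hT A B hne h.1
        have h2 : th C A B P R = 0 := by
          unfold th
          rw [if_neg, if_neg]
          · rintro ⟨rfl, rfl⟩
            exact h.2 (Sym2.eq_swap)
          · rintro ⟨rfl, rfl⟩
            exact h.2 rfl
        rw [h2] at h1
        linarith
    have h1 := FV_adj C hT A B hne hAB
    have h2 : th C A B A B = 1 := if_pos ⟨rfl, rfl⟩
    rw [h2, key p] at h1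
    linarith

/-- the even subgroup -/
theorem exists_even {V : Type*} {d : V → V → ℕ} (h : H260.IsTree d) [Nonempty V] {G : Type*}
    [Group G] [MulAction G V] (hiso : ∀ (g : G) (u v : V), d (g • u) (g • v) = d u v) :
    ∃ E : Subgroup G, E.FiniteIndex ∧ ∀ g ∈ E, ∀ v : V, Even (d v (g • v)) := by
  obtain ⟨v0⟩ := ‹Nonempty V›
  have hmul : ∀ g k : G, Even (d v0 (g • v0) + d v0 (k • v0) + d v0 ((g * k) • v0)) := by
    intro g k
    have h1 := H260.parity h _ v0 (g • v0) ((g * k) • v0) rfl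
    rw [mul_smul, hiso g v0 (k • v0), ← mul_smul] at h1
    have e : d v0 ((g * k) • v0) + d v0 (k • v0) + d v0 (g • v0) =
      d v0 (g • v0) + d v0 (k • v0) + d v0 ((g * k) • v0) := by ring
    rwa [e] at h1
  -- the parity homomorphism
  let ε : G →* ℤˣ :=
    { toFun := fun g => (-1) ^ (d v0 (g • v0))
      map_one' := by rw [one_smul, H260.d_self h, pow_zero]
      map_mul' := by
        intro g k
        have h1 := hmul g k
        rw [← pow_add]
        rcases Nat.even_or_odd (d v0 (g • v0) + d v0 (k • v0)) with h2 | h2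
        · have h3 : Even (d v0 ((g * k) • v0)) := (Nat.even_add.1 h1).1 h2
          rw [h2.neg_one_pow, h3.neg_one_pow]
        · have h3 : Odd (d v0 ((g * k) • v0)) := by
            rw [← Nat.not_even_iff_odd] at h2 ⊢
            exact fun h4 => h2 ((Nat.even_add.1 h1).2 h4)
          rw [h2.neg_one_pow, h3.neg_one_pow] }
  refine ⟨ε.ker, ?_, ?_⟩
  · have : Finite (G ⧸ ε.ker) := Finite.of_equiv _
      (QuotientGroup.quotientKerEquivRange ε).toEquiv.symm
    exact Subgroup.finiteIndex_of_finite_quotient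
  · intro g hg v
    have hg : ε g = 1 := hg
    have h1 : Even (d v0 (g • v0)) := by
      by_contra h2
      rw [Nat.not_even_iff_odd] at h2
      have h3 : ε g = (-1) ^ (d v0 (g • v0)) := rfl
      rw [h3, h2.neg_one_pow] at hg
      exact absurd hg (by decide)
    have h2 := H260.parity h _ v (g • v) v0 rfl
    have h3 := H260.parity h _ v0 (g • v0) (g • v) rfl
    rw [hiso g v0 v, h.symm v0 (g • v), h.symm v0 v] at h3
    have h4 : Even (d (g • v) v0 + d v v0) := by
      have := (Nat.even_add.1 h3).2 h1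
      exact this
    have h5 : Even (d v v0 + d (g • v) v0) := by rwa [add_comm]
    exact (Nat.even_add.1 h2).1 h5

include hT in
/-- **Fixed components.** -/
theorem exists_comp {Γ : Type} [Group Γ] [Group.FG Γ] (ht : ∀ x : Γ, IsOfFinOrder x)
    (f : Γ →* LC N) (hf : ∀ (γ : Γ) (x : LC N), C (x * f γ) = C x) :
    ∃ E : Subgroup Γ, E.FiniteIndex ∧ ∃ x : LC N, ∀ γ ∈ E,
      Relation.EqvGen (same C) x (x * f γ) := by
  classical
  have hs : ∀ (γ : Γ) (x z : LC N), same C x z → same C (x * f γ) (z * f γ) := by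
    rintro γ x z ⟨h, a, rfl⟩
    exact ⟨by rw [hf, hf]; exact h, a, by rw [mul_assoc]⟩
  let act : MulAction Γ (V C) :=
    { smul := fun γ => Quot.map (fun x => x * f γ⁻¹) (fun x z h => hs γ⁻¹ x z h)
      one_smul := by
        intro P
        obtain ⟨x, rfl⟩ := Quot.exists_rep P
        change mk C (x * f 1⁻¹) = mk C x
        rw [inv_one, map_one, mul_one]
      mul_smul := by
        intro g h P
        obtain ⟨x, rfl⟩ := Quot.exists_rep P
        change mk C (x * f (g * h)⁻¹) = mk C (x * f h⁻¹ * f g⁻¹)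
        rw [mul_inv_rev, map_mul, mul_assoc] }
  have hsm : ∀ (γ : Γ) (x : LC N), γ • mk C x = mk C (x * f γ⁻¹) := fun _ _ => rfl
  have hadj : ∀ (γ : Γ) (P Q : V C), (G C).Adj P Q → (G C).Adj (γ • P) (γ • Q) := by
    rintro γ P Q ⟨x, z, ⟨a, h⟩, h2, rfl, rfl⟩
    refine ⟨x * f γ⁻¹, z * f γ⁻¹, ⟨a, ?_⟩, ?_, rfl, rfl⟩
    · rcases h with h | h
      · left; rw [h, mul_assoc]
      · right; rw [h, mul_assoc]
    · rw [hf, hf]; exact h2
  have hT' := isTree C hT
  have hle : ∀ (g : Γ) (u v : V C), (G C).dist (g • u) (g • v) ≤ (G C).dist u v := by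
    intro g u v
    obtain ⟨p, hp⟩ := hT'.connected.exists_walk_length_eq_dist u v
    let φ : (G C) →g (G C) := ⟨fun x => g • x, fun {a b} hab => hadj g a b hab⟩
    have := SimpleGraph.dist_le (p.map φ)
    rw [SimpleGraph.Walk.length_map, hp] at this
    exact this
  have hiso : ∀ (g : Γ) (u v : V C), (G C).dist (g • u) (g • v) = (G C).dist u v := by
    intro g u v
    refine le_antisymm (hle g u v) ?_
    have := hle g⁻¹ (g • u) (g • v)
    rwa [inv_smul_smul, inv_smul_smul] at this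
  have hne : Nonempty (V C) := ⟨mk C 1⟩
  obtain ⟨E, hE, hev⟩ := exists_even (H260.isTree_dist hT') hiso
  have hEfg : Group.FG E := Subgroup.fg_of_index_ne_zero E
  have hEt : ∀ x : E, IsOfFinOrder x := fun x =>
    (Submonoid.isOfFinOrder_coe (H := E.toSubmonoid) (x := x)).1 (ht x.1)
  obtain ⟨P, hP⟩ := H260.exists_fixed (H260.isTree_dist hT') (Γ := E)
    (fun g u v => hiso g.1 u v) hEt (fun g v => hev g.1 g.2 v)
  obtain ⟨x, rfl⟩ := Quot.exists_rep P
  refine ⟨E, hE, x, fun γ hγ => ?_⟩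
  have h1 : γ⁻¹ • mk C x = mk C x := hP ⟨γ⁻¹, E.inv_mem hγ⟩
  rw [hsm, inv_inv] at h1
  exact (Quot.eqvGen_exact h1).symm

end Vale.Agent.P192.ColTreeK

namespace Vale.Agent.P192

open Group Subgroup

namespace SS

variable {T Y κ : Type} [Group T] (S : SS T Y)

/-- one step of a chain of one colour, with the section carried along -/
def kstep (N : Set T) (c : Y → κ) (p q : Y × T) : Prop :=
  c p.1 = c q.1 ∧ ∃ a ∈ N, q = (S.σ a p.1, S.sec a p.1 * p.2)

theorem kstep_mul (N : Set T) (c : Y → κ) (r : T) {p q : Y × T}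
    (h : Relation.EqvGen (S.kstep N c) p q) :
    Relation.EqvGen (S.kstep N c) (p.1, p.2 * r) (q.1, q.2 * r) := by
  induction h with
  | rel x y h =>
    obtain ⟨h1, a, ha, rfl⟩ := h
    exact Relation.EqvGen.rel _ _ ⟨h1, a, ha, by simp [mul_assoc]⟩
  | refl x => exact Relation.EqvGen.refl _
  | symm x y _ ih => exact ih.symm
  | trans x y z _ _ ih1 ih2 => exact ih1.trans _ _ _ ih2

variable (N : Set T) (h1 : (1 : T) ∈ N) (hN : ∀ a ∈ N, ∀ y, S.sec a y ∈ N)

/-- The sections at a letter of the elements of a subgroup which acts trivially on the letters. -/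
theorem sec_finiteK (c : Y → κ)
    (hc : ∀ a ∈ N, ∀ b ∈ N, a * b ∈ N → ∀ y, c y = c (S.σ b y) ∨
      c (S.σ b y) = c (S.σ (a * b) y) ∨ c y = c (S.σ (a * b) y))
    (hP : ∀ y : Y, FPB (Subgroup.closure {x : T | Relation.EqvGen (S.kstep N c) (y, 1) (y, x)}))
    (K : Type) [Group K] (hKfp : IsFinitelyPresented K) (hKt : ∀ x : K, IsOfFinOrder x)
    (f : K →* LC N) (hKσ : ∀ γ : K, S.σ (πC N (f γ)) = 1) (y0 : Y) :
    {t | ∃ γ : K, t = S.sec (πC N (f γ)) y0}.Finite := by
  have hKfg : Group.FG K := by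
    obtain ⟨n, ψ, hψ, -⟩ := id hKfp
    exact Group.fg_of_surjective hψ
  let C : LC N → κ := fun x => c (S.σ (πC N x) y0)
  have hT : ColTreeK.Tri C := by
    intro a b d hd x
    change c (S.σ (πC N x) y0) = c (S.σ (πC N (gen b * x)) y0) ∨
      c (S.σ (πC N (gen b * x)) y0) = c (S.σ (πC N (gen d * x)) y0) ∨
      c (S.σ (πC N x) y0) = c (S.σ (πC N (gen d * x)) y0)
    have e : ∀ g : N, S.σ (πC N (gen g * x)) y0 = S.σ (g : T) (S.σ (πC N x) y0) := by
      intro g
      rw [map_mul, πC_gen, map_mul]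
      rfl
    have h := hc a a.2 b b.2 (by rw [hd]; exact d.2) (S.σ (πC N x) y0)
    rw [hd] at h
    rw [e b, e d]
    exact h
  obtain ⟨E, hE, x, hx⟩ := ColTreeK.exists_comp C hT hKt f (by
    intro γ x
    change c (S.σ (πC N (x * f γ)) y0) = c (S.σ (πC N x) y0)
    rw [map_mul, map_mul, hKσ γ, mul_one])
  set u := S.σ (πC N x) y0 with hu
  set t := S.sec (πC N x) y0 with htt
  -- the sections
  let s : K →* T :=
    { toFun := fun γ => S.sec (πC N (f γ)) y0
      map_one' := by
        change S.sec (πC N (f 1)) y0 = 1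
        rw [map_one, map_one, S.sec_one]
      map_mul' := by
        intro a b
        rw [map_mul, map_mul, S.sec_mul, hKσ b]
        rfl }
  have hmap : ∀ x z : LC N, Relation.EqvGen (ColTreeK.same C) x z →
      Relation.EqvGen (S.kstep N c) (S.σ (πC N x) y0, S.sec (πC N x) y0)
        (S.σ (πC N z) y0, S.sec (πC N z) y0) := by
    intro x z h
    induction h with
    | rel x z h =>
      obtain ⟨h2, a, rfl⟩ := h
      refine Relation.EqvGen.rel _ _ ⟨h2, a, a.2, ?_⟩
      rw [map_mul, πC_gen, map_mul, S.sec_mul]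
      rfl
    | refl x => exact Relation.EqvGen.refl _
    | symm x z _ ih => exact ih.symm
    | trans x z w _ _ ih1 ih2 => exact ih1.trans _ _ _ ih2
  have hmem : ∀ γ : E, t * s γ * t⁻¹ ∈ Subgroup.closure
      {x : T | Relation.EqvGen (S.kstep N c) (u, 1) (u, x)} := by
    intro γ
    apply Subgroup.subset_closure
    have h2 := hmap _ _ (hx γ γ.2)
    have h3 : S.σ (πC N (x * f γ)) y0 = u := by
      rw [map_mul, map_mul, hKσ γ, mul_one]
    have h4 : S.sec (πC N (x * f γ)) y0 = t * s γ := by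
      rw [map_mul, S.sec_mul, hKσ γ]
      rfl
    rw [h3, h4] at h2
    have h5 := S.kstep_mul N c t⁻¹ h2
    change Relation.EqvGen (S.kstep N c) (u, t * t⁻¹) (u, t * s γ * t⁻¹) at h5
    rw [mul_inv_cancel] at h5
    exact h5
  have hEfp : IsFinitelyPresented E := fp_of_finiteIndex K E
  have hEt : ∀ x : E, IsOfFinOrder x := fun x =>
    (Submonoid.isOfFinOrder_coe (H := E.toSubmonoid) (x := x)).1 (hKt x.1)
  have hfin := hP u E hEfp hEt
    (((MulAut.conj t).toMonoidHom.comp (s.comp E.subtype)).codRestrict _ hmem)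
  have hfin2 : ((fun z : Subgroup.closure {x : T | Relation.EqvGen (S.kstep N c) (u, 1) (u, x)} =>
      t⁻¹ * z.1 * t) ''
        ((((MulAut.conj t).toMonoidHom.comp (s.comp E.subtype)).codRestrict _ hmem).range :
        Set _)).Finite := (Set.toFinite _).image _
  have hsE : (s '' (E : Set K)).Finite := by
    refine hfin2.subset ?_
    rintro _ ⟨γ, hγ, rfl⟩
    refine ⟨_, ⟨⟨γ, hγ⟩, rfl⟩, ?_⟩
    change t⁻¹ * (t * s γ * t⁻¹) * t = s γ
    group
  have hsr : Finite s.range := finite_range_of s E hsE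
  refine (Set.toFinite (s.range : Set T)).subset ?_
  rintro _ ⟨γ, rfl⟩
  exact ⟨γ, rfl⟩

theorem base_finiteK [Finite Y] (hf : S.Faithful) (c : Y → κ)
    (hc : ∀ a ∈ N, ∀ b ∈ N, a * b ∈ N → ∀ y, c y = c (S.σ b y) ∨
      c (S.σ b y) = c (S.σ (a * b) y) ∨ c y = c (S.σ (a * b) y))
    (hP : ∀ y : Y, FPB (Subgroup.closure {x : T | Relation.EqvGen (S.kstep N c) (y, 1) (y, x)}))
    (Γ : Type) [Group Γ] (hΓ : IsFinitelyPresented Γ) (ht : ∀ x : Γ, IsOfFinOrder x)
    (f : Γ →* LC N) : Finite ((πC N).comp f).range := by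
  let K : Subgroup Γ := (S.σ.comp ((πC N).comp f)).ker
  have hK : K.FiniteIndex := by
    have : Finite (Γ ⧸ K) := Finite.of_equiv _
      (QuotientGroup.quotientKerEquivRange (S.σ.comp ((πC N).comp f))).toEquiv.symm
    exact Subgroup.finiteIndex_of_finite_quotient
  have hKfp : IsFinitelyPresented K := fp_of_finiteIndex Γ K
  have hKt : ∀ x : K, IsOfFinOrder x := fun x =>
    (Submonoid.isOfFinOrder_coe (H := K.toSubmonoid) (x := x)).1 (ht x.1)
  have hKσ : ∀ γ ∈ K, S.σ (πC N (f γ)) = 1 := fun γ hγ => hγ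
  refine S.finite_of_sec hf ((πC N).comp f) K hKσ (fun y0 => ?_)
  refine (S.sec_finiteK N c hc hP K hKfp hKt (f.comp K.subtype)
    (fun γ => hKσ γ.1 γ.2) y0).subset ?_
  rintro _ ⟨γ, hγ, rfl⟩
  exact ⟨⟨γ, hγ⟩, rfl⟩

include h1 hN in
/-- **The relative colouring theorem, any number of colours.** -/
theorem relColourK [Finite Y] (hf : S.Faithful) (hcon : ∀ g, ∃ n, S.deep N n g) (c : Y → κ)
    (hc : ∀ a ∈ N, ∀ b ∈ N, a * b ∈ N → ∀ y, c y = c (S.σ b y) ∨
      c (S.σ b y) = c (S.σ (a * b) y) ∨ c y = c (S.σ (a * b) y))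
    (hP : ∀ y : Y, FPB (Subgroup.closure {x : T | Relation.EqvGen (S.kstep N c) (y, 1) (y, x)})) :
    FPB T := by
  have hσ : ∀ x, (S.SC N hN).σ x = S.σ (πC N x) := S.SC_σ N hN
  have hker : ∀ x, πC N x = 1 ↔ ∃ n, x ∈ (S.SC N hN).Kn n := by
    intro x
    constructor
    · intro hx
      obtain ⟨n, hn⟩ := S.EC_all N h1 hN hcon x
      exact ⟨n, S.EC_Kn N h1 hN n x hn hx⟩
    · rintro ⟨n, hn⟩
      exact S.πC_of_mem_Kn N hN hf n x hn
  have hle : ∀ n, (S.SC N hN).Kn n ≤ (πC N).ker := fun n x hx => (hker x).2 ⟨n, hx⟩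
  have hker' : ∀ x, (πC N).rangeRestrict x = 1 ↔ πC N x = 1 := fun x =>
    ⟨fun h => congrArg Subtype.val h, fun h => Subtype.ext h⟩
  have hR : FPB (πC N).range := by
    refine fpb_iUnion_ker' (πC N).rangeRestrict (πC N).rangeRestrict_surjective (S.SC N hN).Kn
      (S.SC N hN).Kn_le_succ (fun x => (hker' x).trans (hker x))
      (fun n x hx => (hker' x).2 (hle n hx)) ?_
    intro n Γ _ hΓ ht ψ
    have h2 := S.quot_finite (S.SC N hN) (πC N) hσ (S.SC_sec N hN) hf hle
      (fun Γ _ hΓ ht ψ => S.base_finiteK N hf c hc hP Γ hΓ ht ψ) n Γ hΓ ht ψ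
    have h3 : ((((QuotientGroup.lift ((S.SC N hN).Kn n) (πC N) (hle n)).comp ψ).range :
      Subgroup T) : Set T).Finite := Set.toFinite _
    have h4 : (Subtype.val '' ((((QuotientGroup.lift ((S.SC N hN).Kn n) (πC N).rangeRestrict
        (fun x hx => (hker' x).2 (hle n hx))).comp ψ).range :
          Subgroup (πC N).range) : Set (πC N).range)).Finite := by
      refine h3.subset ?_
      rintro _ ⟨_, ⟨γ, rfl⟩, rfl⟩
      refine ⟨γ, ?_⟩
      change QuotientGroup.lift ((S.SC N hN).Kn n) (πC N) (hle n) (ψ γ) =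
        ((QuotientGroup.lift ((S.SC N hN).Kn n) (πC N).rangeRestrict
          (fun x hx => (hker' x).2 (hle n hx)) (ψ γ) : (πC N).range) : T)
      obtain ⟨u, hu⟩ := QuotientGroup.mk_surjective (ψ γ)
      rw [← hu]
      rfl
    exact (h4.of_finite_image Subtype.val_injective.injOn).to_subtype
  have hcl : ∀ h ∈ (πC N).range, ∀ y, S.sec h y ∈ (πC N).range := by
    rintro _ ⟨g, rfl⟩ y
    rw [← S.SC_sec N hN]
    exact ⟨_, rfl⟩
  have hNr : N ⊆ (πC N).range := fun a ha => ⟨gen ⟨a, ha⟩, πC_gen N _⟩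
  apply fpb_of_local
  intro A hA
  have hAf : Finite A := hA
  choose n hn using hcon
  obtain ⟨m, hm⟩ := Finite.exists_le (fun a : A => n a)
  refine fpb_mono ?_ (S.fpb_upn hf (πC N).range hR m)
  rw [Subgroup.closure_le]
  intro a ha
  exact S.upn_mono hcl (hm ⟨a, ha⟩) (S.mem_upn N _ hNr _ _ (hn a))

end SS

end Vale.Agent.P192
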