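import Vale.Agent.P192.H663.Calc

/-!
# P192: quotients by finite normal subgroups

`fpb_quot_local`: the class `FPB` is closed under quotients by a normal subgroup `N` all of whose
elements have finite normal closure (in particular `N` finite, or `N` a periodic central
subgroup).
-/

namespace Vale.Agent.P192

open Group Subgroup
open scoped Pointwise

namespace FinQuot

/-- If `M` is the normal closure of a finite set in a finitely generated free group and `φ` has
finite image on `M`, then `M ⊓ φ.ker` is the normal closure of a finite set. -/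
theorem fng_inf_ker {n : ℕ} {G : Type*} [Group G] (φ : FreeGroup (Fin n) →* G)
    (S : Set (FreeGroup (Fin n))) (hS : S.Finite)
    (hfin : (φ '' (Subgroup.normalClosure S : Set (FreeGroup (Fin n)))).Finite) :
    (Subgroup.normalClosure S ⊓ φ.ker).IsFinitelyNormallyGenerated := by
  classical
  set M : Subgroup (FreeGroup (Fin n)) := Subgroup.normalClosure S with hM
  have hMn : M.Normal := Subgroup.normalClosure_normal
  -- a section `c` of `φ : M → φ M`
  have hc : ∃ c : G → FreeGroup (Fin n), c 1 = 1 ∧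
      ∀ m ∈ M, c (φ m) ∈ M ∧ φ (c (φ m)) = φ m := by
    refine ⟨fun g => if g = 1 then 1 else if h : ∃ m ∈ M, φ m = g then h.choose else 1,
      if_pos rfl, ?_⟩
    intro m hm
    by_cases h1 : φ m = 1
    · simp only [if_pos h1]
      exact ⟨M.one_mem, by rw [map_one, h1]⟩
    · have h2 : ∃ m' ∈ M, φ m' = φ m := ⟨m, hm, rfl⟩
      simp only [if_neg h1, dif_pos h2]
      exact h2.choose_spec
  obtain ⟨c, hc1, hc⟩ := hc
  -- the finite set of representatives
  set A : Set (FreeGroup (Fin n)) := c '' (φ '' (M : Set (FreeGroup (Fin n)))) with hA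
  have hAf : A.Finite := hfin.image _
  have hAM : ∀ a ∈ A, a ∈ M := by
    rintro _ ⟨_, ⟨m, hm, rfl⟩, rfl⟩
    exact (hc m hm).1
  have hcA : ∀ m ∈ M, c (φ m) ∈ A := fun m hm => ⟨φ m, ⟨m, hm, rfl⟩, rfl⟩
  -- the finite set of relations
  set B : Set (FreeGroup (Fin n)) := S ∪
    ((fun p : (FreeGroup (Fin n)) × (FreeGroup (Fin n)) => p.1 * p.2) '' (A ×ˢ A) ∪
      ((fun a => a⁻¹) '' A ∪
        (⋃ i : Fin n, ((fun a => FreeGroup.of i * a * (FreeGroup.of i)⁻¹) '' A ∪
          (fun a => (FreeGroup.of i)⁻¹ * a * FreeGroup.of i) '' A)))) with hB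
  have hBf : B.Finite := by
    refine hS.union (((hAf.prod hAf).image _).union ((hAf.image _).union ?_))
    exact Set.finite_iUnion (fun i => (hAf.image _).union (hAf.image _))
  have hSB : ∀ s ∈ S, s ∈ B := fun s hs => Or.inl hs
  have hmulB : ∀ a ∈ A, ∀ b ∈ A, a * b ∈ B := fun a ha b hb =>
    Or.inr (Or.inl ⟨(a, b), ⟨ha, hb⟩, rfl⟩)
  have hinvB : ∀ a ∈ A, a⁻¹ ∈ B := fun a ha => Or.inr (Or.inr (Or.inl ⟨a, ha, rfl⟩))
  have hc1B : ∀ i, ∀ a ∈ A, FreeGroup.of i * a * (FreeGroup.of i)⁻¹ ∈ B := fun i a ha =>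
    Or.inr (Or.inr (Or.inr (Set.mem_iUnion.2 ⟨i, Or.inl ⟨a, ha, rfl⟩⟩)))
  have hc2B : ∀ i, ∀ a ∈ A, (FreeGroup.of i)⁻¹ * a * FreeGroup.of i ∈ B := fun i a ha =>
    Or.inr (Or.inr (Or.inr (Set.mem_iUnion.2 ⟨i, Or.inr ⟨a, ha, rfl⟩⟩)))
  have hBM : ∀ b ∈ B, b ∈ M := by
    rintro b (hb | ⟨⟨a, a'⟩, ⟨ha, ha'⟩, rfl⟩ | ⟨a, ha, rfl⟩ | hb)
    · exact Subgroup.subset_normalClosure hb
    · exact M.mul_mem (hAM a ha) (hAM a' ha')
    · exact M.inv_mem (hAM a ha)
    · obtain ⟨i, hb⟩ := Set.mem_iUnion.1 hb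
      rcases hb with ⟨a, ha, rfl⟩ | ⟨a, ha, rfl⟩
      · exact hMn.conj_mem a (hAM a ha) _
      · have := hMn.conj_mem a (hAM a ha) (FreeGroup.of i)⁻¹
        rwa [inv_inv] at this
  set R : Set (FreeGroup (Fin n)) := (fun m => m * (c (φ m))⁻¹) '' B with hR
  refine ⟨R, hBf.image _, ?_⟩
  set K : Subgroup (FreeGroup (Fin n)) := Subgroup.normalClosure R with hK
  have hKn : K.Normal := Subgroup.normalClosure_normal
  have hRM : ∀ m ∈ M, m * (c (φ m))⁻¹ ∈ M ⊓ φ.ker := by
    intro m hm
    refine ⟨M.mul_mem hm (M.inv_mem (hc m hm).1), ?_⟩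
    change φ (m * (c (φ m))⁻¹) = 1
    rw [map_mul, map_inv, (hc m hm).2, mul_inv_cancel]
  have hn0 : (M ⊓ φ.ker).Normal := Subgroup.normal_inf_normal _ _
  apply le_antisymm
  · apply Subgroup.normalClosure_le_normal
    rintro _ ⟨b, hb, rfl⟩
    exact hRM b (hBM b hb)
  -- in the quotient by `K`, every element of `M` equals its representative
  set π : FreeGroup (Fin n) →* FreeGroup (Fin n) ⧸ K := QuotientGroup.mk' K with hπ
  have hπB : ∀ b ∈ B, π b = π (c (φ b)) := by
    intro b hb
    have h1 : b * (c (φ b))⁻¹ ∈ K := Subgroup.subset_normalClosure ⟨b, hb, rfl⟩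
    have h2 : π (b * (c (φ b))⁻¹) = 1 := (QuotientGroup.eq_one_iff _).2 h1
    rw [map_mul, map_inv] at h2
    exact mul_inv_eq_one.1 h2
  have key : ∀ m ∈ M, π m = π (c (φ m)) := by
    let P : Subgroup (FreeGroup (Fin n)) :=
      { carrier := {m | m ∈ M ∧ π m = π (c (φ m))}
        one_mem' := ⟨M.one_mem, by rw [map_one, map_one, hc1, map_one]⟩
        mul_mem' := by
          rintro a b ⟨ha, ha'⟩ ⟨hb, hb'⟩
          refine ⟨M.mul_mem ha hb, ?_⟩
          rw [map_mul, ha', hb', ← map_mul, hπB _ (hmulB _ (hcA a ha) _ (hcA b hb)), map_mul,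
            (hc a ha).2, (hc b hb).2, ← map_mul]
        inv_mem' := by
          rintro a ⟨ha, ha'⟩
          refine ⟨M.inv_mem ha, ?_⟩
          rw [map_inv, ha', ← map_inv, hπB _ (hinvB _ (hcA a ha)), map_inv, (hc a ha).2,
            ← map_inv] }
    have hPn : P.Normal := by
      refine ⟨fun p hp g => ?_⟩
      induction g using FreeGroup.induction_on generalizing p with
      | C1 => rwa [one_mul, inv_one, mul_one]
      | of i =>
        obtain ⟨hp, hp'⟩ := hp
        refine ⟨hMn.conj_mem p hp _, ?_⟩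
        have h1 := hπB _ (hc1B i _ (hcA p hp))
        change π (FreeGroup.of i * p * (FreeGroup.of i)⁻¹) =
          π (c (φ (FreeGroup.of i * p * (FreeGroup.of i)⁻¹)))
        rw [map_mul, map_mul, hp', ← map_mul, ← map_mul, h1]
        rw [map_mul φ, map_mul φ, (hc p hp).2, ← map_mul φ, ← map_mul φ]
      | inv_of i _ =>
        obtain ⟨hp, hp'⟩ := hp
        have hinv : ∀ q : FreeGroup (Fin n), (FreeGroup.of i)⁻¹ * q * ((FreeGroup.of i)⁻¹)⁻¹ =
            (FreeGroup.of i)⁻¹ * q * FreeGroup.of i := fun q => by rw [inv_inv]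
        refine ⟨hMn.conj_mem p hp _, ?_⟩
        have h1 := hπB _ (hc2B i _ (hcA p hp))
        change π ((FreeGroup.of i)⁻¹ * p * ((FreeGroup.of i)⁻¹)⁻¹) =
          π (c (φ ((FreeGroup.of i)⁻¹ * p * ((FreeGroup.of i)⁻¹)⁻¹)))
        rw [hinv]
        rw [map_mul, map_mul, hp', ← map_mul, ← map_mul, h1]
        rw [map_mul φ, map_mul φ, (hc p hp).2, ← map_mul φ, ← map_mul φ]
      | mul x y hx hy =>
        have h1 := hx (y * p * y⁻¹) (hy p hp)
        have h2 : x * y * p * (x * y)⁻¹ = x * (y * p * y⁻¹) * x⁻¹ := by group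
        rw [h2]
        exact h1
    have hSP : S ⊆ P := fun s hs => ⟨Subgroup.subset_normalClosure hs, hπB s (hSB s hs)⟩
    intro m hm
    exact (Subgroup.normalClosure_le_normal hSP hm).2
  rintro m ⟨hm, hm'⟩
  have h1 := key m hm
  rw [MonoidHom.mem_ker.1 hm', hc1, map_one] at h1
  exact (QuotientGroup.eq_one_iff m).1 h1

/-- finitely many elements with finite normal closures have a finite normal closure -/
theorem finite_normalClosure {G : Type*} [Group G] (T : Set G) (hT : T.Finite)
    (h : ∀ x ∈ T, (Subgroup.normalClosure {x} : Set G).Finite) :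
    (Subgroup.normalClosure T : Set G).Finite := by
  induction T, hT using Set.Finite.induction_on with
  | empty =>
    have : Subgroup.normalClosure (∅ : Set G) = ⊥ := by
      apply le_antisymm _ bot_le
      exact Subgroup.normalClosure_le_normal (Set.empty_subset _)
    rw [this]
    exact Set.finite_singleton 1
  | @insert a s ha hs ih =>
    have h1 : (Subgroup.normalClosure s : Set G).Finite :=
      ih (fun x hx => h x (Set.mem_insert_of_mem _ hx))
    have h2 : (Subgroup.normalClosure {a} : Set G).Finite := h a (Set.mem_insert _ _)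
    have h3 : Subgroup.normalClosure (insert a s) ≤
        Subgroup.normalClosure {a} ⊔ Subgroup.normalClosure s := by
      have hn : (Subgroup.normalClosure ({a} : Set G) ⊔ Subgroup.normalClosure s).Normal :=
        Subgroup.sup_normal _ _
      apply Subgroup.normalClosure_le_normal
      rintro x (rfl | hx)
      · exact Subgroup.mem_sup_left (Subgroup.subset_normalClosure (Set.mem_singleton _))
      · exact Subgroup.mem_sup_right (Subgroup.subset_normalClosure hx)
    have h4 : ((Subgroup.normalClosure ({a} : Set G) ⊔ Subgroup.normalClosure s : Subgroup G) :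
        Set G) = (Subgroup.normalClosure ({a} : Set G) : Set G) * (Subgroup.normalClosure s : Set G)
      := Subgroup.mul_normal _ _
    refine Set.Finite.subset ?_ (show (Subgroup.normalClosure (insert a s) : Set G) ⊆ _ from h3)
    rw [h4]
    exact h2.mul h1

end FinQuot

/-- The class `FPB` is closed under quotients by a normal subgroup all of whose elements have a
finite normal closure. -/
theorem fpb_quot_local {G : Type*} [Group G] (N : Subgroup G) [N.Normal]
    (hN : ∀ x ∈ N, (Subgroup.normalClosure {x} : Set G).Finite) (h : FPB G) : FPB (G ⧸ N) := by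
  intro Γ _ hΓ ht f
  obtain ⟨n, ψ, hψ, S, hS, hSk⟩ := id hΓ
  choose l hl using fun k : Fin n => QuotientGroup.mk'_surjective N (f (ψ (FreeGroup.of k)))
  let φ : FreeGroup (Fin n) →* G := FreeGroup.lift l
  have hφ : (QuotientGroup.mk' N).comp φ = f.comp ψ := by
    apply FreeGroup.ext_hom
    intro k
    rw [MonoidHom.comp_apply, MonoidHom.comp_apply, FreeGroup.lift_apply_of, hl]
  have hφ' : ∀ x, QuotientGroup.mk' N (φ x) = f (ψ x) := fun x => DFunLike.congr_fun hφ x
  have hMN : ∀ m, m ∈ ψ.ker → φ m ∈ N := by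
    intro m hm
    have h1 := hφ' m
    rw [MonoidHom.mem_ker.1 hm, map_one] at h1
    exact (QuotientGroup.eq_one_iff _).1 h1
  -- the image of the kernel is finite
  have hfin : (φ '' (Subgroup.normalClosure S : Set (FreeGroup (Fin n)))).Finite := by
    have h1 : (Subgroup.normalClosure (φ '' S) : Set G).Finite := by
      apply FinQuot.finite_normalClosure _ (hS.image _)
      rintro _ ⟨s, hs, rfl⟩
      refine hN _ (hMN s ?_)
      rw [← hSk]
      exact Subgroup.subset_normalClosure hs
    refine h1.subset ?_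
    rintro _ ⟨m, hm, rfl⟩
    have h2 : Subgroup.normalClosure S ≤ (Subgroup.normalClosure (φ '' S)).comap φ := by
      have hn : ((Subgroup.normalClosure (φ '' S)).comap φ).Normal :=
        Subgroup.Normal.comap Subgroup.normalClosure_normal φ
      apply Subgroup.normalClosure_le_normal
      intro s hs
      exact Subgroup.subset_normalClosure (Set.mem_image_of_mem _ hs)
    exact h2 hm
  have hfng := FinQuot.fng_inf_ker φ S hS hfin
  rw [hSk] at hfng hfin
  have hn0 : (ψ.ker ⊓ φ.ker).Normal := Subgroup.normal_inf_normal _ _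
  have hfp : IsFinitelyPresented (FreeGroup (Fin n) ⧸ (ψ.ker ⊓ φ.ker)) :=
    Group.IsFinitelyPresented.quotient _ hfng
  have htor : ∀ x : FreeGroup (Fin n) ⧸ (ψ.ker ⊓ φ.ker), IsOfFinOrder x := by
    intro x
    obtain ⟨x, rfl⟩ := QuotientGroup.mk'_surjective _ x
    obtain ⟨k, hk, hxk⟩ := isOfFinOrder_iff_pow_eq_one.1 (ht (ψ x))
    have h1 : x ^ k ∈ ψ.ker := by rw [MonoidHom.mem_ker, map_pow, hxk]
    have h2 : IsOfFinOrder (φ (x ^ k)) := by
      have h3 : ((Subgroup.zpowers (φ (x ^ k)) : Subgroup G) : Set G).Finite := by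
        refine hfin.subset ?_
        rintro _ ⟨j, rfl⟩
        exact ⟨(x ^ k) ^ j, ψ.ker.zpow_mem h1 j, map_zpow _ _ _⟩
      exact finite_zpowers.1 h3
    obtain ⟨j, hj, hxj⟩ := isOfFinOrder_iff_pow_eq_one.1 h2
    refine isOfFinOrder_iff_pow_eq_one.2 ⟨k * j, Nat.mul_pos hk hj, ?_⟩
    rw [← map_pow]
    apply (QuotientGroup.eq_one_iff _).2
    rw [pow_mul]
    refine ⟨ψ.ker.pow_mem h1 j, ?_⟩
    change φ ((x ^ k) ^ j) = 1
    rw [map_pow, hxj]
  -- the induced map to `G`
  let g : FreeGroup (Fin n) ⧸ (ψ.ker ⊓ φ.ker) →* G :=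
    QuotientGroup.lift (ψ.ker ⊓ φ.ker) φ (fun x hx => hx.2)
  have hg : Finite g.range := h _ hfp htor g
  have hsub : (f.range : Set (G ⧸ N)) ⊆ (QuotientGroup.mk' N) '' (g.range : Set G) := by
    rintro _ ⟨y, rfl⟩
    obtain ⟨x, rfl⟩ := hψ y
    exact ⟨φ x, ⟨QuotientGroup.mk' _ x, rfl⟩, hφ' x⟩
  exact ((Set.toFinite (g.range : Set G)).image _).subset hsub

/-- The class `FPB` is closed under quotients by finite normal subgroups. -/
theorem fpb_quot_finite {G : Type*} [Group G] (N : Subgroup G) [N.Normal] [Finite N]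
    (h : FPB G) : FPB (G ⧸ N) := by
  refine fpb_quot_local N (fun x hx => ?_) h
  refine (Set.toFinite (N : Set G)).subset ?_
  exact Subgroup.normalClosure_le_normal (Set.singleton_subset_iff.2 hx)

/-- The class `FPB` is closed under quotients by periodic central subgroups. -/
theorem fpb_quot_central {G : Type*} [Group G] (N : Subgroup G) [N.Normal]
    (hc : N ≤ Subgroup.center G) (ht : ∀ x ∈ N, IsOfFinOrder x) (h : FPB G) : FPB (G ⧸ N) := by
  refine fpb_quot_local N (fun x hx => ?_) h
  refine (finite_zpowers.2 (ht x hx)).subset ?_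
  have hn : (Subgroup.zpowers x).Normal := by
    refine ⟨fun y hy g => ?_⟩
    have hyc : y ∈ Subgroup.center G := (Subgroup.zpowers_le.2 (hc hx)) hy
    rw [Subgroup.mem_center_iff.1 hyc g, mul_assoc, mul_inv_cancel, mul_one]
    exact hy
  exact Subgroup.normalClosure_le_normal (Set.singleton_subset_iff.2 (Subgroup.mem_zpowers x))

/-- `FPB` is invariant under surjective homomorphisms with finite kernel. -/
theorem fpb_iff_of_finite_ker {G H : Type*} [Group G] [Group H] (f : G →* H)
    (hf : Function.Surjective f) [Finite f.ker] : FPB G ↔ FPB H := by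
  constructor
  · intro h
    exact fpb_of_equiv (QuotientGroup.quotientKerEquivOfSurjective f hf).symm
      (fpb_quot_finite f.ker h)
  · intro h
    exact fpb_ext f h (fpb_of_finite _)

end Vale.Agent.P192
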