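import Vale.Agent.P192.H260.TreeAct

/-!
# P192: the universal group of a groupoid and a subgroup

`T` acts on `X`, `V x` (`x : X`) are sets of elements of `T` which form a connected groupoid and
contain the subgroup `H`.  `L` is the group with generators `[h]`, `[x, g]` (`g ∈ V x`) and the
obvious relations.  It acts on a tree with stabilisers `H` and `Stab (V x)`; so it is in the class
`FPB` if these groups are.
-/

namespace Vale.Agent.P192.H260

/-- A connected groupoid of elements of `T` over the `T`-set `X`, containing the subgroup `H`. -/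
structure Gpd (T X : Type*) [Group T] [MulAction T X] where
  H : Subgroup T
  V : X → Set T
  one_mem : ∀ x, (1 : T) ∈ V x
  mul_mem : ∀ {x : X} {g g' : T}, g ∈ V x → g' ∈ V (g • x) → g' * g ∈ V x
  inv_mem : ∀ {x : X} {g : T}, g ∈ V x → g⁻¹ ∈ V (g • x)
  sub : ∀ (x : X) {h : T}, h ∈ H → h ∈ V x
  conn : ∀ x y : X, ∃ g ∈ V x, g • x = y

namespace Gpd

variable {T X : Type*} [Group T] [MulAction T X] (D : Gpd T X)

/-- the generators -/
abbrev Gen := D.H ⊕ {p : X × T // p.2 ∈ D.V p.1}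

/-- the relators -/
def rels : Set (FreeGroup D.Gen) :=
  {w | (∃ h k : D.H, w = FreeGroup.of (Sum.inl (h * k)) *
      (FreeGroup.of (Sum.inl h) * FreeGroup.of (Sum.inl k))⁻¹) ∨
    (∃ (x : X) (g g' : T) (hg : g ∈ D.V x) (hg' : g' ∈ D.V (g • x)),
      w = FreeGroup.of (Sum.inr ⟨(g • x, g'), hg'⟩) * FreeGroup.of (Sum.inr ⟨(x, g), hg⟩) *
        (FreeGroup.of (Sum.inr ⟨(x, g' * g), D.mul_mem hg hg'⟩))⁻¹) ∨
    ∃ (x : X) (h : D.H), w = FreeGroup.of (Sum.inr ⟨(x, (h : T)), D.sub x h.2⟩) *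
      (FreeGroup.of (Sum.inl h))⁻¹}

/-- the universal group -/
def L := PresentedGroup D.rels

instance : Group D.L := inferInstanceAs (Group (PresentedGroup D.rels))

theorem mk_eq {a b : FreeGroup D.Gen} (h : a * b⁻¹ ∈ D.rels) :
    (PresentedGroup.mk D.rels a : D.L) = PresentedGroup.mk D.rels b := by
  have h1 : (PresentedGroup.mk D.rels (a * b⁻¹) : D.L) = 1 := PresentedGroup.one_of_mem h
  rw [map_mul, map_inv] at h1
  exact mul_inv_eq_one.1 h1

/-- the elements `[h]` -/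
def ofH : D.H →* D.L :=
  MonoidHom.mk' (fun h => (PresentedGroup.of (Sum.inl h) : PresentedGroup D.rels)) (by
    intro h k
    have := D.mk_eq (a := FreeGroup.of (Sum.inl (h * k)))
      (b := FreeGroup.of (Sum.inl h) * FreeGroup.of (Sum.inl k)) (Or.inl ⟨h, k, rfl⟩)
    rw [map_mul] at this
    exact this)

/-- the elements `[x, g]` -/
def ofV (x : X) (g : T) (hg : g ∈ D.V x) : D.L :=
  (PresentedGroup.of (Sum.inr ⟨(x, g), hg⟩) : PresentedGroup D.rels)

theorem ofV_mul {x : X} {g g' : T} (hg : g ∈ D.V x) (hg' : g' ∈ D.V (g • x)) :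
    D.ofV (g • x) g' hg' * D.ofV x g hg = D.ofV x (g' * g) (D.mul_mem hg hg') := by
  have := D.mk_eq (a := FreeGroup.of (Sum.inr ⟨(g • x, g'), hg'⟩) *
      FreeGroup.of (Sum.inr ⟨(x, g), hg⟩))
    (b := FreeGroup.of (Sum.inr ⟨(x, g' * g), D.mul_mem hg hg'⟩))
    (Or.inr (Or.inl ⟨x, g, g', hg, hg', rfl⟩))
  rw [map_mul] at this
  exact this

theorem ofV_H (x : X) (h : D.H) : D.ofV x h (D.sub x h.2) = D.ofH h :=
  D.mk_eq (Or.inr (Or.inr ⟨x, h, rfl⟩))

theorem ofV_H' (x : X) {h : T} (hh : h ∈ D.H) (hv : h ∈ D.V x) :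
    D.ofV x h hv = D.ofH ⟨h, hh⟩ := D.ofV_H x ⟨h, hh⟩

theorem ofV_congr {x x' : X} {g g' : T} (hx : x = x') (hg : g = g') (h : g ∈ D.V x)
    (h' : g' ∈ D.V x') : D.ofV x g h = D.ofV x' g' h' := by
  subst hx hg
  rfl

theorem ofV_mul' {x y z : X} {g g' k : T} (hg : g ∈ D.V x) (hg' : g' ∈ D.V y) (hk : k ∈ D.V z)
    (hy : g • x = y) (hz : x = z) (he : g' * g = k) :
    D.ofV y g' hg' * D.ofV x g hg = D.ofV z k hk := by
  subst hy hz he
  exact D.ofV_mul hg hg'

section lift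

variable {K : Type*} [Group K] (f : D.H →* K) (F : ∀ (x : X) (g : T), g ∈ D.V x → K)

/-- **The universal property.** -/
def lift (hmul : ∀ (x : X) (g g' : T) (hg : g ∈ D.V x) (hg' : g' ∈ D.V (g • x)),
      F (g • x) g' hg' * F x g hg = F x (g' * g) (D.mul_mem hg hg'))
    (hH : ∀ (x : X) (h : D.H), F x h (D.sub x h.2) = f h) : D.L →* K :=
  PresentedGroup.toGroup (f := Sum.elim f fun p => F p.1.1 p.1.2 p.2) (rels := D.rels) (by
    rintro w (⟨h, k, rfl⟩ | ⟨x, g, g', hg, hg', rfl⟩ | ⟨x, h, rfl⟩)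
    · simp
    · rw [map_mul, map_mul, map_inv, mul_inv_eq_one]
      simpa using hmul x g g' hg hg'
    · rw [map_mul, map_inv, mul_inv_eq_one]
      simpa using hH x h)

variable (hmul : ∀ (x : X) (g g' : T) (hg : g ∈ D.V x) (hg' : g' ∈ D.V (g • x)),
      F (g • x) g' hg' * F x g hg = F x (g' * g) (D.mul_mem hg hg'))
    (hH : ∀ (x : X) (h : D.H), F x h (D.sub x h.2) = f h)

@[simp] theorem lift_ofH (h : D.H) : D.lift f F hmul hH (D.ofH h) = f h :=
  PresentedGroup.toGroup.of _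

@[simp] theorem lift_ofV (x : X) (g : T) (hg : g ∈ D.V x) :
    D.lift f F hmul hH (D.ofV x g hg) = F x g hg :=
  PresentedGroup.toGroup.of _

end lift

/-- the generators generate -/
theorem closure_gens : Subgroup.closure
    (Set.range D.ofH ∪ {l | ∃ (x : X) (g : T) (hg : g ∈ D.V x), l = D.ofV x g hg}) = ⊤ := by
  have h1 : Subgroup.closure (Set.range (PresentedGroup.of : D.Gen → PresentedGroup D.rels)) = ⊤ :=
    PresentedGroup.closure_range_of D.rels
  refine top_le_iff.1 (le_trans (le_of_eq h1.symm) ?_)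
  refine (Subgroup.closure_le _).2 ?_
  rintro _ ⟨(h | p), rfl⟩
  · exact Subgroup.subset_closure (Or.inl ⟨h, rfl⟩)
  · exact Subgroup.subset_closure (Or.inr ⟨p.1.1, p.1.2, p.2, rfl⟩)

/-- induction principle for subgroups -/
theorem eq_top {K : Subgroup D.L} (h1 : ∀ h, D.ofH h ∈ K)
    (h2 : ∀ (x : X) (g : T) (hg : g ∈ D.V x), D.ofV x g hg ∈ K) (l : D.L) : l ∈ K := by
  have h3 : Subgroup.closure
    (Set.range D.ofH ∪ {l | ∃ (x : X) (g : T) (hg : g ∈ D.V x), l = D.ofV x g hg}) ≤ K := by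
    refine (Subgroup.closure_le _).2 ?_
    rintro _ (⟨h, rfl⟩ | ⟨x, g, hg, rfl⟩)
    · exact h1 h
    · exact h2 x g hg
  rw [D.closure_gens] at h3
  exact h3 (Subgroup.mem_top l)

theorem hom_ext {K : Type*} [Group K] {f g : D.L →* K} (h1 : ∀ h, f (D.ofH h) = g (D.ofH h))
    (h2 : ∀ (x : X) (k : T) (hk : k ∈ D.V x), f (D.ofV x k hk) = g (D.ofV x k hk)) : f = g := by
  ext l
  exact D.eq_top (K := f.eqLocus g) h1 h2 l

/-- the projection to `T` -/
def π : D.L →* T := D.lift D.H.subtype (fun _ g _ => g) (fun _ _ _ _ _ => rfl) (fun _ _ => rfl)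

@[simp] theorem π_ofH (h : D.H) : D.π (D.ofH h) = h := D.lift_ofH _ _ _ _ h

@[simp] theorem π_ofV (x : X) (g : T) (hg : g ∈ D.V x) : D.π (D.ofV x g hg) = g :=
  D.lift_ofV _ _ _ _ x g hg

/-- the vertex groups -/
def stab (x : X) : Subgroup T where
  carrier := {g | g ∈ D.V x ∧ g • x = x}
  one_mem' := ⟨D.one_mem x, one_smul _ _⟩
  mul_mem' := by
    rintro a b ⟨ha, ha'⟩ ⟨hb, hb'⟩
    refine ⟨D.mul_mem hb (by rw [hb']; exact ha), ?_⟩
    rw [mul_smul, hb', ha']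
  inv_mem' := by
    rintro a ⟨ha, ha'⟩
    refine ⟨?_, ?_⟩
    · have := D.inv_mem ha
      rwa [ha'] at this
    · rw [inv_smul_eq_iff, ha']

theorem mem_stab {x : X} {g : T} : g ∈ D.stab x ↔ g ∈ D.V x ∧ g • x = x := Iff.rfl

/-- the elements `[x, g]` of the vertex group -/
def ofS (x : X) : D.stab x →* D.L :=
  MonoidHom.mk' (fun g => D.ofV x g g.2.1) (by
    intro g k
    exact (D.ofV_mul' k.2.1 g.2.1 (g * k).2.1 k.2.2 rfl rfl).symm)

theorem ofS_apply (x : X) (g : D.stab x) : D.ofS x g = D.ofV x g g.2.1 := rfl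

/-! ### the tree -/

section tree

variable (x0 : X)

/-- the subgroup `H` of `L` -/
def Hb : Subgroup D.L := D.ofH.range

/-- the vertex group as a subgroup of `L` -/
def Sb : Subgroup D.L := (D.ofS x0).range

/-- the neighbour `w x` of the base vertex -/
noncomputable def W (x : X) : D.L ⧸ D.Sb x0 :=
  QuotientGroup.mk (D.ofV x0 (D.conn x0 x).choose (D.conn x0 x).choose_spec.1)

theorem mk_ofV {g s : T} (hs : s ∈ D.V x0) (hg : g ∈ D.V x0) (h : s • x0 = g • x0) :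
    (QuotientGroup.mk (D.ofV x0 s hs) : D.L ⧸ D.Sb x0) = QuotientGroup.mk (D.ofV x0 g hg) := by
  rw [QuotientGroup.eq]
  have h1 : s⁻¹ * g ∈ D.V x0 := D.mul_mem hg (by rw [← h]; exact D.inv_mem hs)
  have h2 : (s⁻¹ * g) • x0 = x0 := by rw [mul_smul, ← h, inv_smul_smul]
  refine ⟨⟨s⁻¹ * g, h1, h2⟩, ?_⟩
  rw [ofS_apply, eq_inv_mul_iff_mul_eq]
  exact D.ofV_mul' h1 hs hg h2 rfl (mul_inv_cancel_left s g)

theorem W_eq {x : X} {g : T} (hg : g ∈ D.V x0) (hx : g • x0 = x) :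
    D.W x0 x = QuotientGroup.mk (D.ofV x0 g hg) :=
  D.mk_ofV x0 _ hg (by rw [(D.conn x0 x).choose_spec.2, hx])

theorem smul_W (x : X) (g : T) (hg : g ∈ D.V x) : D.ofV x g hg • D.W x0 x = D.W x0 (g • x) := by
  obtain ⟨s, hs, hx⟩ := D.conn x0 x
  have h1 : g * s ∈ D.V x0 := D.mul_mem hs (by rw [hx]; exact hg)
  rw [D.W_eq x0 hs hx, D.W_eq x0 h1 (by rw [mul_smul, hx])]
  change (QuotientGroup.mk (D.ofV x g hg * D.ofV x0 s hs) : D.L ⧸ D.Sb x0) = _
  rw [D.ofV_mul' hs hg h1 hx rfl rfl]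

theorem smul_W' (x : X) (h : D.H) : D.ofH h • D.W x0 x = D.W x0 ((h : T) • x) := by
  rw [← D.ofV_H x h]
  exact D.smul_W x0 x h _

theorem smul_H (h : D.H) : D.ofH h • (QuotientGroup.mk 1 : D.L ⧸ D.Hb) = QuotientGroup.mk 1 := by
  change (QuotientGroup.mk (D.ofH h * 1) : D.L ⧸ D.Hb) = _
  rw [mul_one, eq_comm, QuotientGroup.eq, inv_one, one_mul]
  exact ⟨h, rfl⟩

/-- pairs of vertices -/
abbrev P := (D.L ⧸ D.Hb) × (D.L ⧸ D.Sb x0)

open Classical in
/-- the indicator of a pair -/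
noncomputable def sg (p : D.P x0) : D.P x0 → Multiplicative ℤ :=
  fun q => if q = p then Multiplicative.ofAdd 1 else 1

theorem phi_sg (l : D.L) (p : D.P x0) :
    (mulAutArrow : D.L →* MulAut (D.P x0 → Multiplicative ℤ)) l (D.sg x0 p) =
      D.sg x0 (l • p) := by
  funext q
  change (D.sg x0 p) (l⁻¹ • q) = _
  unfold sg
  by_cases h : q = l • p
  · rw [if_pos h, if_pos (by rw [h, inv_smul_smul])]
  · rw [if_neg h, if_neg (fun h' => h (by rw [← h', smul_inv_smul]))]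

/-- the edge from the base vertex to `w x` -/
noncomputable def ed (x : X) : D.P x0 → Multiplicative ℤ := D.sg x0 (QuotientGroup.mk 1, D.W x0 x)

theorem phi_ofH (x : X) (h : D.H) :
    (mulAutArrow : D.L →* MulAut (D.P x0 → Multiplicative ℤ)) (D.ofH h) (D.ed x0 x) =
      D.ed x0 ((h : T) • x) := by
  unfold ed
  rw [phi_sg, Prod.smul_mk, D.smul_H, D.smul_W']

/-- the derivation, as a homomorphism to the semidirect product -/
noncomputable def Phi :
    D.L →* (D.P x0 → Multiplicative ℤ) ⋊[(mulAutArrow : D.L →* MulAut _)] D.L :=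
  D.lift ((SemidirectProduct.inr).comp D.ofH)
    (fun x g hg => ⟨D.ed x0 (g • x) * (mulAutArrow (D.ofV x g hg) (D.ed x0 x))⁻¹, D.ofV x g hg⟩)
    (by
      intro x g g' hg hg'
      refine SemidirectProduct.ext ?_ ?_
      · simp only [SemidirectProduct.mul_left]
        rw [map_mul, map_inv, ← MulAut.mul_apply, ← map_mul, D.ofV_mul hg hg', mul_smul,
          mul_assoc, inv_mul_cancel_left]
      · simp only [SemidirectProduct.mul_right]
        exact D.ofV_mul hg hg')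
    (by
      intro x h
      refine SemidirectProduct.ext ?_ ?_
      · simp only [MonoidHom.comp_apply, SemidirectProduct.left_inr]
        rw [mul_inv_eq_one, D.ofV_H, D.phi_ofH]
      · simp only [MonoidHom.comp_apply, SemidirectProduct.right_inr]
        exact D.ofV_H x h)

theorem Phi_ofH (h : D.H) : D.Phi x0 (D.ofH h) = SemidirectProduct.inr (D.ofH h) :=
  D.lift_ofH _ _ _ _ h

theorem Phi_ofV (x : X) (g : T) (hg : g ∈ D.V x) : D.Phi x0 (D.ofV x g hg) =
    ⟨D.ed x0 (g • x) * (mulAutArrow (D.ofV x g hg) (D.ed x0 x))⁻¹, D.ofV x g hg⟩ :=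
  D.lift_ofV _ _ _ _ x g hg

theorem Phi_right (l : D.L) : (D.Phi x0 l).right = l := by
  have h : (SemidirectProduct.rightHom).comp (D.Phi x0) = MonoidHom.id D.L := by
    refine D.hom_ext (fun h => ?_) (fun x k hk => ?_)
    · rw [MonoidHom.comp_apply, Phi_ofH]
      rfl
    · rw [MonoidHom.comp_apply, Phi_ofV]
      rfl
  exact DFunLike.congr_fun h l

/-- the derivation -/
noncomputable def dd (l : D.L) : D.P x0 → Multiplicative ℤ := (D.Phi x0 l).left

theorem dd_mul (l m : D.L) : D.dd x0 (l * m) = D.dd x0 l * mulAutArrow l (D.dd x0 m) := by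
  unfold dd
  rw [map_mul, SemidirectProduct.mul_left, Phi_right]

theorem dd_ofH (h : D.H) : D.dd x0 (D.ofH h) = 1 := by
  unfold dd
  rw [Phi_ofH]
  rfl

theorem dd_ofV (x : X) (g : T) (hg : g ∈ D.V x) : D.dd x0 (D.ofV x g hg) =
    D.ed x0 (g • x) * (mulAutArrow (D.ofV x g hg) (D.ed x0 x))⁻¹ := by
  unfold dd
  rw [Phi_ofV]

/-- potential of the vertices of the first kind -/
noncomputable def Dv (a : D.L ⧸ D.Hb) : D.P x0 → Multiplicative ℤ := D.dd x0 a.out

/-- potential of the vertices of the second kind -/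
noncomputable def Dw (b : D.L ⧸ D.Sb x0) : D.P x0 → Multiplicative ℤ :=
  D.dd x0 b.out * mulAutArrow b.out (D.ed x0 x0)

theorem Dv_mk (l : D.L) : D.Dv x0 (QuotientGroup.mk l) = D.dd x0 l := by
  obtain ⟨⟨_, h, rfl⟩, hh⟩ := QuotientGroup.mk_out_eq_mul D.Hb l
  unfold Dv
  rw [hh]
  change D.dd x0 (l * D.ofH h) = _
  rw [dd_mul, dd_ofH, map_one, mul_one]

theorem Dw_aux (l : D.L) {g : T} (hg : g ∈ D.V x0) :
    D.dd x0 (l * D.ofV x0 g hg) * mulAutArrow (l * D.ofV x0 g hg) (D.ed x0 x0) =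
      D.dd x0 l * mulAutArrow l (D.ed x0 (g • x0)) := by
  rw [dd_mul, dd_ofV, map_mul mulAutArrow, MulAut.mul_apply, mul_assoc, ← map_mul,
    inv_mul_cancel_right]

theorem Dw_mk (l : D.L) : D.Dw x0 (QuotientGroup.mk l) =
    D.dd x0 l * mulAutArrow l (D.ed x0 x0) := by
  obtain ⟨⟨_, g, rfl⟩, hh⟩ := QuotientGroup.mk_out_eq_mul (D.Sb x0) l
  unfold Dw
  rw [hh]
  change D.dd x0 (l * D.ofV x0 g g.2.1) * mulAutArrow (l * D.ofV x0 g g.2.1) (D.ed x0 x0) = _
  rw [Dw_aux, g.2.2]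

theorem Dw_W (l : D.L) (x : X) : D.Dw x0 (l • D.W x0 x) =
    D.dd x0 l * mulAutArrow l (D.ed x0 x) := by
  obtain ⟨s, hs, hx⟩ := D.conn x0 x
  rw [D.W_eq x0 hs hx]
  change D.Dw x0 (QuotientGroup.mk (l * D.ofV x0 s hs)) = _
  rw [Dw_mk, Dw_aux, hx]

/-- the edges -/
def E (a : D.L ⧸ D.Hb) (b : D.L ⧸ D.Sb x0) : Prop :=
  ∃ (l : D.L) (x : X), a = l • (QuotientGroup.mk 1 : D.L ⧸ D.Hb) ∧ b = l • D.W x0 x

theorem E_smul {a : D.L ⧸ D.Hb} {b : D.L ⧸ D.Sb x0} (k : D.L) (h : D.E x0 a b) :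
    D.E x0 (k • a) (k • b) := by
  obtain ⟨l, x, rfl, rfl⟩ := h
  exact ⟨k * l, x, (mul_smul _ _ _).symm, (mul_smul _ _ _).symm⟩

theorem E_D {a : D.L ⧸ D.Hb} {b : D.L ⧸ D.Sb x0} (h : D.E x0 a b) :
    D.Dw x0 b = D.Dv x0 a * D.sg x0 (a, b) := by
  obtain ⟨l, x, rfl, rfl⟩ := h
  rw [Dw_W]
  have h1 : l • (QuotientGroup.mk 1 : D.L ⧸ D.Hb) = QuotientGroup.mk l := by
    change (QuotientGroup.mk (l * 1) : D.L ⧸ D.Hb) = _
    rw [mul_one]
  unfold ed
  rw [phi_sg, Prod.smul_mk, h1, Dv_mk]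

/-- the graph -/
def Gr : SimpleGraph ((D.L ⧸ D.Hb) ⊕ (D.L ⧸ D.Sb x0)) where
  Adj u v := (∃ a b, D.E x0 a b ∧ u = Sum.inl a ∧ v = Sum.inr b) ∨
    (∃ a b, D.E x0 a b ∧ v = Sum.inl a ∧ u = Sum.inr b)
  symm := ⟨fun u v h => h.symm⟩
  loopless := ⟨by
    rintro u (⟨a, b, -, rfl, h⟩ | ⟨a, b, -, rfl, h⟩)
    · exact Sum.inl_ne_inr h
    · exact Sum.inl_ne_inr h⟩

theorem adj_smul (k : D.L) (u v : (D.L ⧸ D.Hb) ⊕ (D.L ⧸ D.Sb x0)) (h : (D.Gr x0).Adj u v) :
    (D.Gr x0).Adj (k • u) (k • v) := by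
  rcases h with ⟨a, b, h, rfl, rfl⟩ | ⟨a, b, h, rfl, rfl⟩
  · exact Or.inl ⟨_, _, D.E_smul x0 k h, rfl, rfl⟩
  · exact Or.inr ⟨_, _, D.E_smul x0 k h, rfl, rfl⟩

theorem reach_congr {V : Type*} {G : SimpleGraph V} {A : Type*} {f : V → A}
    (hf : ∀ u v, G.Adj u v → f u = f v) {u v : V} (h : G.Reachable u v) : f u = f v := by
  obtain ⟨p⟩ := h
  induction p with
  | nil => rfl
  | cons hadj p ih => exact (hf _ _ hadj).trans ih

theorem not_reach {a : D.L ⧸ D.Hb} {b : D.L ⧸ D.Sb x0} (h : D.E x0 a b) :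
    ¬ ((D.Gr x0).deleteEdges {s(Sum.inl a, Sum.inr b)}).Reachable (Sum.inl a) (Sum.inr b) := by
  intro hr
  have h1 := reach_congr (f := fun v => Sum.elim (D.Dv x0) (D.Dw x0) v (a, b)) (by
    have key : ∀ a' b', D.E x0 a' b' → ¬ (a' = a ∧ b' = b) →
        D.Dv x0 a' (a, b) = D.Dw x0 b' (a, b) := by
      intro a' b' hE hne
      rw [D.E_D x0 hE, Pi.mul_apply]
      unfold sg
      rw [if_neg, mul_one]
      intro he
      exact hne ⟨(congrArg Prod.fst he).symm, (congrArg Prod.snd he).symm⟩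
    intro u v huv
    rw [SimpleGraph.deleteEdges_adj] at huv
    obtain ⟨huv, hn⟩ := huv
    rcases huv with ⟨a', b', hE, rfl, rfl⟩ | ⟨a', b', hE, rfl, rfl⟩
    · refine key a' b' hE ?_
      rintro ⟨rfl, rfl⟩
      exact hn rfl
    · refine (key a' b' hE ?_).symm
      rintro ⟨rfl, rfl⟩
      exact hn Sym2.eq_swap) hr
  have h2 : D.Dv x0 a (a, b) = D.Dw x0 b (a, b) := h1
  rw [D.E_D x0 h, Pi.mul_apply] at h2
  unfold sg at h2
  rw [if_pos rfl] at h2
  have h3 : (Multiplicative.ofAdd (1 : ℤ)) = 1 := by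
    exact (mul_eq_left.1 h2.symm)
  have h4 : (1 : ℤ) = 0 := h3
  exact one_ne_zero h4

theorem acyclic : (D.Gr x0).IsAcyclic := by
  rw [SimpleGraph.isAcyclic_iff_forall_adj_isBridge]
  rintro u v (⟨a, b, hE, rfl, rfl⟩ | ⟨a, b, hE, rfl, rfl⟩)
  · rw [SimpleGraph.isBridge_iff]
    exact D.not_reach x0 hE
  · rw [SimpleGraph.isBridge_iff, Sym2.eq_swap, SimpleGraph.reachable_comm]
    exact D.not_reach x0 hE

theorem connected : (D.Gr x0).Connected := by
  have hbase : ∀ x, (D.Gr x0).Reachable (Sum.inl (QuotientGroup.mk 1)) (Sum.inr (D.W x0 x)) := by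
    intro x
    refine SimpleGraph.Adj.reachable (Or.inl ⟨_, _, ⟨1, x, ?_, ?_⟩, rfl, rfl⟩)
    · rw [one_smul]
    · rw [one_smul]
  have hmap : ∀ (k : D.L) (u v : (D.L ⧸ D.Hb) ⊕ (D.L ⧸ D.Sb x0)),
      (D.Gr x0).Reachable u v → (D.Gr x0).Reachable (k • u) (k • v) := by
    intro k u v h
    let φ : (D.Gr x0) →g (D.Gr x0) := ⟨fun x => k • x, fun {a b} hab => D.adj_smul x0 k a b hab⟩
    exact h.map φ
  let v0 : (D.L ⧸ D.Hb) ⊕ (D.L ⧸ D.Sb x0) := Sum.inl (QuotientGroup.mk 1)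
  let K : Subgroup D.L :=
    { carrier := {l | (D.Gr x0).Reachable v0 (l • v0)}
      one_mem' := by
        change (D.Gr x0).Reachable v0 ((1 : D.L) • v0)
        rw [one_smul]
      mul_mem' := by
        intro a b ha hb
        change (D.Gr x0).Reachable v0 ((a * b) • v0)
        rw [mul_smul]
        exact SimpleGraph.Reachable.trans ha (hmap a _ _ hb)
      inv_mem' := by
        intro a ha
        change (D.Gr x0).Reachable v0 (a⁻¹ • v0)
        have := hmap a⁻¹ _ _ ha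
        rw [inv_smul_smul] at this
        exact this.symm }
  have hK : ∀ l : D.L, (D.Gr x0).Reachable v0 (l • v0) := by
    intro l
    refine D.eq_top (K := K) ?_ ?_ l
    · intro h
      change (D.Gr x0).Reachable v0 (D.ofH h • v0)
      have : D.ofH h • v0 = v0 := by
        change (Sum.inl (D.ofH h • (QuotientGroup.mk 1 : D.L ⧸ D.Hb)) : _ ⊕ _) = _
        rw [D.smul_H]
      rw [this]
    · intro x g hg
      change (D.Gr x0).Reachable v0 (D.ofV x g hg • v0)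
      have h1 := hmap (D.ofV x g hg) _ _ (hbase x)
      rw [Sum.smul_inr, D.smul_W] at h1
      exact (hbase (g • x)).trans h1.symm
  rw [SimpleGraph.connected_iff_exists_forall_reachable]
  refine ⟨v0, ?_⟩
  rintro (a | b)
  · obtain ⟨l, rfl⟩ := QuotientGroup.mk_surjective a
    have := hK l
    have h2 : l • v0 = Sum.inl (QuotientGroup.mk l) := by
      change (Sum.inl (QuotientGroup.mk (l * 1)) : _ ⊕ _) = _
      rw [mul_one]
    rwa [h2] at this
  · obtain ⟨l, rfl⟩ := QuotientGroup.mk_surjective b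
    have h1 := hmap l _ _ (hbase x0)
    have h2 : l • (Sum.inr (D.W x0 x0) : (D.L ⧸ D.Hb) ⊕ (D.L ⧸ D.Sb x0)) =
        Sum.inr (QuotientGroup.mk l) := by
      rw [D.W_eq x0 (D.one_mem x0) (one_smul _ _)]
      change (Sum.inr (QuotientGroup.mk (l * D.ofV x0 1 _)) : _ ⊕ _) = _
      have h3 : D.ofV x0 1 (D.one_mem x0) = 1 := by
        have := D.ofV_H' x0 D.H.one_mem (D.one_mem x0)
        rw [this]
        exact map_one D.ofH
      rw [h3, mul_one]
    rw [h2] at h1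
    exact (hK l).trans h1

theorem isTree : (D.Gr x0).IsTree := ⟨D.connected x0, D.acyclic x0⟩

theorem injH : Function.Injective D.ofH := by
  intro h k hk
  have := congrArg D.π hk
  rw [π_ofH, π_ofH] at this
  exact Subtype.ext this

theorem injS : Function.Injective (D.ofS x0) := by
  intro h k hk
  have := congrArg D.π hk
  rw [ofS_apply, ofS_apply, π_ofV, π_ofV] at this
  exact Subtype.ext this

/-- the stabiliser of a coset -/
theorem fpb_stab {G : Type*} [Group G] (K : Subgroup G) (hK : FPB K) (a : G ⧸ K) :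
    FPB (MulAction.stabilizer G a) := by
  obtain ⟨l, rfl⟩ := QuotientGroup.mk_surjective a
  have hmem : ∀ g : MulAction.stabilizer G (QuotientGroup.mk l : G ⧸ K), l⁻¹ * g * l ∈ K := by
    intro g
    have h1 : (QuotientGroup.mk ((g : G) * l) : G ⧸ K) = QuotientGroup.mk l := g.2
    rw [eq_comm, QuotientGroup.eq] at h1
    rwa [mul_assoc]
  let f : MulAction.stabilizer G (QuotientGroup.mk l : G ⧸ K) →* K :=
    MonoidHom.mk' (fun g => ⟨l⁻¹ * g * l, hmem g⟩) (by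
      intro a b
      refine Subtype.ext ?_
      change l⁻¹ * ((a : G) * b) * l = l⁻¹ * a * l * (l⁻¹ * b * l)
      group)
  refine fpb_of_injective f ?_ hK
  intro a b hab
  have h1 : l⁻¹ * (a : G) * l = l⁻¹ * b * l := congrArg Subtype.val hab
  exact Subtype.ext (mul_left_cancel (mul_right_cancel h1))

end tree

/-- **The universal group is in the class.** -/
theorem fpb_L [hne : Nonempty X] (hH : FPB D.H) (hS : ∀ x, FPB (D.stab x)) : FPB D.L := by
  obtain ⟨x0⟩ := hne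
  have h1 : FPB D.Hb := fpb_of_equiv (MonoidHom.ofInjective D.injH).symm hH
  have h2 : FPB (D.Sb x0) := fpb_of_equiv (MonoidHom.ofInjective (D.injS x0)).symm (hS x0)
  refine fpb_of_tree (D.Gr x0) (D.isTree x0) (fun g u v h => D.adj_smul x0 g u v h) ?_
  rintro (a | b)
  · refine fpb_mono (L := MulAction.stabilizer D.L a) ?_ (fpb_stab _ h1 a)
    intro g hg
    exact Sum.inl_injective hg
  · refine fpb_mono (L := MulAction.stabilizer D.L b) ?_ (fpb_stab _ h2 b)
    intro g hg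
    exact Sum.inr_injective hg

end Gpd

end Vale.Agent.P192.H260
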