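import Vale.Agent.P192.H260.TreeAct
import Vale.Agent.P192.H491.GpdDefs

/-!
# P192: the universal group of a groupoid and a subgroup, general case

The universal group `D.Gp` of a groupoid family acts on a tree whose vertex stabilisers are
isomorphic to `H` and to the groups `D.stab x`; so it is in the class `FPB` if these groups are.
-/

namespace Vale.Agent.P192.H260.GF

variable {T X : Type*} [Group T] [MulAction T X] {H : Subgroup T} (D : GpdFam T X H)

/-- induction principle for subgroups -/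
theorem eq_top {K : Subgroup D.Gp} (h1 : ∀ h, D.iH h ∈ K)
    (h2 : ∀ (x : X) (g : T) (hg : g ∈ D.V x), D.iV x g hg ∈ K) (l : D.Gp) : l ∈ K := by
  have h3 : Subgroup.closure ({y | ∃ h, y = D.iH h} ∪ {y | ∃ x g hg, y = D.iV x g hg}) ≤ K := by
    refine (Subgroup.closure_le _).2 ?_
    rintro _ (⟨h, rfl⟩ | ⟨x, g, hg, rfl⟩)
    · exact h1 h
    · exact h2 x g hg
  rw [D.gen] at h3
  exact h3 (Subgroup.mem_top l)

/-- the projection to `T` -/
def pr : D.Gp →* T := D.lift H.subtype (fun _ g _ => g) (fun _ _ _ _ _ => rfl) (fun _ _ _ => rfl)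

theorem pr_iH (h : H) : pr D (D.iH h) = h := D.lift_iH _ _ _ _ h

theorem pr_iV (x : X) (g : T) (hg : g ∈ D.V x) : pr D (D.iV x g hg) = g :=
  D.lift_iV _ _ _ _ x g hg

/-- the elements `[x, g]` of the vertex group -/
def iS (x : X) : D.stab x →* D.Gp :=
  MonoidHom.mk' (fun g => D.iV x g g.2.1) (by
    intro g k
    exact (D.iV_mul' k.2.1 g.2.1 k.2.2).symm)

/-- the subgroup `H` of `L` -/
def Hb : Subgroup D.Gp := D.iH.range

/-- the equivalence relation of the vertices of the second kind -/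
def rel : Setoid (D.Gp × X) where
  r p q := ∃ (g : T) (hg : g ∈ D.V p.2), g • p.2 = q.2 ∧ p.1 = q.1 * D.iV p.2 g hg
  iseqv :=
    { refl := fun p => ⟨1, D.H_le _ 1 (one_mem H), one_smul _ _, by rw [D.iV_one, mul_one]⟩
      symm := by
        rintro ⟨l, x⟩ ⟨m, y⟩ ⟨g, hg, h1, h2⟩
        change g • x = y at h1
        change l = m * D.iV x g hg at h2
        subst h1
        refine ⟨g⁻¹, D.inv_mem x g hg, inv_smul_smul _ _, ?_⟩
        change m = l * D.iV (g • x) g⁻¹ _
        rw [← D.iV_inv x g hg, h2, mul_inv_cancel_right]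
      trans := by
        rintro ⟨l, x⟩ ⟨m, y⟩ ⟨n, z⟩ ⟨g, hg, h1, h2⟩ ⟨k, hk, h3, h4⟩
        change g • x = y at h1
        change l = m * D.iV x g hg at h2
        change k • y = z at h3
        change m = n * D.iV y k hk at h4
        subst h1
        refine ⟨k * g, D.mul_mem x g k hg hk, ?_, ?_⟩
        · change (k * g) • x = z
          rw [mul_smul, h3]
        · change l = n * D.iV x (k * g) _
          rw [h2, h4, mul_assoc, D.iV_mul] }

/-- the vertices of the second kind -/
def VV := Quotient (rel D)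

/-- the class of a pair -/
def cl (l : D.Gp) (x : X) : VV D := Quotient.mk (rel D) (l, x)

theorem cl_eq {l m : D.Gp} {x y : X} {g : T} (hg : g ∈ D.V x) (h1 : g • x = y)
    (h2 : l = m * D.iV x g hg) : cl D l x = cl D m y :=
  Quotient.sound ⟨g, hg, h1, h2⟩

theorem cl_surj (b : VV D) : ∃ l x, b = cl D l x := by
  obtain ⟨⟨l, x⟩, rfl⟩ := Quotient.exists_rep b
  exact ⟨l, x, rfl⟩

instance : MulAction D.Gp (VV D) where
  smul k := Quotient.map (fun p => (k * p.1, p.2)) (by
    rintro ⟨l, x⟩ ⟨m, y⟩ ⟨g, hg, h1, h2⟩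
    refine ⟨g, hg, h1, ?_⟩
    change l = m * D.iV x g hg at h2
    change k * l = k * m * D.iV x g hg
    rw [h2, mul_assoc])
  one_smul b := by
    obtain ⟨l, x, rfl⟩ := cl_surj D b
    change cl D (1 * l) x = _
    rw [one_mul]
  mul_smul a k b := by
    obtain ⟨l, x, rfl⟩ := cl_surj D b
    change cl D (a * k * l) x = cl D (a * (k * l)) x
    rw [mul_assoc]

theorem smul_cl (k l : D.Gp) (x : X) : k • cl D l x = cl D (k * l) x := rfl

theorem smul_V (x : X) (g : T) (hg : g ∈ D.V x) : D.iV x g hg • cl D 1 x = cl D 1 (g • x) := by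
  rw [smul_cl, mul_one]
  exact cl_eq D hg rfl (one_mul _).symm

theorem smul_h (x : X) (h : H) : D.iH h • cl D 1 x = cl D 1 ((h : T) • x) := by
  have := smul_V D x h (D.H_le x h h.2)
  rwa [D.iV_H x h h.2] at this

theorem smul_H (h : H) : D.iH h • (QuotientGroup.mk 1 : D.Gp ⧸ Hb D) = QuotientGroup.mk 1 := by
  change (QuotientGroup.mk (D.iH h * 1) : D.Gp ⧸ Hb D) = _
  rw [mul_one, eq_comm, QuotientGroup.eq, inv_one, one_mul]
  exact ⟨h, rfl⟩

/-- pairs of vertices -/
abbrev P := (D.Gp ⧸ Hb D) × VV D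

open Classical in
/-- the indicator of a pair -/
noncomputable def sg (p : P D) : P D → Multiplicative ℤ :=
  fun q => if q = p then Multiplicative.ofAdd 1 else 1

theorem phi_sg (l : D.Gp) (p : P D) :
    (mulAutArrow : D.Gp →* MulAut (P D → Multiplicative ℤ)) l (sg D p) = sg D (l • p) := by
  funext q
  change (sg D p) (l⁻¹ • q) = _
  unfold sg
  by_cases h : q = l • p
  · rw [if_pos h, if_pos (by rw [h, inv_smul_smul])]
  · rw [if_neg h, if_neg (fun h' => h (by rw [← h', smul_inv_smul]))]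

/-- the edge from the base vertex to the vertex of `x` -/
noncomputable def ed (x : X) : P D → Multiplicative ℤ := sg D (QuotientGroup.mk 1, cl D 1 x)

theorem phi_iH (x : X) (h : H) :
    (mulAutArrow : D.Gp →* MulAut (P D → Multiplicative ℤ)) (D.iH h) (ed D x) =
      ed D ((h : T) • x) := by
  unfold ed
  rw [phi_sg, Prod.smul_mk, smul_H, smul_h]

/-- the derivation, as a homomorphism to the semidirect product -/
noncomputable def Phi :
    D.Gp →* (P D → Multiplicative ℤ) ⋊[(mulAutArrow : D.Gp →* MulAut _)] D.Gp :=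
  D.lift ((SemidirectProduct.inr).comp D.iH)
    (fun x g hg => ⟨ed D (g • x) * (mulAutArrow (D.iV x g hg) (ed D x))⁻¹, D.iV x g hg⟩)
    (by
      intro x g g' hg hg'
      refine SemidirectProduct.ext ?_ ?_
      · simp only [SemidirectProduct.mul_left]
        rw [map_mul, map_inv, ← MulAut.mul_apply, ← map_mul, D.iV_mul x g g' hg hg', mul_smul,
          mul_assoc, inv_mul_cancel_left]
      · simp only [SemidirectProduct.mul_right]
        exact D.iV_mul x g g' hg hg')
    (by
      intro x h hh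
      refine SemidirectProduct.ext ?_ ?_
      · simp only [MonoidHom.comp_apply, SemidirectProduct.left_inr]
        rw [mul_inv_eq_one, D.iV_H x h hh, phi_iH]
      · simp only [MonoidHom.comp_apply, SemidirectProduct.right_inr]
        exact D.iV_H x h hh)

theorem Phi_iH (h : H) : Phi D (D.iH h) = SemidirectProduct.inr (D.iH h) :=
  D.lift_iH _ _ _ _ h

theorem Phi_iV (x : X) (g : T) (hg : g ∈ D.V x) : Phi D (D.iV x g hg) =
    ⟨ed D (g • x) * (mulAutArrow (D.iV x g hg) (ed D x))⁻¹, D.iV x g hg⟩ :=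
  D.lift_iV _ _ _ _ x g hg

theorem Phi_right (l : D.Gp) : (Phi D l).right = l := by
  have h : (SemidirectProduct.rightHom).comp (Phi D) = MonoidHom.id D.Gp := by
    refine D.hom_ext (fun h => ?_) (fun x k hk => ?_)
    · rw [MonoidHom.comp_apply, Phi_iH]
      rfl
    · rw [MonoidHom.comp_apply, Phi_iV]
      rfl
  exact DFunLike.congr_fun h l

/-- the derivation -/
noncomputable def dd (l : D.Gp) : P D → Multiplicative ℤ := (Phi D l).left

theorem dd_mul (l m : D.Gp) : dd D (l * m) = dd D l * mulAutArrow l (dd D m) := by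
  unfold dd
  rw [map_mul, SemidirectProduct.mul_left, Phi_right]

theorem dd_iH (h : H) : dd D (D.iH h) = 1 := by
  unfold dd
  rw [Phi_iH]
  rfl

theorem dd_one : dd D 1 = 1 := by
  unfold dd
  rw [map_one]
  rfl

theorem dd_iV (x : X) (g : T) (hg : g ∈ D.V x) : dd D (D.iV x g hg) =
    ed D (g • x) * (mulAutArrow (D.iV x g hg) (ed D x))⁻¹ := by
  unfold dd
  rw [Phi_iV]

/-- potential of the vertices of the first kind -/
noncomputable def Dv (a : D.Gp ⧸ Hb D) : P D → Multiplicative ℤ := dd D a.out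

theorem Dv_mk (l : D.Gp) : Dv D (QuotientGroup.mk l) = dd D l := by
  obtain ⟨⟨_, h, rfl⟩, hh⟩ := QuotientGroup.mk_out_eq_mul (Hb D) l
  unfold Dv
  rw [hh]
  change dd D (l * D.iH h) = _
  rw [dd_mul, dd_iH, map_one, mul_one]

/-- potential of the vertices of the second kind -/
noncomputable def Dw : VV D → (P D → Multiplicative ℤ) :=
  Quotient.lift (fun p => dd D p.1 * mulAutArrow p.1 (ed D p.2)) (by
    rintro ⟨l, x⟩ ⟨m, y⟩ ⟨g, hg, h1, h2⟩
    change g • x = y at h1
    change l = m * D.iV x g hg at h2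
    change dd D l * mulAutArrow l (ed D x) = dd D m * mulAutArrow m (ed D y)
    rw [h2, dd_mul, dd_iV, map_mul mulAutArrow, MulAut.mul_apply, mul_assoc, ← map_mul,
      inv_mul_cancel_right, h1])

theorem Dw_cl (l : D.Gp) (x : X) : Dw D (cl D l x) = dd D l * mulAutArrow l (ed D x) := rfl

/-- the edges -/
def E (a : D.Gp ⧸ Hb D) (b : VV D) : Prop :=
  ∃ (l : D.Gp) (x : X), a = QuotientGroup.mk l ∧ b = cl D l x

theorem E_smul {a : D.Gp ⧸ Hb D} {b : VV D} (k : D.Gp) (h : E D a b) : E D (k • a) (k • b) := by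
  obtain ⟨l, x, rfl, rfl⟩ := h
  exact ⟨k * l, x, rfl, rfl⟩

theorem E_D {a : D.Gp ⧸ Hb D} {b : VV D} (h : E D a b) : Dw D b = Dv D a * sg D (a, b) := by
  obtain ⟨l, x, rfl, rfl⟩ := h
  rw [Dw_cl, Dv_mk]
  have h1 : l • (QuotientGroup.mk 1 : D.Gp ⧸ Hb D) = QuotientGroup.mk l := by
    change (QuotientGroup.mk (l * 1) : D.Gp ⧸ Hb D) = _
    rw [mul_one]
  unfold ed
  rw [phi_sg, Prod.smul_mk, h1, smul_cl, mul_one]

/-- the graph -/
def Gr : SimpleGraph ((D.Gp ⧸ Hb D) ⊕ VV D) where
  Adj u v := (∃ a b, E D a b ∧ u = Sum.inl a ∧ v = Sum.inr b) ∨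
    (∃ a b, E D a b ∧ v = Sum.inl a ∧ u = Sum.inr b)
  symm := ⟨fun u v h => h.symm⟩
  loopless := ⟨by
    rintro u (⟨a, b, -, rfl, h⟩ | ⟨a, b, -, rfl, h⟩)
    · exact Sum.inl_ne_inr h
    · exact Sum.inl_ne_inr h⟩

theorem adj_smul (k : D.Gp) (u v : (D.Gp ⧸ Hb D) ⊕ VV D) (h : (Gr D).Adj u v) :
    (Gr D).Adj (k • u) (k • v) := by
  rcases h with ⟨a, b, h, rfl, rfl⟩ | ⟨a, b, h, rfl, rfl⟩
  · exact Or.inl ⟨_, _, E_smul D k h, rfl, rfl⟩
  · exact Or.inr ⟨_, _, E_smul D k h, rfl, rfl⟩

theorem reach_congr {V : Type*} {G : SimpleGraph V} {A : Type*} {f : V → A}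
    (hf : ∀ u v, G.Adj u v → f u = f v) {u v : V} (h : G.Reachable u v) : f u = f v := by
  obtain ⟨p⟩ := h
  induction p with
  | nil => rfl
  | cons hadj p ih => exact (hf _ _ hadj).trans ih

theorem not_reach {a : D.Gp ⧸ Hb D} {b : VV D} (h : E D a b) :
    ¬ ((Gr D).deleteEdges {s(Sum.inl a, Sum.inr b)}).Reachable (Sum.inl a) (Sum.inr b) := by
  intro hr
  have h1 := reach_congr (f := fun v => Sum.elim (Dv D) (Dw D) v (a, b)) (by
    have key : ∀ a' b', E D a' b' → ¬ (a' = a ∧ b' = b) → Dv D a' (a, b) = Dw D b' (a, b) := by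
      intro a' b' hE hne
      rw [E_D D hE, Pi.mul_apply]
      unfold sg
      rw [if_neg, mul_one]
      intro he
      exact hne ⟨(congrArg Prod.fst he).symm, (congrArg Prod.snd he).symm⟩
    intro u v huv
    rw [SimpleGraph.deleteEdges_adj] at huv
    obtain ⟨huv, hn⟩ := huv
    rcases huv with ⟨a', b', hE, rfl, rfl⟩ | ⟨a', b', hE, rfl, rfl⟩
    · refine key a' b' hE ?_
      rintro ⟨rfl, rfl⟩
      exact hn rfl
    · refine (key a' b' hE ?_).symm
      rintro ⟨rfl, rfl⟩
      exact hn Sym2.eq_swap) hr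
  have h2 : Dv D a (a, b) = Dw D b (a, b) := h1
  rw [E_D D h, Pi.mul_apply] at h2
  unfold sg at h2
  rw [if_pos rfl] at h2
  have h3 : (Multiplicative.ofAdd (1 : ℤ)) = 1 := mul_eq_left.1 h2.symm
  have h4 : (1 : ℤ) = 0 := h3
  exact one_ne_zero h4

theorem acyclic : (Gr D).IsAcyclic := by
  rw [SimpleGraph.isAcyclic_iff_forall_adj_isBridge]
  rintro u v (⟨a, b, hE, rfl, rfl⟩ | ⟨a, b, hE, rfl, rfl⟩)
  · rw [SimpleGraph.isBridge_iff]
    exact not_reach D hE
  · rw [SimpleGraph.isBridge_iff, Sym2.eq_swap, SimpleGraph.reachable_comm]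
    exact not_reach D hE

theorem connected : (Gr D).Connected := by
  have hbase : ∀ (l : D.Gp) (x : X),
      (Gr D).Reachable (Sum.inl (QuotientGroup.mk l)) (Sum.inr (cl D l x)) :=
    fun l x => SimpleGraph.Adj.reachable (Or.inl ⟨_, _, ⟨l, x, rfl, rfl⟩, rfl, rfl⟩)
  have hmap : ∀ (k : D.Gp) (u v : (D.Gp ⧸ Hb D) ⊕ VV D),
      (Gr D).Reachable u v → (Gr D).Reachable (k • u) (k • v) := by
    intro k u v h
    let φ : (Gr D) →g (Gr D) := ⟨fun x => k • x, fun {a b} hab => adj_smul D k a b hab⟩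
    exact h.map φ
  let v0 : (D.Gp ⧸ Hb D) ⊕ VV D := Sum.inl (QuotientGroup.mk 1)
  have hv0 : ∀ l : D.Gp, l • v0 = Sum.inl (QuotientGroup.mk l) := by
    intro l
    change (Sum.inl (QuotientGroup.mk (l * 1)) : _ ⊕ _) = _
    rw [mul_one]
  let K : Subgroup D.Gp :=
    { carrier := {l | (Gr D).Reachable v0 (l • v0)}
      one_mem' := by
        change (Gr D).Reachable v0 ((1 : D.Gp) • v0)
        rw [one_smul]
      mul_mem' := by
        intro a b ha hb
        change (Gr D).Reachable v0 ((a * b) • v0)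
        rw [mul_smul]
        exact SimpleGraph.Reachable.trans ha (hmap a _ _ hb)
      inv_mem' := by
        intro a ha
        change (Gr D).Reachable v0 (a⁻¹ • v0)
        have := hmap a⁻¹ _ _ ha
        rw [inv_smul_smul] at this
        exact this.symm }
  have hK : ∀ l : D.Gp, (Gr D).Reachable v0 (l • v0) := by
    intro l
    refine eq_top D (K := K) ?_ ?_ l
    · intro h
      change (Gr D).Reachable v0 (D.iH h • v0)
      have : D.iH h • v0 = v0 := by
        change (Sum.inl (D.iH h • (QuotientGroup.mk 1 : D.Gp ⧸ Hb D)) : _ ⊕ _) = _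
        rw [smul_H]
      rw [this]
    · intro x g hg
      change (Gr D).Reachable v0 (D.iV x g hg • v0)
      have h1 := hmap (D.iV x g hg) _ _ (hbase 1 x)
      rw [Sum.smul_inr, smul_V] at h1
      exact (hbase 1 (g • x)).trans h1.symm
  rw [SimpleGraph.connected_iff_exists_forall_reachable]
  refine ⟨v0, ?_⟩
  rintro (a | b)
  · obtain ⟨l, rfl⟩ := QuotientGroup.mk_surjective a
    have := hK l
    rwa [hv0] at this
  · obtain ⟨l, x, rfl⟩ := cl_surj D b
    have := hK l
    rw [hv0] at this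
    exact this.trans (hbase l x)

theorem isTree : (Gr D).IsTree := ⟨connected D, acyclic D⟩

theorem injH : Function.Injective D.iH := by
  intro h k hk
  have := congrArg (pr D) hk
  rw [pr_iH, pr_iH] at this
  exact Subtype.ext this

theorem injS (x : X) : Function.Injective (iS D x) := by
  intro h k hk
  have := congrArg (pr D) hk
  change pr D (D.iV x h h.2.1) = pr D (D.iV x k k.2.1) at this
  rw [pr_iV, pr_iV] at this
  exact Subtype.ext this

/-- transfer through conjugation -/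
theorem fpb_conj {G : Type*} [Group G] (K S : Subgroup G) (hK : FPB K) (l : G)
    (h : ∀ g ∈ S, l⁻¹ * g * l ∈ K) : FPB S := by
  let f : S →* K :=
    MonoidHom.mk' (fun g => ⟨l⁻¹ * g * l, h g g.2⟩) (by
      intro a b
      refine Subtype.ext ?_
      change l⁻¹ * ((a : G) * b) * l = l⁻¹ * a * l * (l⁻¹ * b * l)
      group)
  refine fpb_of_injective f ?_ hK
  intro a b hab
  have h1 : l⁻¹ * (a : G) * l = l⁻¹ * b * l := congrArg Subtype.val hab
  exact Subtype.ext (mul_left_cancel (mul_right_cancel h1))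

end Vale.Agent.P192.H260.GF

namespace Vale.Agent.P192

/-- **The universal group of a groupoid family is in the class if `H` and all `stab x` are.** -/
theorem fpb_Gp {T X : Type*} [Group T] [MulAction T X] {H : Subgroup T} (D : GpdFam T X H)
    (hH : FPB H) (hst : ∀ x, FPB (D.stab x)) : FPB D.Gp := by
  have h1 : FPB (H260.GF.Hb D) := fpb_of_equiv (MonoidHom.ofInjective (H260.GF.injH D)).symm hH
  refine H260.fpb_of_tree (H260.GF.Gr D) (H260.GF.isTree D)
    (fun g u v h => H260.GF.adj_smul D g u v h) ?_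
  rintro (a | b)
  · obtain ⟨l, rfl⟩ := QuotientGroup.mk_surjective a
    refine H260.GF.fpb_conj _ _ h1 l ?_
    intro g hg
    have h2 : (QuotientGroup.mk (g * l) : D.Gp ⧸ H260.GF.Hb D) = QuotientGroup.mk l :=
      Sum.inl_injective hg
    rw [eq_comm, QuotientGroup.eq] at h2
    rwa [mul_assoc]
  · obtain ⟨l, x, rfl⟩ := H260.GF.cl_surj D b
    have h3 : FPB (H260.GF.iS D x).range :=
      fpb_of_equiv (MonoidHom.ofInjective (H260.GF.injS D x)).symm (hst x)
    refine H260.GF.fpb_conj _ _ h3 l ?_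
    intro g hg
    have h2 : H260.GF.cl D (g * l) x = H260.GF.cl D l x := Sum.inr_injective hg
    obtain ⟨k, hk, h4, h5⟩ := Quotient.exact h2
    change k • x = x at h4
    change g * l = l * D.iV x k hk at h5
    refine ⟨⟨k, hk, h4⟩, ?_⟩
    change D.iV x k hk = _
    rw [mul_assoc, h5, inv_mul_cancel_left]

end Vale.Agent.P192
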