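import Vale.Agent.P192.H826.Iet4
import Vale.Agent.P192.H663.Calc

/-!
# P192: piecewise translations of the line with finitely many pieces
-/

namespace Vale.Agent.P192.IetLine

open Group Subgroup

/-- A permutation of finite order which is a translation near `+∞` is the identity there. -/
theorem near_top (a : Equiv.Perm ℝ) (ha : IsOfFinOrder a) (B : Finset ℝ)
    (hB : ∀ x y, x < y → (∀ b ∈ B, ¬ (x < b ∧ b ≤ y)) → a y - a x = y - x) :
    ∃ M : ℝ, ∀ x, M ≤ x → a x = x := by
  obtain ⟨m, hm⟩ : ∃ m : ℝ, ∀ b ∈ B, b ≤ m := by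
    obtain ⟨m, hm⟩ := B.bddAbove
    exact ⟨m, fun b hb => hm hb⟩
  have h1 : ∀ x, m ≤ x → a x = x + (a m - m) := by
    intro x hx
    rcases hx.eq_or_lt with rfl | hx
    · ring
    · have := hB m x hx (fun b hb h => absurd h.1 (not_lt.2 (hm b hb)))
      linarith
  obtain ⟨n, hn, hna⟩ := isOfFinOrder_iff_pow_eq_one.1 ha
  set c := a m - m with hc
  have h2 : ∀ j : ℕ, j ≤ n → (a ^ j) (m + n * |c|) = m + n * |c| + j * c := by
    intro j
    induction j with
    | zero => intro _; simp
    | succ j ih =>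
      intro hj
      rw [pow_succ', Equiv.Perm.mul_apply, ih (by omega), h1]
      · push_cast; ring
      · have hjn : (j : ℝ) ≤ n := by exact_mod_cast (by omega : j ≤ n)
        have h3 : (j : ℝ) * c ≥ -(n * |c|) := by
          have h4 : -(j * |c|) ≤ (j : ℝ) * c := by
            have := mul_le_mul_of_nonneg_left (neg_abs_le c) (Nat.cast_nonneg (α := ℝ) j)
            linarith
          have h5 : (j : ℝ) * |c| ≤ n * |c| := mul_le_mul_of_nonneg_right hjn (abs_nonneg _)
          linarith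
        linarith
  have h3 := h2 n le_rfl
  rw [hna, Equiv.Perm.one_apply] at h3
  have h4 : (n : ℝ) * c = 0 := by linarith
  have h5 : c = 0 := by
    rcases mul_eq_zero.1 h4 with h | h
    · exact absurd (by exact_mod_cast h) hn.ne'
    · exact h
  refine ⟨m, fun x hx => ?_⟩
  rw [h1 x hx, h5, add_zero]

/-- A permutation of finite order which is a translation near `-∞` is the identity there. -/
theorem near_bot (a : Equiv.Perm ℝ) (ha : IsOfFinOrder a) (B : Finset ℝ)
    (hB : ∀ x y, x < y → (∀ b ∈ B, ¬ (x < b ∧ b ≤ y)) → a y - a x = y - x) :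
    ∃ M : ℝ, ∀ x, x < M → a x = x := by
  obtain ⟨m', hm'⟩ : ∃ m : ℝ, ∀ b ∈ B, m ≤ b := by
    obtain ⟨m, hm⟩ := B.bddBelow
    exact ⟨m, fun b hb => hm hb⟩
  set m := m' - 1 with hmm
  have hm : ∀ b ∈ B, m < b := fun b hb => by have := hm' b hb; linarith
  have h1 : ∀ x, x ≤ m → a x = x + (a m - m) := by
    intro x hx
    rcases hx.eq_or_lt with rfl | hx
    · ring
    · have := hB x m hx (fun b hb h => absurd h.2 (not_le.2 (hm b hb)))
      linarith
  obtain ⟨n, hn, hna⟩ := isOfFinOrder_iff_pow_eq_one.1 ha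
  set c := a m - m with hc
  have h2 : ∀ j : ℕ, j ≤ n → (a ^ j) (m - n * |c|) = m - n * |c| + j * c := by
    intro j
    induction j with
    | zero => intro _; simp
    | succ j ih =>
      intro hj
      rw [pow_succ', Equiv.Perm.mul_apply, ih (by omega), h1]
      · push_cast; ring
      · have hjn : (j : ℝ) ≤ n := by exact_mod_cast (by omega : j ≤ n)
        have h3 : (j : ℝ) * c ≤ n * |c| := by
          have h4 : (j : ℝ) * c ≤ j * |c| :=
            mul_le_mul_of_nonneg_left (le_abs_self c) (Nat.cast_nonneg (α := ℝ) j)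
          have h5 : (j : ℝ) * |c| ≤ n * |c| := mul_le_mul_of_nonneg_right hjn (abs_nonneg _)
          linarith
        linarith
  have h3 := h2 n le_rfl
  rw [hna, Equiv.Perm.one_apply] at h3
  have h4 : (n : ℝ) * c = 0 := by linarith
  have h5 : c = 0 := by
    rcases mul_eq_zero.1 h4 with h | h
    · exact absurd (by exact_mod_cast h) hn.ne'
    · exact h
  refine ⟨m, fun x hx => ?_⟩
  rw [h1 x hx.le, h5, add_zero]

/-- **Interval exchange transformations of the line.** -/
theorem fpb_line (K : Subgroup (Equiv.Perm ℝ)) (hK : ∀ k ∈ K, ∃ B : Finset ℝ, ∀ x y, x < y →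
    (∀ b ∈ B, ¬ (x < b ∧ b ≤ y)) → k y - k x = y - x) : FPB K := by
  intro Γ _ hΓ ht f
  have hfp : Group.IsFinitelyPresented Γ := hΓ
  have hfg : Group.FG Γ := by
    obtain ⟨n, ψ, hψ, -⟩ := id hΓ
    exact Group.fg_of_surjective hψ
  -- the supports
  have hsupp : ∀ γ : Γ, ∃ M : ℝ, 0 ≤ M ∧ ∀ x, x ∉ Set.Ico (-M) M → (f γ : Equiv.Perm ℝ) x = x := by
    intro γ
    obtain ⟨B, hB⟩ := hK (f γ) (f γ).2
    have hfo : IsOfFinOrder ((f γ : K) : Equiv.Perm ℝ) :=
      MonoidHom.isOfFinOrder (K.subtype.comp f) (ht γ)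
    obtain ⟨M₁, hM₁⟩ := near_top _ hfo B hB
    obtain ⟨M₂, hM₂⟩ := near_bot _ hfo B hB
    refine ⟨max (max M₁ (-M₂)) 0, le_max_right _ _, fun x hx => ?_⟩
    rw [Set.mem_Ico, not_and_or, not_le, not_lt] at hx
    rcases hx with hx | hx
    · apply hM₂
      have : -M₂ ≤ max (max M₁ (-M₂)) 0 := (le_max_right _ _).trans (le_max_left _ _)
      linarith
    · apply hM₁
      exact ((le_max_left _ _).trans (le_max_left _ _)).trans hx
  obtain ⟨A, hA, hAf⟩ := (Group.fg_iff (G := Γ)).1 hfg
  have hAfin : Finite A := hAf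
  choose M hM0 hM using hsupp
  obtain ⟨R, hR⟩ := Finite.exists_le (fun a : A => M a)
  -- one bound for all
  have hall : ∀ γ : Γ, ∀ x, x ∉ Set.Ico (-(max R 0)) (max R 0) →
      (f γ : Equiv.Perm ℝ) x = x := by
    intro γ
    have hγ : γ ∈ Subgroup.closure A := by rw [hA]; trivial
    induction hγ using Subgroup.closure_induction with
    | mem a ha =>
      intro x hx
      apply hM a
      intro h
      apply hx
      have h1 : M a ≤ max R 0 := (hR ⟨a, ha⟩).trans (le_max_left _ _)
      exact ⟨by linarith [h.1], lt_of_lt_of_le h.2 h1⟩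
    | one =>
      intro x _
      rw [map_one]
      rfl
    | mul a b _ _ ha hb =>
      intro x hx
      rw [map_mul]
      change (f a : Equiv.Perm ℝ) ((f b : Equiv.Perm ℝ) x) = x
      rw [hb x hx, ha x hx]
    | inv a _ ha =>
      intro x hx
      rw [map_inv]
      change ((f a : Equiv.Perm ℝ))⁻¹ x = x
      rw [Equiv.Perm.inv_eq_iff_eq]
      exact (ha x hx).symm
  set L := max R 0 with hL
  have hL0 : 0 ≤ L := le_max_right _ _
  let ρ : Γ →* Equiv.Perm ℝ :=
    (MulAut.conj (Equiv.addRight L : Equiv.Perm ℝ)).toMonoidHom.comp (K.subtype.comp f)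
  have hρ : ∀ γ x, ρ γ x = (f γ : Equiv.Perm ℝ) (x - L) + L := by
    intro γ x
    change (Equiv.addRight L : Equiv.Perm ℝ) ((f γ : Equiv.Perm ℝ)
      ((Equiv.addRight L : Equiv.Perm ℝ)⁻¹ x)) = _
    have h1 : (Equiv.addRight L : Equiv.Perm ℝ)⁻¹ x = x - L := by
      rw [Equiv.Perm.inv_eq_iff_eq]
      change x = x - L + L
      ring
    rw [h1]
    rfl
  have hfin : Finite ρ.range := by
    refine Iet.core Γ ht (2 * L) ρ ?_ ?_
    · intro γ x hx
      rw [hρ, hall γ (x - L) ?_]
      · ring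
      · intro h
        apply hx
        exact ⟨by linarith [h.1], by linarith [h.2]⟩
    · intro γ
      obtain ⟨B, hB⟩ := hK (f γ) (f γ).2
      refine ⟨B.image (fun b => b + L), fun x y _ hxy _ hb => ?_⟩
      rw [hρ, hρ]
      have h1 := hB (x - L) (y - L) (by linarith) (fun b hbB h => by
        refine hb (b + L) (Finset.mem_image_of_mem _ hbB) ⟨by linarith [h.1], by linarith [h.2]⟩)
      linarith
  -- back
  refine Set.Finite.of_finite_image (f := fun k : K =>
    (MulAut.conj (Equiv.addRight L : Equiv.Perm ℝ)).toMonoidHom (k : Equiv.Perm ℝ)) ?_ ?_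
  · refine (Set.toFinite (ρ.range : Set (Equiv.Perm ℝ))).subset ?_
    rintro _ ⟨_, ⟨γ, rfl⟩, rfl⟩
    exact ⟨γ, rfl⟩
  · intro k _ k' _ h
    exact Subtype.ext ((MulAut.conj (Equiv.addRight L : Equiv.Perm ℝ)).injective h)

end Vale.Agent.P192.IetLine
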