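import Vale.Agent.P192.H124.RaysMax

/-!
# P192: maximal groups by Zorn's lemma, general form
-/

namespace Vale.Agent.P192

universe u

/-- A property of subgroups closed under unions of chains, with one-step extensions, has
self-extending subgroups above each of its members. -/
theorem exists_max_ext {T : Type u} [Group T] (P : Subgroup T → Prop)
    (hch : ∀ c : Set (Subgroup T), IsChain (· ≤ ·) c → c.Nonempty → (∀ K ∈ c, P K) → P (sSup c))
    (E : Subgroup T → Set T) (hext : ∀ K, P K → ∃ K', P K' ∧ K ≤ K' ∧ E K ⊆ K')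
    {H : Subgroup T} (hH : P H) : ∃ R, P R ∧ H ≤ R ∧ E R ⊆ R := by
  obtain ⟨R, hHR, hmax⟩ := zorn_le_nonempty₀ {K : Subgroup T | P K}
    (fun c hc hcc K hK => ⟨sSup c, hch c hcc ⟨K, hK⟩ fun L hL => hc hL,
      fun L hL => le_sSup hL⟩) H hH
  obtain ⟨R', hR', hle, hV⟩ := hext R hmax.prop
  exact ⟨R, hmax.prop, hHR, hV.trans (hmax.le_of_ge hR' hle)⟩

/-- The usual properties pass to unions of chains. -/
theorem good_sSup {T : Type u} [Group T] {Y : Type*} (S : SS T Y) (F : Subgroup T)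
    {c : Set (Subgroup T)} (hc : IsChain (· ≤ ·) c) (hne : c.Nonempty)
    (h1 : ∀ K ∈ c, ∀ h ∈ K, ∀ y, S.sec h y ∈ K) (h2 : ∀ K ∈ c, K ≤ F) (h3 : ∀ K ∈ c, FPB K) :
    (∀ h ∈ (sSup c : Subgroup T), ∀ y, S.sec h y ∈ (sSup c : Subgroup T)) ∧ sSup c ≤ F ∧
      FPB (sSup c : Subgroup T) := by
  refine ⟨?_, sSup_le h2, fpb_sSup_chain hc hne h3⟩
  intro g hg y
  obtain ⟨K, hK, hgK⟩ := (Subgroup.mem_sSup_of_directedOn hne hc.directedOn).1 hg
  exact (Subgroup.mem_sSup_of_directedOn hne hc.directedOn).2 ⟨K, hK, h1 K hK g hgK y⟩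

end Vale.Agent.P192
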