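import Vale.Agent.P192.H260.ColTreeK
import Vale.Agent.P192.H663.Multi

/-!
# P192: the relative colouring theorem for all partitions of the permutations of the letters
-/

namespace Vale.Agent.P192

open Group Subgroup

namespace SS

variable {T Y : Type} [Group T] (S : SS T Y)

/-- A partition of the permutations of the letters such that among `p`, `b p` and `a b p` (`a`,
`b` and `a b` in `N`) two are always in the same class. -/
def TriP (N : Set T) (r : Setoid (Equiv.Perm Y)) : Prop :=
  ∀ a ∈ N, ∀ b ∈ N, a * b ∈ N → ∀ p : Equiv.Perm Y,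
    r p (S.σ b * p) ∨ r (S.σ b * p) (S.σ (a * b) * p) ∨ r p (S.σ (a * b) * p)

/-- One step inside a class: multiplication on the left by an element of `N`. -/
def estep (N : Set T) (r : Setoid (Equiv.Perm Y)) (t t' : T) : Prop :=
  r (S.σ t) (S.σ t') ∧ ∃ a ∈ N, t' = a * t

theorem estep_mul (N : Set T) (r : Setoid (Equiv.Perm Y)) (x : T) (hx : S.σ x = 1) {t t' : T}
    (h : Relation.EqvGen (S.estep N r) t t') :
    Relation.EqvGen (S.estep N r) (t * x) (t' * x) := by
  induction h with
  | rel t t' h =>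
    obtain ⟨h1, a, ha, rfl⟩ := h
    refine Relation.EqvGen.rel _ _ ⟨?_, a, ha, mul_assoc _ _ _⟩
    rw [map_mul S.σ t x, map_mul S.σ (a * t) x, hx, mul_one, mul_one]
    exact h1
  | refl t => exact Relation.EqvGen.refl _
  | symm t t' _ ih => exact ih.symm
  | trans t t' t'' _ _ ih1 ih2 => exact ih1.trans _ _ _ ih2

/-- The elements `x` which act trivially on the letters and for which `g` and `g x` are joined
by a path inside a class. -/
def loopP (N : Set T) (r : Setoid (Equiv.Perm Y)) (g : T) : Subgroup T where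
  carrier := {x | S.σ x = 1 ∧ Relation.EqvGen (S.estep N r) g (g * x)}
  one_mem' := ⟨map_one _, by rw [mul_one]; exact Relation.EqvGen.refl _⟩
  mul_mem' := by
    rintro x z ⟨hx, hx2⟩ ⟨hz, hz2⟩
    refine ⟨by rw [map_mul, hx, hz, mul_one], ?_⟩
    have h := S.estep_mul N r z hz hx2
    rw [mul_assoc] at h
    exact hz2.trans _ _ _ h
  inv_mem' := by
    rintro x ⟨hx, hx2⟩
    have hx' : S.σ x⁻¹ = 1 := by rw [map_inv, hx, inv_one]
    refine ⟨hx', ?_⟩
    have h := S.estep_mul N r x⁻¹ hx' hx2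
    rw [mul_assoc, mul_inv_cancel, mul_one] at h
    exact h.symm

variable (N : Set T) (h1 : (1 : T) ∈ N) (hN : ∀ a ∈ N, ∀ y, S.sec a y ∈ N)

/-- one partition: a subgroup of finite index goes into a loop group -/
theorem mem_loopP {K : Type} [Group K] (hKfp : IsFinitelyPresented K)
    (hKt : ∀ x : K, IsOfFinOrder x) (f : K →* LC N) (hKσ : ∀ γ, S.σ (πC N (f γ)) = 1)
    (r : Setoid (Equiv.Perm Y)) (hr : S.TriP N r) :
    ∃ E : Subgroup K, E.FiniteIndex ∧ ∃ g : T, ∀ γ ∈ E, πC N (f γ) ∈ S.loopP N r g := by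
  have hKfg : Group.FG K := by
    obtain ⟨n, ψ, hψ, -⟩ := id hKfp
    exact Group.fg_of_surjective hψ
  let C : LC N → Quotient r := fun x => Quotient.mk r (S.σ (πC N x))
  have hT : ColTreeK.Tri C := by
    intro a b d hd x
    have e : ∀ g : N, S.σ (πC N (gen g * x)) = S.σ (g : T) * S.σ (πC N x) := by
      intro g
      rw [map_mul, πC_gen, map_mul]
    have h := hr a a.2 b b.2 (by rw [hd]; exact d.2) (S.σ (πC N x))
    rw [hd, ← e b, ← e d] at h
    rcases h with h | h | h
    · exact Or.inl (Quotient.sound h)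
    · exact Or.inr (Or.inl (Quotient.sound h))
    · exact Or.inr (Or.inr (Quotient.sound h))
  obtain ⟨E, hE, x, hx⟩ := ColTreeK.exists_comp C hT hKt f (by
    intro γ x
    change Quotient.mk r (S.σ (πC N (x * f γ))) = Quotient.mk r (S.σ (πC N x))
    rw [map_mul, map_mul, hKσ γ, mul_one])
  refine ⟨E, hE, πC N x, fun γ hγ => ⟨hKσ γ, ?_⟩⟩
  have hmap : ∀ x z : LC N, Relation.EqvGen (ColTreeK.same C) x z →
      Relation.EqvGen (S.estep N r) (πC N x) (πC N z) := by
    intro x z h
    induction h with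
    | rel x z h =>
      obtain ⟨h2, a, rfl⟩ := h
      refine Relation.EqvGen.rel _ _ ⟨Quotient.exact h2, a, a.2, ?_⟩
      rw [map_mul, πC_gen]
    | refl x => exact Relation.EqvGen.refl _
    | symm x z _ ih => exact ih.symm
    | trans x z w _ _ ih1 ih2 => exact ih1.trans _ _ _ ih2
  have h := hmap _ _ (hx γ hγ)
  rw [map_mul] at h
  exact h

include h1 hN in
/-- **The relative colouring theorem for all partitions together.** -/
theorem relPartitions [Finite Y] (hf : S.Faithful) (hc : ∀ g, ∃ n, S.deep N n g)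
    (hP : ∀ (y : Y) (g : {r : Setoid (Equiv.Perm Y) // S.TriP N r} → T),
      FPB (Subgroup.closure {t : T | ∃ x : T, (∀ r, x ∈ S.loopP N r.1 (g r)) ∧ t = S.sec x y})) :
    FPB T := by
  refine S.fpb_of_base N h1 hN hf hc (fun Γ _ hΓ ht f => S.base_of_good N hf ?_ Γ hΓ ht f)
  intro y0 K _ hKfp hKt f hKσ
  have hfinP : Finite (Setoid (Equiv.Perm Y)) := by
    refine Finite.of_injective (fun r : Setoid (Equiv.Perm Y) => fun p q => r p q) ?_
    intro r r' h
    exact Setoid.ext fun p q => iff_of_eq (congrFun (congrFun h p) q)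
  choose E hE g hg using fun r : {r : Setoid (Equiv.Perm Y) // S.TriP N r} =>
    S.mem_loopP N hKfp hKt f hKσ r.1 r.2
  have hEi : (⨅ r, E r : Subgroup K).FiniteIndex := Subgroup.finiteIndex_iInf hE
  let s : K →* T :=
    { toFun := fun γ => S.sec (πC N (f γ)) y0
      map_one' := by rw [map_one, map_one, S.sec_one]
      map_mul' := by
        intro a b
        rw [map_mul, map_mul, S.sec_mul, hKσ b]
        rfl }
  have hmem : ∀ γ : (⨅ r, E r : Subgroup K), s γ ∈ Subgroup.closure
      {t : T | ∃ x : T, (∀ r, x ∈ S.loopP N r.1 (g r)) ∧ t = S.sec x y0} := by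
    intro γ
    apply Subgroup.subset_closure
    exact ⟨πC N (f γ), fun r => hg r γ (Subgroup.mem_iInf.1 γ.2 r), rfl⟩
  have hfp : IsFinitelyPresented (⨅ r, E r : Subgroup K) := fp_of_finiteIndex K _
  have hEt : ∀ x : (⨅ r, E r : Subgroup K), IsOfFinOrder x := fun x =>
    (Submonoid.isOfFinOrder_coe (H := (⨅ r, E r : Subgroup K).toSubmonoid) (x := x)).1 (hKt x.1)
  have hfin := hP y0 g _ hfp hEt ((s.comp (⨅ r, E r : Subgroup K).subtype).codRestrict _ hmem)
  have hfin2 : (Subtype.val '' (((s.comp (⨅ r, E r : Subgroup K).subtype).codRestrict _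
      hmem).range : Set (Subgroup.closure
        {t : T | ∃ x : T, (∀ r, x ∈ S.loopP N r.1 (g r)) ∧ t = S.sec x y0}))).Finite :=
    (Set.toFinite _).image _
  have hsE : (s '' ((⨅ r, E r : Subgroup K) : Set K)).Finite := by
    refine hfin2.subset ?_
    rintro _ ⟨γ, hγ, rfl⟩
    exact ⟨_, ⟨⟨γ, hγ⟩, rfl⟩, rfl⟩
  have hsr : Finite s.range := finite_range_of s _ hsE
  refine (Set.toFinite (s.range : Set T)).subset ?_
  rintro _ ⟨γ, rfl⟩
  exact ⟨γ, rfl⟩

end SS

end Vale.Agent.P192
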