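import Mathlib

/-!
# P192: rational deformation of finitely many real numbers
-/

namespace Vale.Agent.P192.H260

open Topology Filter

/-- Finitely many real numbers can be replaced by integers such that all signs of the
combinations `x - y + z - w` are kept. -/
theorem exists_nu (Z : Finset ℝ) : ∃ ν : ℝ → ℤ, ν 0 = 0 ∧ ∀ x ∈ Z, ∀ y ∈ Z, ∀ z ∈ Z, ∀ w ∈ Z,
    (0 < x - y + z - w → 0 < ν x - ν y + ν z - ν w) ∧
      (x - y + z - w = 0 → ν x - ν y + ν z - ν w = 0) := by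
  classical
  let V : Submodule ℚ ℝ := Submodule.span ℚ (Z : Set ℝ)
  have hfd : Module.Finite ℚ V := Module.Finite.span_of_finite ℚ Z.finite_toSet
  let b := Module.finBasis ℚ V
  have hZV : ∀ x ∈ Z, x ∈ V := fun x hx => Submodule.subset_span hx
  -- the evaluation
  have hev : ∀ v : V, (v : ℝ) = ∑ i, ((b.repr v i : ℚ) : ℝ) * (b i : ℝ) := by
    intro v
    have h1 := congrArg (Submodule.subtype V) (b.sum_repr v)
    rw [map_sum] at h1
    have h2 : (v : ℝ) = Submodule.subtype V v := rfl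
    rw [h2, ← h1]
    refine Finset.sum_congr rfl (fun i _ => ?_)
    rw [map_smul, Rat.smul_def]
    rfl
  -- the combinations
  let vec : Z × Z × Z × Z → V := fun p =>
    ⟨p.1.1, hZV _ p.1.2⟩ - ⟨p.2.1.1, hZV _ p.2.1.2⟩ + ⟨p.2.2.1.1, hZV _ p.2.2.1.2⟩ -
      ⟨p.2.2.2.1, hZV _ p.2.2.2.2⟩
  have hopen : ∀ᶠ t in 𝓝 (fun i => (b i : ℝ)), ∀ p : Z × Z × Z × Z, 0 < (vec p : ℝ) →
      0 < ∑ i, ((b.repr (vec p) i : ℚ) : ℝ) * t i := by
    rw [eventually_all]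
    intro p
    by_cases hp : 0 < (vec p : ℝ)
    · have hcont : Continuous (fun t : Fin (Module.finrank ℚ V) → ℝ =>
          ∑ i, ((b.repr (vec p) i : ℚ) : ℝ) * t i) :=
        continuous_finsetSum _ (fun i _ => continuous_const.mul (continuous_apply i))
      have h0 : 0 < ∑ i, ((b.repr (vec p) i : ℚ) : ℝ) * (b i : ℝ) := by
        rw [← hev]
        exact hp
      filter_upwards [hcont.continuousAt.eventually (lt_mem_nhds h0)] with t ht _
      exact ht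
    · exact Eventually.of_forall (fun t h => absurd h hp)
  obtain ⟨O, hO, hOo, hOb⟩ := eventually_nhds_iff.1 hopen
  have hdense : DenseRange (fun q : Fin (Module.finrank ℚ V) → ℚ => fun i => ((q i : ℚ) : ℝ)) :=
    DenseRange.piMap (fun _ => Rat.denseRange_cast)
  obtain ⟨q, hq⟩ := hdense.exists_mem_open hOo ⟨_, hOb⟩
  have hq' := hO _ hq
  -- the linear functional
  let lam : V →ₗ[ℚ] ℚ := b.constr ℚ q
  have hlam : ∀ v : V, ((lam v : ℚ) : ℝ) = ∑ i, ((b.repr v i : ℚ) : ℝ) * ((q i : ℚ) : ℝ) := by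
    intro v
    rw [Module.Basis.constr_apply_fintype, Rat.cast_sum]
    refine Finset.sum_congr rfl (fun i _ => ?_)
    rw [Module.Basis.equivFun_apply, smul_eq_mul, Rat.cast_mul]
  have hpos : ∀ p, 0 < (vec p : ℝ) → 0 < lam (vec p) := by
    intro p hp
    have h1 := hq' p hp
    rw [← hlam] at h1
    exact_mod_cast h1
  have hzero : ∀ p, (vec p : ℝ) = 0 → lam (vec p) = 0 := by
    intro p hp
    have : vec p = 0 := Subtype.ext hp
    rw [this, map_zero]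
  -- the common denominator
  let L : ℝ → ℚ := fun x => if h : x ∈ V then lam ⟨x, h⟩ else 0
  have hL : ∀ x (h : x ∈ V), L x = lam ⟨x, h⟩ := fun x h => dif_pos h
  let D : ℕ := ∏ x ∈ Z, (L x).den
  have hD : 0 < D := Finset.prod_pos (fun x _ => (L x).den_pos)
  have hint : ∀ x ∈ Z, ((⌊(D : ℚ) * L x⌋ : ℤ) : ℚ) = (D : ℚ) * L x := by
    intro x hx
    obtain ⟨k, hk⟩ : (L x).den ∣ D := Finset.dvd_prod_of_mem _ hx
    have h1 : (D : ℚ) * L x = ((k * (L x).num : ℤ) : ℚ) := by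
      rw [hk]
      push_cast
      have h2 : ((L x).den : ℚ) * L x = (L x).num := Rat.den_mul_eq_num _
      calc ((L x).den : ℚ) * k * L x = k * (((L x).den : ℚ) * L x) := by ring
        _ = k * (L x).num := by rw [h2]
    rw [h1, Int.floor_intCast]
  refine ⟨fun x => ⌊(D : ℚ) * L x⌋, ?_, ?_⟩
  · have h0 : L 0 = 0 := by
      rw [hL 0 (zero_mem V)]
      exact map_zero lam
    change ⌊(D : ℚ) * L 0⌋ = 0
    rw [h0, mul_zero, Int.floor_zero]
  · intro x hx y hy z hz w hw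
    have hvec : (vec (⟨x, hx⟩, ⟨y, hy⟩, ⟨z, hz⟩, ⟨w, hw⟩) : ℝ) = x - y + z - w := rfl
    have hl : lam (vec (⟨x, hx⟩, ⟨y, hy⟩, ⟨z, hz⟩, ⟨w, hw⟩)) = L x - L y + L z - L w := by
      rw [hL x (hZV x hx), hL y (hZV y hy), hL z (hZV z hz), hL w (hZV w hw), ← map_sub,
        ← map_add, ← map_sub]
    have hcast : (((⌊(D : ℚ) * L x⌋ - ⌊(D : ℚ) * L y⌋ + ⌊(D : ℚ) * L z⌋ - ⌊(D : ℚ) * L w⌋ : ℤ)) : ℚ)
        = D * lam (vec (⟨x, hx⟩, ⟨y, hy⟩, ⟨z, hz⟩, ⟨w, hw⟩)) := by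
      rw [hl]
      push_cast
      rw [hint x hx, hint y hy, hint z hz, hint w hw]
      ring
    constructor
    · intro h
      have h1 := hpos (⟨x, hx⟩, ⟨y, hy⟩, ⟨z, hz⟩, ⟨w, hw⟩) (by rw [hvec]; exact h)
      have h2 : (0 : ℚ) < ((⌊(D : ℚ) * L x⌋ - ⌊(D : ℚ) * L y⌋ + ⌊(D : ℚ) * L z⌋ -
          ⌊(D : ℚ) * L w⌋ : ℤ) : ℚ) := by
        rw [hcast]
        exact mul_pos (by exact_mod_cast hD) h1
      exact_mod_cast h2
    · intro h
      have h1 := hzero (⟨x, hx⟩, ⟨y, hy⟩, ⟨z, hz⟩, ⟨w, hw⟩) (by rw [hvec]; exact h)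
      have h2 : ((⌊(D : ℚ) * L x⌋ - ⌊(D : ℚ) * L y⌋ + ⌊(D : ℚ) * L z⌋ -
          ⌊(D : ℚ) * L w⌋ : ℤ) : ℚ) = 0 := by
        rw [hcast, h1, mul_zero]
      exact_mod_cast h2

end Vale.Agent.P192.H260
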