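import Vale.Agent.P192.H260.MultiK
import Vale.Agent.P192.H491.FV

/-!
# P192: the relative colouring theorem for partitions, arbitrary alphabets
-/

namespace Vale.Agent.P192

open Group Subgroup

/-- a homomorphism from a finitely presented periodic group to a group of the class: the kernel
has finite index -/
theorem ker_finiteIndex {Γ P G : Type} [Group Γ] [Group P] [Group G] (σ : G →* P)
    (hσ : FPB σ.range) (hΓ : IsFinitelyPresented Γ) (ht : ∀ x : Γ, IsOfFinOrder x) (f : Γ →* G) :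
    (σ.comp f).ker.FiniteIndex := by
  have h1 := hσ Γ hΓ ht (σ.rangeRestrict.comp f)
  have h2 : (σ.rangeRestrict.comp f).ker = (σ.comp f).ker := by
    ext x
    rw [MonoidHom.mem_ker, MonoidHom.mem_ker]
    exact ⟨fun h => congrArg Subtype.val h, fun h => Subtype.ext h⟩
  rw [← h2]
  have : Finite (Γ ⧸ (σ.rangeRestrict.comp f).ker) := Finite.of_equiv _
    (QuotientGroup.quotientKerEquivRange (σ.rangeRestrict.comp f)).toEquiv.symm
  exact Subgroup.finiteIndex_of_finite_quotient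

namespace SS

variable {T Y : Type} [Group T] (S : SS T Y)

/-- finiteness from finiteness of the sections, arbitrary alphabets -/
theorem finite_of_sec' (hf : S.Faithful) (hfin : ∀ g, (Set.range (S.sec g)).Finite) {Γ : Type}
    [Group Γ] (h : Γ →* T) (K : Subgroup Γ) [K.FiniteIndex] (hKfg : Group.FG K)
    (hK : ∀ γ ∈ K, S.σ (h γ) = 1)
    (hs : ∀ y, {t | ∃ γ ∈ K, t = S.sec (h γ) y}.Finite) : Finite h.range := by
  apply finite_range_of h K
  obtain ⟨A, hA, hAf⟩ := (Group.fg_iff (G := K)).1 hKfg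
  have hAfin : Finite A := hAf
  -- the homomorphisms
  let s : Y → K →* T := fun y =>
    { toFun := fun γ => S.sec (h γ) y
      map_one' := by
        change S.sec (h 1) y = 1
        rw [map_one, S.sec_one]
      map_mul' := by
        intro a b
        change S.sec (h (a.1 * b.1)) y = _
        rw [map_mul, S.sec_mul, hK b.1 b.2]
        rfl }
  have hsA : ∀ y z, (∀ a : A, s y a = s z a) → s y = s z := by
    intro y z hyz
    refine MonoidHom.eq_of_eqOn_dense hA ?_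
    intro a ha
    exact hyz ⟨a, ha⟩
  have hval : (Set.range (fun y => fun a : A => s y a)).Finite := by
    have h1 : (Set.pi Set.univ (fun a : A => Set.range (S.sec (h (a : K))))).Finite :=
      Set.Finite.pi' (fun a => hfin _) |>.subset (fun f hf a => hf a trivial)
    refine h1.subset ?_
    rintro _ ⟨y, rfl⟩ a _
    exact ⟨y, rfl⟩
  -- representatives
  have hrep : ∃ Z : Set Y, Z.Finite ∧ ∀ y, ∃ z ∈ Z, s y = s z := by
    choose r hr using fun v : Set.range (fun y => fun a : A => s y a) => v.2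
    have : Finite (Set.range (fun y => fun a : A => s y a)) := hval
    refine ⟨Set.range r, Set.finite_range r, fun y => ?_⟩
    refine ⟨_, ⟨⟨_, ⟨y, rfl⟩⟩, rfl⟩, ?_⟩
    apply hsA
    intro a
    exact (congrFun (hr ⟨_, ⟨y, rfl⟩⟩) a).symm
  obtain ⟨Z, hZ, hZr⟩ := hrep
  have hZf : Finite Z := hZ
  have h1 : (Set.pi Set.univ (fun z : Z => {t | ∃ γ ∈ K, t = S.sec (h γ) z})).Finite :=
    Set.Finite.pi' (fun z : Z => hs z) |>.subset (fun f hf y => hf y trivial)
  refine Set.Finite.of_finite_image (f := fun t => fun z : Z => S.sec t z) (h1.subset ?_) ?_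
  · rintro _ ⟨_, ⟨γ, hγ, rfl⟩, rfl⟩ z _
    exact ⟨γ, hγ, rfl⟩
  · rintro _ ⟨γ, hγ, rfl⟩ _ ⟨γ', hγ', rfl⟩ h2
    refine S.ext_of_sec hf (hK γ hγ) (hK γ' hγ') (fun y => ?_)
    obtain ⟨z, hz, hyz⟩ := hZr y
    have e1 : S.sec (h γ) y = S.sec (h γ) z := DFunLike.congr_fun hyz ⟨γ, hγ⟩
    have e2 : S.sec (h γ') y = S.sec (h γ') z := DFunLike.congr_fun hyz ⟨γ', hγ'⟩
    rw [e1, e2]
    exact congrFun h2 ⟨z, hz⟩

section quot

variable {L : Type} [Group L] (SL : SS L Y) (π : L →* T) (hσ : ∀ x, SL.σ x = S.σ (π x))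
  (hsec : ∀ x y, π (SL.sec x y) = S.sec (π x) y)

include hσ hsec in
/-- from `L` to its quotients, arbitrary alphabets -/
theorem quot_finite' (hf : S.Faithful) (hP : FPB S.σ.range)
    (hfin : ∀ g, (Set.range (S.sec g)).Finite)
    (hle : ∀ n, SL.Kn n ≤ π.ker)
    (h0 : ∀ (Γ : Type) [Group Γ], IsFinitelyPresented Γ → (∀ x : Γ, IsOfFinOrder x) →
      ∀ ψ : Γ →* L, Finite (π.comp ψ).range) (m : ℕ) :
    ∀ (Γ : Type) [Group Γ], IsFinitelyPresented Γ → (∀ x : Γ, IsOfFinOrder x) →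
      ∀ ψ : Γ →* L ⧸ SL.Kn m, Finite ((QuotientGroup.lift (SL.Kn m) π (hle m)).comp ψ).range := by
  induction m with
  | zero =>
    intro Γ _ hΓ ht ψ
    have h1 := h0 Γ hΓ ht ((QuotientGroup.quotientBot (G := L)).toMonoidHom.comp ψ)
    have h2 : (QuotientGroup.lift (SL.Kn 0) π (hle 0)).comp ψ =
        π.comp ((QuotientGroup.quotientBot (G := L)).toMonoidHom.comp ψ) := by
      ext γ
      change QuotientGroup.lift (SL.Kn 0) π (hle 0) (ψ γ) =
        π (QuotientGroup.quotientBot (G := L) (ψ γ))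
      obtain ⟨x, hx⟩ := QuotientGroup.mk_surjective (ψ γ)
      rw [← hx]
      rfl
    rw [h2]
    exact h1
  | succ m ih =>
    intro Γ _ hΓ ht ψ
    set p := QuotientGroup.lift (SL.Kn (m + 1)) π (hle (m + 1)) with hp
    set p' := QuotientGroup.lift (SL.Kn m) π (hle m) with hp'
    let K : Subgroup Γ := (S.σ.comp (p.comp ψ)).ker
    have hK : K.FiniteIndex := ker_finiteIndex S.σ hP hΓ ht (p.comp ψ)
    have hKfp : IsFinitelyPresented K := fp_of_finiteIndex Γ K
    have hKfg : Group.FG K := by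
      obtain ⟨n, ψ, hψ, -⟩ := id hKfp
      exact Group.fg_of_surjective hψ
    have hKt : ∀ x : K, IsOfFinOrder x := fun x =>
      (Submonoid.isOfFinOrder_coe (H := K.toSubmonoid) (x := x)).1 (ht x.1)
    have hKσ : ∀ γ ∈ K, S.σ (p (ψ γ)) = 1 := fun γ hγ => hγ
    have hpσ : ∀ x : L, p (QuotientGroup.mk x) = π x := fun _ => rfl
    refine S.finite_of_sec' hf hfin (p.comp ψ) K hKfg hKσ (fun y => ?_)
    let s : K →* L ⧸ SL.Kn m :=
      { toFun := fun γ => SL.secq m y (ψ γ)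
        map_one' := by
          change SL.secq m y (ψ 1) = 1
          rw [map_one]
          change (QuotientGroup.mk (SL.sec 1 y) : L ⧸ SL.Kn m) = 1
          rw [SL.sec_one]
          rfl
        map_mul' := by
          intro a b
          change SL.secq m y (ψ (a.1 * b.1)) = _
          rw [map_mul]
          obtain ⟨u, hu⟩ := QuotientGroup.mk_surjective (ψ a.1)
          obtain ⟨v, hv⟩ := QuotientGroup.mk_surjective (ψ b.1)
          have h1 : SL.σ v = 1 := by
            have := hKσ b.1 b.2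
            rw [← hv, hpσ] at this
            rw [hσ]
            exact this
          rw [← hu, ← hv]
          change (QuotientGroup.mk (SL.sec (u * v) y) : L ⧸ SL.Kn m) =
            QuotientGroup.mk (SL.sec u y) * QuotientGroup.mk (SL.sec v y)
          rw [SL.sec_mul, h1]
          rfl }
    have h1 := ih K hKfp hKt s
    refine (Set.toFinite ((p'.comp s).range : Set T)).subset ?_
    rintro _ ⟨γ, hγ, rfl⟩
    refine ⟨⟨γ, hγ⟩, ?_⟩
    change p' (SL.secq m y (ψ γ)) = S.sec (p (ψ γ)) y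
    obtain ⟨u, hu⟩ := QuotientGroup.mk_surjective (ψ γ)
    rw [← hu]
    exact hsec u y

end quot

/-! ### deep sections in the group with the relations of length three -/

section LCfin

variable (N : Set T) (h1 : (1 : T) ∈ N) (hN : ∀ a ∈ N, ∀ y, S.sec a y ∈ N)

theorem SC_fin (hfin : ∀ g, (Set.range (S.sec g)).Finite) (x : LC N) :
    (Set.range ((S.SC N hN).sec x)).Finite := by
  refine LC_induction N (P := fun x => (Set.range ((S.SC N hN).sec x)).Finite) ?_ ?_ ?_ ?_ x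
  · refine (Set.finite_singleton (1 : LC N)).subset ?_
    rintro _ ⟨y, rfl⟩
    exact (S.SC N hN).sec_one y
  · intro a
    have h2 : (Set.range (fun y => (⟨S.sec a y, hN a a.2 y⟩ : N))).Finite := by
      refine Set.Finite.of_finite_image (f := Subtype.val) ((hfin a).subset ?_)
        Subtype.val_injective.injOn
      rintro _ ⟨_, ⟨y, rfl⟩, rfl⟩
      exact ⟨y, rfl⟩
    refine (h2.image gen).subset ?_
    rintro _ ⟨y, rfl⟩
    rw [S.SC_sec_gen N hN]
    exact ⟨_, ⟨y, rfl⟩, rfl⟩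
  · intro x hx
    refine (hx.image (fun t => t⁻¹)).subset ?_
    rintro _ ⟨y, rfl⟩
    rw [(S.SC N hN).sec_inv]
    exact ⟨_, ⟨_, rfl⟩, rfl⟩
  · intro x z hx hz
    refine (hx.mul hz).subset ?_
    rintro _ ⟨y, rfl⟩
    rw [(S.SC N hN).sec_mul]
    exact Set.mul_mem_mul ⟨_, rfl⟩ ⟨_, rfl⟩

theorem EC_of_sec' (hfin : ∀ g, (Set.range (S.sec g)).Finite) (g : LC N)
    (h : ∀ y, ∃ n, S.EC N hN n ((S.SC N hN).sec g y)) : ∃ n, S.EC N hN n g := by
  have hF : Finite (Set.range ((S.SC N hN).sec g)) := S.SC_fin N hN hfin g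
  have h' : ∀ t : Set.range ((S.SC N hN).sec g), ∃ n, S.EC N hN n t := by
    rintro ⟨_, ⟨y, rfl⟩⟩
    exact h y
  choose n hn using h'
  obtain ⟨m, hm⟩ := Finite.exists_le n
  exact ⟨m + 1, fun y => (S.SC N hN).deep_mono (S.gen_sec_mem N hN) (hm ⟨_, ⟨y, rfl⟩⟩) _
    (hn ⟨_, ⟨y, rfl⟩⟩)⟩

theorem EC_mul' (hfin : ∀ g, (Set.range (S.sec g)).Finite) (hc : ∀ g, ∃ n, S.deep N n g) (n : ℕ)
    {x z : LC N} (hx : S.EC N hN n x) (hz : S.EC N hN n z) : ∃ m, S.EC N hN m (x * z) := by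
  induction n generalizing x z with
  | zero =>
    obtain ⟨a, rfl⟩ := hx
    obtain ⟨b, rfl⟩ := hz
    obtain ⟨m, hm⟩ := hc ((a : T) * b)
    exact ⟨m, S.EC_mul0 N hN m a b hm⟩
  | succ n ih =>
    apply S.EC_of_sec' N hN hfin
    intro y
    rw [(S.SC N hN).sec_mul]
    exact ih (hx _) (hz _)

include h1 in
theorem EC_inv' (hfin : ∀ g, (Set.range (S.sec g)).Finite) (hc : ∀ g, ∃ n, S.deep N n g) (n : ℕ)
    {x : LC N} (hx : S.EC N hN n x) : ∃ m, S.EC N hN m x⁻¹ := by
  induction n generalizing x with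
  | zero =>
    obtain ⟨a, rfl⟩ := hx
    obtain ⟨m, hm⟩ := hc (a : T)⁻¹
    exact ⟨m, S.EC_inv0 N h1 hN m a hm⟩
  | succ n ih =>
    apply S.EC_of_sec' N hN hfin
    intro y
    rw [(S.SC N hN).sec_inv]
    exact ih (hx _)

include h1 in
theorem EC_all' (hfin : ∀ g, (Set.range (S.sec g)).Finite) (hc : ∀ g, ∃ n, S.deep N n g)
    (x : LC N) : ∃ n, S.EC N hN n x := by
  refine LC_induction N (P := fun x => ∃ n, S.EC N hN n x) ?_ ?_ ?_ ?_ x
  · exact ⟨0, ⟨⟨1, h1⟩, gen_one N h1⟩⟩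
  · exact fun a => ⟨0, ⟨a, rfl⟩⟩
  · rintro x ⟨n, hn⟩
    exact S.EC_inv' N h1 hN hfin hc n hn
  · rintro x z ⟨n, hn⟩ ⟨m, hm⟩
    exact S.EC_mul' N hN hfin hc (max n m)
      ((S.SC N hN).deep_mono (S.gen_sec_mem N hN) (le_max_left _ _) _ hn)
      ((S.SC N hN).deep_mono (S.gen_sec_mem N hN) (le_max_right _ _) _ hm)

theorem fpb_upn' (hf : S.Faithful) (hP : FPB S.σ.range)
    (hfin : ∀ g, (Set.range (S.sec g)).Finite) (H : Subgroup T) (hH : FPB H) (n : ℕ) :
    FPB (S.upn H n) := by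
  induction n with
  | zero => exact hH
  | succ n ih =>
    refine fpb_cocycle ih (S.σ.comp (S.upn H (n + 1)).subtype)
      (fun g y => ⟨S.sec g.1 y, g.2 y⟩) ?_ ?_ ?_ ?_
    · intro g h y
      exact Subtype.ext (S.sec_mul g.1 h.1 y)
    · intro g
      refine Set.Finite.of_finite_image (f := Subtype.val) ((hfin g.1).subset ?_)
        Subtype.val_injective.injOn
      rintro _ ⟨_, ⟨y, rfl⟩, rfl⟩
      exact ⟨y, rfl⟩
    · intro g h2 h3
      apply Subtype.ext
      refine S.ext_of_sec hf h2 (map_one _) (fun y => ?_)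
      change S.sec g.1 y = S.sec (1 : T) y
      rw [S.sec_one]
      exact congrArg Subtype.val (h3 y)
    · refine fpb_mono ?_ hP
      rintro _ ⟨g, rfl⟩
      exact ⟨g.1, rfl⟩

include h1 hN in
/-- from the group with the relations of length three to the group, arbitrary alphabets -/
theorem fpb_of_base' (hf : S.Faithful) (hP : FPB S.σ.range)
    (hfin : ∀ g, (Set.range (S.sec g)).Finite) (hc : ∀ g, ∃ n, S.deep N n g)
    (hbase : ∀ (Γ : Type) [Group Γ], IsFinitelyPresented Γ → (∀ x : Γ, IsOfFinOrder x) →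
      ∀ f : Γ →* LC N, Finite ((πC N).comp f).range) : FPB T := by
  have hσ : ∀ x, (S.SC N hN).σ x = S.σ (πC N x) := S.SC_σ N hN
  have hker : ∀ x, πC N x = 1 ↔ ∃ n, x ∈ (S.SC N hN).Kn n := by
    intro x
    constructor
    · intro hx
      obtain ⟨n, hn⟩ := S.EC_all' N h1 hN hfin hc x
      exact ⟨n, S.EC_Kn N h1 hN n x hn hx⟩
    · rintro ⟨n, hn⟩
      exact S.πC_of_mem_Kn N hN hf n x hn
  have hle : ∀ n, (S.SC N hN).Kn n ≤ (πC N).ker := fun n x hx => (hker x).2 ⟨n, hx⟩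
  have hker' : ∀ x, (πC N).rangeRestrict x = 1 ↔ πC N x = 1 := fun x =>
    ⟨fun h => congrArg Subtype.val h, fun h => Subtype.ext h⟩
  have hR : FPB (πC N).range := by
    refine fpb_iUnion_ker' (πC N).rangeRestrict (πC N).rangeRestrict_surjective (S.SC N hN).Kn
      (S.SC N hN).Kn_le_succ (fun x => (hker' x).trans (hker x))
      (fun n x hx => (hker' x).2 (hle n hx)) ?_
    intro n Γ _ hΓ ht ψ
    have h2 := S.quot_finite' (S.SC N hN) (πC N) hσ (S.SC_sec N hN) hf hP hfin hle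
      (fun Γ _ hΓ ht ψ => hbase Γ hΓ ht ψ) n Γ hΓ ht ψ
    have h3 : ((((QuotientGroup.lift ((S.SC N hN).Kn n) (πC N) (hle n)).comp ψ).range :
      Subgroup T) : Set T).Finite := Set.toFinite _
    have h4 : (Subtype.val '' ((((QuotientGroup.lift ((S.SC N hN).Kn n) (πC N).rangeRestrict
        (fun x hx => (hker' x).2 (hle n hx))).comp ψ).range :
          Subgroup (πC N).range) : Set (πC N).range)).Finite := by
      refine h3.subset ?_
      rintro _ ⟨_, ⟨γ, rfl⟩, rfl⟩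
      refine ⟨γ, ?_⟩
      change QuotientGroup.lift ((S.SC N hN).Kn n) (πC N) (hle n) (ψ γ) =
        ((QuotientGroup.lift ((S.SC N hN).Kn n) (πC N).rangeRestrict
          (fun x hx => (hker' x).2 (hle n hx)) (ψ γ) : (πC N).range) : T)
      obtain ⟨u, hu⟩ := QuotientGroup.mk_surjective (ψ γ)
      rw [← hu]
      rfl
    exact (h4.of_finite_image Subtype.val_injective.injOn).to_subtype
  have hcl : ∀ h ∈ (πC N).range, ∀ y, S.sec h y ∈ (πC N).range := by
    rintro _ ⟨g, rfl⟩ y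
    rw [← S.SC_sec N hN]
    exact ⟨_, rfl⟩
  have hNr : N ⊆ (πC N).range := fun a ha => ⟨gen ⟨a, ha⟩, πC_gen N _⟩
  apply fpb_of_local
  intro A hA
  have hAf : Finite A := hA
  choose n hn using hc
  obtain ⟨m, hm⟩ := Finite.exists_le (fun a : A => n a)
  refine fpb_mono ?_ (S.fpb_upn' hf hP hfin (πC N).range hR m)
  rw [Subgroup.closure_le]
  intro a ha
  exact S.upn_mono hcl (hm ⟨a, ha⟩) (S.mem_upn N _ hNr _ _ (hn a))

/-- from the sections to the group, arbitrary alphabets -/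
theorem base_of_good' (hf : S.Faithful) (hP : FPB S.σ.range)
    (hfin : ∀ g, (Set.range (S.sec g)).Finite)
    (hgood : ∀ (y0 : Y) (K : Type) [Group K], IsFinitelyPresented K →
      (∀ x : K, IsOfFinOrder x) → ∀ f : K →* LC N, (∀ γ, S.σ (πC N (f γ)) = 1) →
      {t | ∃ γ, t = S.sec (πC N (f γ)) y0}.Finite)
    (Γ : Type) [Group Γ] (hΓ : IsFinitelyPresented Γ) (ht : ∀ x : Γ, IsOfFinOrder x)
    (f : Γ →* LC N) : Finite ((πC N).comp f).range := by
  let K : Subgroup Γ := (S.σ.comp ((πC N).comp f)).ker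
  have hK : K.FiniteIndex := ker_finiteIndex S.σ hP hΓ ht ((πC N).comp f)
  have hKfp : IsFinitelyPresented K := fp_of_finiteIndex Γ K
  have hKfg : Group.FG K := by
    obtain ⟨n, ψ, hψ, -⟩ := id hKfp
    exact Group.fg_of_surjective hψ
  have hKt : ∀ x : K, IsOfFinOrder x := fun x =>
    (Submonoid.isOfFinOrder_coe (H := K.toSubmonoid) (x := x)).1 (ht x.1)
  have hKσ : ∀ γ ∈ K, S.σ (πC N (f γ)) = 1 := fun γ hγ => hγ
  refine S.finite_of_sec' hf hfin ((πC N).comp f) K hKfg hKσ (fun y0 => ?_)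
  refine (hgood y0 K hKfp hKt (f.comp K.subtype) (fun γ => hKσ γ.1 γ.2)).subset ?_
  rintro _ ⟨γ, hγ, rfl⟩
  exact ⟨⟨γ, hγ⟩, rfl⟩

include h1 hN in
/-- **The relative colouring theorem for partitions, arbitrary alphabets.** -/
theorem relPartitionsInf (hf : S.Faithful) (hσ : FPB S.σ.range)
    (hfin : ∀ g, (Set.range (S.sec g)).Finite) (hc : ∀ g, ∃ n, S.deep N n g)
    (hP : ∀ y : Y, ∃ R : Set (Setoid (Equiv.Perm Y)), R.Finite ∧ (∀ r ∈ R, S.TriP N r) ∧
      ∀ g : Setoid (Equiv.Perm Y) → T, FPB (Subgroup.closure {t : T | ∃ x : T, S.σ x = 1 ∧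
        (∀ r ∈ R, x ∈ S.loopP N r (g r)) ∧ t = S.sec x y})) :
    FPB T := by
  refine S.fpb_of_base' N h1 hN hf hσ hfin hc
    (fun Γ _ hΓ ht f => S.base_of_good' N hf hσ hfin ?_ Γ hΓ ht f)
  intro y0 K _ hKfp hKt f hKσ
  obtain ⟨R, hRf, hRt, hRP⟩ := hP y0
  have hRfin : Finite R := hRf
  choose E hE g hg using fun r : R => S.mem_loopP N hKfp hKt f hKσ r.1 (hRt r.1 r.2)
  let g' : Setoid (Equiv.Perm Y) → T := fun r => by
    classical exact if h : r ∈ R then g ⟨r, h⟩ else 1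
  have hg' : ∀ r (hr : r ∈ R), g' r = g ⟨r, hr⟩ := fun r hr => dif_pos hr
  have hEi : (⨅ r, E r : Subgroup K).FiniteIndex := Subgroup.finiteIndex_iInf hE
  let s : K →* T :=
    { toFun := fun γ => S.sec (πC N (f γ)) y0
      map_one' := by rw [map_one, map_one, S.sec_one]
      map_mul' := by
        intro a b
        rw [map_mul, map_mul, S.sec_mul, hKσ b]
        rfl }
  have hmem : ∀ γ : (⨅ r, E r : Subgroup K), s γ ∈ Subgroup.closure
      {t : T | ∃ x : T, S.σ x = 1 ∧ (∀ r ∈ R, x ∈ S.loopP N r (g' r)) ∧ t = S.sec x y0} := by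
    intro γ
    apply Subgroup.subset_closure
    refine ⟨πC N (f γ), hKσ γ, fun r hr => ?_, rfl⟩
    rw [hg' r hr]
    exact hg ⟨r, hr⟩ γ (Subgroup.mem_iInf.1 γ.2 ⟨r, hr⟩)
  have hfp : IsFinitelyPresented (⨅ r, E r : Subgroup K) := fp_of_finiteIndex K _
  have hEt : ∀ x : (⨅ r, E r : Subgroup K), IsOfFinOrder x := fun x =>
    (Submonoid.isOfFinOrder_coe (H := (⨅ r, E r : Subgroup K).toSubmonoid) (x := x)).1 (hKt x.1)
  have hfinr := hRP g' _ hfp hEt
    ((s.comp (⨅ r, E r : Subgroup K).subtype).codRestrict _ hmem)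
  have hfin2 : (Subtype.val '' (((s.comp (⨅ r, E r : Subgroup K).subtype).codRestrict _
      hmem).range : Set (Subgroup.closure {t : T | ∃ x : T, S.σ x = 1 ∧
        (∀ r ∈ R, x ∈ S.loopP N r (g' r)) ∧ t = S.sec x y0}))).Finite :=
    (Set.toFinite _).image _
  have hsE : (s '' ((⨅ r, E r : Subgroup K) : Set K)).Finite := by
    refine hfin2.subset ?_
    rintro _ ⟨γ, hγ, rfl⟩
    exact ⟨_, ⟨⟨γ, hγ⟩, rfl⟩, rfl⟩
  have hsr : Finite s.range := finite_range_of s _ hsE
  refine (Set.toFinite (s.range : Set T)).subset ?_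
  rintro _ ⟨γ, rfl⟩
  exact ⟨γ, rfl⟩

end LCfin

end SS

end Vale.Agent.P192
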