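import Mathlib

/-!
# P192: Röver–Nekrashevych groups: definitions and prefix replacements
-/

namespace Vale.Agent.P192.Rover

open Stream'

variable {X : Type*}

/-- `K` is self-similar: `k (x ξ) = y (k' ξ)` with `k' ∈ K`. -/
def SelfSim (K : Subgroup (Equiv.Perm (Stream' X))) : Prop :=
  ∀ k ∈ K, ∀ x : X, ∃ y : X, ∃ k' ∈ K, ∀ ξ, k ([x] ++ₛ ξ) = [y] ++ₛ k' ξ

/-- `g` maps `v ξ` to `w (k ξ)` for some `k ∈ K`. -/
def PR (K : Subgroup (Equiv.Perm (Stream' X))) (g : Equiv.Perm (Stream' X)) (v w : List X) : Prop :=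
  ∃ k ∈ K, ∀ ξ, g (v ++ₛ ξ) = w ++ₛ k ξ

section basic

variable {K : Subgroup (Equiv.Perm (Stream' X))} {g g' : Equiv.Perm (Stream' X)}
  {v w w' : List X}

theorem PR.one (K : Subgroup (Equiv.Perm (Stream' X))) (v : List X) : PR K 1 v v :=
  ⟨1, one_mem _, fun _ => rfl⟩

theorem PR.mul (h : PR K g v w) (h' : PR K g' w w') : PR K (g' * g) v w' := by
  obtain ⟨k, hk, hk'⟩ := h
  obtain ⟨l, hl, hl'⟩ := h'
  refine ⟨l * k, mul_mem hl hk, fun ξ => ?_⟩
  rw [Equiv.Perm.mul_apply, hk', hl']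
  rfl

theorem PR.inv (h : PR K g v w) : PR K g⁻¹ w v := by
  obtain ⟨k, hk, hk'⟩ := h
  refine ⟨k⁻¹, inv_mem hk, fun ξ => ?_⟩
  rw [Equiv.Perm.inv_eq_iff_eq, hk']
  simp

theorem PR.ext (hK : SelfSim K) (h : PR K g v w) (u : List X) :
    ∃ u', u'.length = u.length ∧ PR K g (v ++ u) (w ++ u') := by
  induction u generalizing v w with
  | nil => exact ⟨[], rfl, by simpa using h⟩
  | cons x u ih =>
    obtain ⟨k, hk, hk'⟩ := h
    obtain ⟨y, k₁, hk₁, h₁⟩ := hK k hk x
    have h2 : PR K g (v ++ [x]) (w ++ [y]) := by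
      refine ⟨k₁, hk₁, fun ξ => ?_⟩
      rw [append_append_stream, hk', h₁, append_append_stream]
    obtain ⟨u', hu', h3⟩ := ih h2
    refine ⟨y :: u', by simp [hu'], ?_⟩
    simpa using h3

theorem PR.ext_of_prefix (hK : SelfSim K) {n : ℕ} (h : ∀ v : List X, v.length = n → ∃ w, PR K g v w)
    {v : List X} (hv : n ≤ v.length) : ∃ w, PR K g v w := by
  obtain ⟨w, hw⟩ := h (v.take n) (by simp [hv])
  obtain ⟨u', -, h2⟩ := hw.ext hK (v.drop n)
  rw [List.take_append_drop] at h2
  exact ⟨_, h2⟩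

theorem prefix_of_eq {a b : List X} {ξ η : Stream' X} (h : a ++ₛ ξ = b ++ₛ η)
    (hl : a.length ≤ b.length) : a <+: b := by
  have h1 : (a ++ₛ ξ).take a.length = a := by
    have := append_take (x := a) (a := ξ) (n := 0)
    simpa using this.symm
  have h2 : (b ++ₛ η).take a.length = b.take a.length := by
    apply take_append_of_le_length
    exact hl
  rw [← h1, h, h2]
  exact List.take_prefix _ _

theorem cyl_prefix [Nontrivial X] (h : ∀ η : Stream' X, ∃ ζ, w ++ₛ η = w' ++ₛ ζ) : w' <+: w := by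
  obtain ⟨x₀, y₀, hxy⟩ := exists_pair_ne X
  rcases le_total w'.length w.length with hl | hl
  · obtain ⟨ζ, hζ⟩ := h (Stream'.const x₀)
    exact prefix_of_eq hζ.symm hl
  · obtain ⟨ζ, hζ⟩ := h (Stream'.const x₀)
    obtain ⟨r, rfl⟩ := prefix_of_eq hζ hl
    cases r with
    | nil => simp
    | cons x r =>
      exfalso
      have key : ∀ η : Stream' X, η.head = x := by
        intro η
        obtain ⟨ζ, hζ⟩ := h η
        rw [append_append_stream, append_right_inj] at hζ
        rw [hζ, cons_append_stream, head_cons]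
      have h1 := key (Stream'.const x₀)
      have h2 := key (Stream'.const y₀)
      exact hxy (h1.trans h2.symm)

theorem PR.uniq [Nontrivial X] (h : PR K g v w) (h' : PR K g v w') : w = w' := by
  obtain ⟨k, hk, hk'⟩ := h
  obtain ⟨l, hl, hl'⟩ := h'
  have h1 : w' <+: w := by
    apply cyl_prefix
    intro η
    refine ⟨l (k⁻¹ η), ?_⟩
    rw [← hl', hk']
    simp
  have h2 : w <+: w' := by
    apply cyl_prefix
    intro η
    refine ⟨k (l⁻¹ η), ?_⟩
    rw [← hk', hl']
    simp
  exact h2.eq_of_length (le_antisymm h2.length_le h1.length_le)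

theorem PR.pow [Nontrivial X] (hK : SelfSim K) {u : List X} (h : PR K g v (v ++ u)) (m : ℕ) :
    ∃ r, r.length = m * u.length ∧ PR K (g ^ m) v (v ++ r) := by
  induction m with
  | zero => exact ⟨[], by simp, by simpa using PR.one K v⟩
  | succ m ih =>
    obtain ⟨r, hr, hr'⟩ := ih
    obtain ⟨r', hr1, hr2⟩ := h.ext hK r
    refine ⟨u ++ r', ?_, ?_⟩
    · rw [List.length_append, hr1, hr]
      ring
    · rw [pow_succ', ← List.append_assoc]
      exact hr'.mul hr2

/-- attracting cylinders give infinite order -/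
theorem PR.not_finite [Nontrivial X] (hK : SelfSim K) {u : List X} (hu : u ≠ [])
    (h : PR K g v (v ++ u)) : ¬ IsOfFinOrder g := by
  intro hg
  obtain ⟨m, hm, hgm⟩ := isOfFinOrder_iff_pow_eq_one.1 hg
  obtain ⟨r, hr, hr'⟩ := h.pow hK m
  rw [hgm] at hr'
  have h1 := (PR.one K v).uniq hr'
  have h2 : r = [] := by
    have : v ++ [] = v ++ r := by rw [List.append_nil]; exact h1
    exact (List.append_cancel_left this).symm
  rw [h2] at hr
  have h3 : u.length = 0 := by
    rcases Nat.eq_zero_or_pos u.length with h4 | h4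
    · exact h4
    · have : 0 < m * u.length := Nat.mul_pos hm h4
      rw [List.length_nil] at hr
      omega
  exact hu (List.length_eq_zero_iff.1 h3)

end basic

/-- **The Röver–Nekrashevych group** `V(K)`: the bijections of the space of sequences which, for
some `n`, on every cylinder `v X^ω` with `v` of length `n` have the form `v ξ ↦ w (k ξ)`, for some
word `w` and some `k ∈ K`. -/
def RN [Finite X] (K : Subgroup (Equiv.Perm (Stream' X))) (hK : SelfSim K) :
    Subgroup (Equiv.Perm (Stream' X)) where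
  carrier := {g | ∃ n, ∀ v : List X, v.length = n → ∃ w, PR K g v w}
  one_mem' := ⟨0, fun v _ => ⟨v, PR.one K v⟩⟩
  mul_mem' := by
    rintro g' g ⟨n', hn'⟩ ⟨n, hn⟩
    refine ⟨n + n', fun v hv => ?_⟩
    obtain ⟨w, hw⟩ := hn (v.take n) (by simp; omega)
    obtain ⟨u', hu', h2⟩ := hw.ext hK (v.drop n)
    rw [List.take_append_drop] at h2
    obtain ⟨w', hw'⟩ := PR.ext_of_prefix hK hn' (v := w ++ u') (by
      rw [List.length_append, hu', List.length_drop]
      omega)
    exact ⟨w', h2.mul hw'⟩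
  inv_mem' := by
    rintro g ⟨n, hn⟩
    have hfin : Finite {v : List X // v.length = n} := inferInstanceAs (Finite (List.Vector X n))
    choose w hw using fun v : {v : List X // v.length = n} => hn v.1 v.2
    obtain ⟨N, hN⟩ := Finite.exists_le (fun v => (w v).length)
    refine ⟨N, fun u hu => ?_⟩
    rcases isEmpty_or_nonempty (Stream' X) with he | ⟨⟨ξ₀⟩⟩
    · exact ⟨u, 1, one_mem _, fun ξ => (he.false ξ).elim⟩
    · set η := g⁻¹ (u ++ₛ ξ₀) with hη
      have h1 : (η.take n) ++ₛ (η.drop n) = η := append_take_drop n η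
      have hv : (η.take n).length = n := length_take n η
      obtain ⟨k, hk, hk'⟩ := hw ⟨η.take n, hv⟩
      have h2 : u ++ₛ ξ₀ = w ⟨η.take n, hv⟩ ++ₛ k (η.drop n) := by
        rw [← hk', h1, hη]
        simp
      obtain ⟨r, hr⟩ := prefix_of_eq h2.symm (by rw [hu]; exact hN _)
      obtain ⟨r', -, h3⟩ := (hw ⟨η.take n, hv⟩).inv.ext hK r
      rw [hr] at h3
      exact ⟨_, h3⟩

end Vale.Agent.P192.Rover
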