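import Vale.Agent.P192.H260.Rover1

/-!
# P192: Röver–Nekrashevych groups: periodic subgroups have bounded expansion
-/

namespace Vale.Agent.P192.Rover

open Stream'

variable {X : Type*} [Finite X] [Nontrivial X] {K : Subgroup (Equiv.Perm (Stream' X))}
  (hK : SelfSim K)

omit [Nontrivial X] in
include hK in
/-- uniform bounds for one element -/
theorem exists_bound {g : Equiv.Perm (Stream' X)} (hg : g ∈ RN K hK) :
    ∃ n C : ℕ, ∀ v : List X, n ≤ v.length → ∃ w, PR K g v w ∧ w.length ≤ v.length + C ∧
      v.length ≤ w.length + C := by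
  obtain ⟨n, hn⟩ := hg
  have hfin : Finite {v : List X // v.length = n} := inferInstanceAs (Finite (List.Vector X n))
  choose w hw using fun v : {v : List X // v.length = n} => hn v.1 v.2
  obtain ⟨N, hN⟩ := Finite.exists_le (fun v => (w v).length)
  refine ⟨n, N + n, fun v hv => ?_⟩
  have hl : (v.take n).length = n := by simp [hv]
  obtain ⟨u', hu', h2⟩ := (hw ⟨v.take n, hl⟩).ext hK (v.drop n)
  have h0 : (⟨v.take n, hl⟩ : {v : List X // v.length = n}).1 ++ v.drop n = v :=
    List.take_append_drop _ _
  rw [h0] at h2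
  have h3 := hN ⟨v.take n, hl⟩
  refine ⟨_, h2, ?_, ?_⟩
  · rw [List.length_append, hu', List.length_drop]
    omega
  · rw [List.length_append, hu', List.length_drop]
    omega

/-- a path of words of length at least `D` -/
structure IsPath (K : Subgroup (Equiv.Perm (Stream' X))) (S : Set (Equiv.Perm (Stream' X)))
    (D n : ℕ) (v : ℕ → List X) : Prop where
  deep : ∀ i ≤ n, D ≤ (v i).length
  step : ∀ i < n, ∃ s ∈ S, PR K s (v i) (v (i + 1))

variable {S : Set (Equiv.Perm (Stream' X))} {D C : ℕ}

/-- uniform bounds for the generators -/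
def Bd (K : Subgroup (Equiv.Perm (Stream' X))) (S : Set (Equiv.Perm (Stream' X))) (D C : ℕ) :
    Prop :=
  ∀ s ∈ S, ∀ v : List X, D ≤ v.length → ∃ w, PR K s v w ∧ w.length ≤ v.length + C ∧
      v.length ≤ w.length + C

include hK

omit hK [Finite X] in
theorem IsPath.bd (hB : Bd K S D C) {n : ℕ} {v : ℕ → List X} (hp : IsPath K S D n v) {i : ℕ}
    (hi : i < n) : (v (i + 1)).length ≤ (v i).length + C ∧
      (v i).length ≤ (v (i + 1)).length + C := by
  obtain ⟨s, hs, h1⟩ := hp.step i hi
  obtain ⟨w, hw, h2, h3⟩ := hB s hs (v i) (hp.deep i hi.le)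
  rw [hw.uniq h1] at h2 h3
  exact ⟨h2, h3⟩

omit [Finite X] in
/-- moving a prefix along a path which stays above its starting length -/
theorem IsPath.lift (hB : Bd K S D C) {n : ℕ} {v : ℕ → List X} (hp : IsPath K S D n v) {i : ℕ}
    (m : ℕ) (hm : i + m ≤ n) (hmin : ∀ l, i ≤ l → l ≤ i + m → (v i).length ≤ (v l).length) :
    ∃ γ ∈ Subgroup.closure S, ∃ q u, v (i + m) = q ++ u ∧ u.length + D = (v i).length ∧
      PR K γ ((v i).take D) q := by
  induction m with
  | zero =>
    refine ⟨1, one_mem _, (v i).take D, (v i).drop D, ?_, ?_, PR.one _ _⟩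
    · rw [List.take_append_drop]; rfl
    · have := hp.deep i (by omega)
      rw [List.length_drop]
      omega
  | succ m ih =>
    obtain ⟨γ, hγ, q, u, h1, h2, h3⟩ := ih (by omega) (fun l hl hl' => hmin l hl (by omega))
    obtain ⟨s, hs, h4⟩ := hp.step (i + m) (by omega)
    have hq : D ≤ q.length := by
      have h5 := hmin (i + m) (by omega) (by omega)
      rw [h1, List.length_append] at h5
      omega
    obtain ⟨w, hw, -, -⟩ := hB s hs q hq
    obtain ⟨u', hu', h6⟩ := hw.ext hK u
    rw [← h1] at h6
    have h7 := h6.uniq h4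
    refine ⟨s * γ, mul_mem (Subgroup.subset_closure hs) hγ, w, u', ?_, ?_, h3.mul hw⟩
    · exact h7.symm
    · rw [hu']; exact h2

/-- **Bounded expansion.** -/
theorem IsPath.bounded (hB : Bd K S D C) (hfin : ∀ γ ∈ Subgroup.closure S, IsOfFinOrder γ) {n : ℕ}
    {v : ℕ → List X} (hp : IsPath K S D n v) :
    (v n).length ≤ (v 0).length + Nat.card {l : List X // l.length = D} * (C + 1) := by
  classical
  by_contra hcon
  push Not at hcon
  set N := Nat.card {l : List X // l.length = D} with hN
  let k : ℕ → ℕ := fun m => (v 0).length + m * (C + 1)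
  let e : ℕ → ℕ := fun m => Nat.findGreatest (fun i => (v i).length ≤ k m) n
  have he1 : ∀ m, (v (e m)).length ≤ k m := by
    intro m
    exact Nat.findGreatest_spec (P := fun i => (v i).length ≤ k m) (Nat.zero_le n)
      (Nat.le_add_right _ _)
  have hen : ∀ m, e m ≤ n := fun m => Nat.findGreatest_le n
  have he2 : ∀ m l, e m < l → l ≤ n → k m < (v l).length := by
    intro m l h1 h2
    have := Nat.findGreatest_is_greatest h1 h2
    simpa using this
  have he3 : ∀ m ≤ N, e m < n := by
    intro m hm
    rcases Nat.lt_or_ge (e m) n with h | h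
    · exact h
    · exfalso
      have h1 : e m = n := le_antisymm (hen m) h
      have h2 := he1 m
      rw [h1] at h2
      have h3 : m * (C + 1) ≤ N * (C + 1) := Nat.mul_le_mul_right _ hm
      simp only [k] at h2
      omega
  have he4 : ∀ m ≤ N, k m < (v (e m)).length + C + 0 + 1 := by
    intro m hm
    have h1 := he2 m (e m + 1) (Nat.lt_succ_self _) (he3 m hm)
    have h2 := (hp.bd hB (he3 m hm)).1
    omega
  have hmono : ∀ m m', m ≤ m' → e m ≤ e m' := by
    intro m m' hmm
    apply Nat.findGreatest_mono_left
    intro i hi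
    have : k m ≤ k m' := by
      simp only [k]
      have := Nat.mul_le_mul_right (C + 1) hmm
      omega
    exact le_trans hi this
  have hD : ∀ m, D ≤ (v (e m)).length := fun m => hp.deep _ (hen m)
  have hfinX : Finite {l : List X // l.length = D} := inferInstanceAs (Finite (List.Vector X D))
  -- pigeonhole
  obtain ⟨a, b, hab, hpre⟩ : ∃ a b : ℕ, a < b ∧ b ≤ N ∧
      (v (e a)).take D = (v (e b)).take D := by
    let F : Fin (N + 1) → {l : List X // l.length = D} := fun m =>
      ⟨(v (e m)).take D, by rw [List.length_take]; have := hD m; omega⟩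
    have hninj : ¬ Function.Injective F := by
      intro hinj
      have h1 := Nat.card_le_card_of_injective F hinj
      rw [Nat.card_eq_fintype_card, Fintype.card_fin] at h1
      omega
    rw [Function.not_injective_iff] at hninj
    obtain ⟨a, b, h1, h2⟩ := hninj
    have h3 : (v (e a)).take D = (v (e b)).take D := congrArg Subtype.val h1
    rcases lt_trichotomy a.1 b.1 with h4 | h4 | h4
    · exact ⟨a, b, h4, by omega, h3⟩
    · exact absurd (Fin.ext h4) h2
    · exact ⟨b, a, h4, by omega, h3.symm⟩
  obtain ⟨hbN, hpre⟩ := hpre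
  have hle : e a ≤ e b := hmono a b hab.le
  obtain ⟨γ, hγ, q, u, h1, h2, h3⟩ := hp.lift hK hB (i := e a) (e b - e a)
    (by have := hen b; omega) (by
      intro l hl hl'
      rcases Nat.eq_or_lt_of_le hl with h | h
      · rw [h]
      · have h4 := he2 a l h (by have := hen b; omega)
        have h5 := he1 a
        omega)
  have h4 : e a + (e b - e a) = e b := by omega
  rw [h4] at h1
  have h5 : (v (e a)).length < (v (e b)).length := by
    have h6 := he4 b hbN
    have h7 := he1 a
    have h8 : k a + (C + 1) ≤ k b := by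
      simp only [k]
      have h9 : (a + 1) * (C + 1) ≤ b * (C + 1) := Nat.mul_le_mul_right _ hab
      have h10 : (a + 1) * (C + 1) = a * (C + 1) + (C + 1) := by ring
      omega
    omega
  have h6 : D < q.length := by
    have : (v (e b)).length = q.length + u.length := by rw [h1, List.length_append]
    omega
  have h7 : (v (e a)).take D = q.take D := by
    rw [hpre, h1, List.take_append_of_le_length h6.le]
  have h8 : q = (v (e a)).take D ++ q.drop D := by rw [h7, List.take_append_drop]
  rw [h8] at h3
  refine PR.not_finite hK ?_ h3 (hfin γ hγ)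
  intro h9
  have : (q.drop D).length = 0 := by rw [h9]; rfl
  rw [List.length_drop] at this
  omega

end Vale.Agent.P192.Rover
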