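import Vale.Agent.P192.H260.Rover2
import Vale.Agent.P192.H663.Relative

/-!
# P192: Röver–Nekrashevych groups belong to the class
-/

namespace Vale.Agent.P192.Rover

open Stream'

section main

variable {X : Type*} [Finite X] [Nontrivial X] {K : Subgroup (Equiv.Perm (Stream' X))}
  (hK : SelfSim K) {S : Set (Equiv.Perm (Stream' X))} {D C : ℕ}

omit [Finite X] [Nontrivial X] in
theorem IsPath.rev (hS : ∀ s ∈ S, s⁻¹ ∈ S) {n : ℕ} {v : ℕ → List X} (hp : IsPath K S D n v) :
    IsPath K S D n (fun i => v (n - i)) where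
  deep := fun i _ => hp.deep _ (Nat.sub_le _ _)
  step := by
    intro i hi
    obtain ⟨s, hs, h⟩ := hp.step (n - (i + 1)) (by omega)
    refine ⟨s⁻¹, hS s hs, ?_⟩
    have e : n - (i + 1) + 1 = n - i := by omega
    rw [e] at h
    exact h.inv

omit [Finite X] [Nontrivial X] in
theorem IsPath.snoc {n : ℕ} {v : ℕ → List X} (hp : IsPath K S D n v) {w : List X}
    (hw : D ≤ w.length) (h : ∃ s ∈ S, PR K s (v n) w) :
    IsPath K S D (n + 1) (fun i => if i ≤ n then v i else w) where
  deep := by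
    intro i _
    by_cases h1 : i ≤ n
    · simp only [h1, if_true]
      exact hp.deep i h1
    · simp only [h1, if_false]
      exact hw
  step := by
    intro i hi
    have h1 : i ≤ n := by omega
    rcases Nat.eq_or_lt_of_le h1 with h2 | h2
    · subst h2
      have h3 : ¬ (i + 1 ≤ i) := by omega
      simp only [le_refl, if_true, h3, if_false]
      exact h
    · have h3 : i + 1 ≤ n := by omega
      simp only [h1, if_true, h3]
      exact hp.step i h2

include hK

/-- the constant of bounded expansion -/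
theorem reach (hS : ∀ s ∈ S, s⁻¹ ∈ S) (hB : Bd K S D C)
    (hfin : ∀ γ ∈ Subgroup.closure S, IsOfFinOrder γ) {M : ℕ}
    (hM : M = Nat.card {l : List X // l.length = D} * (C + 1)) {v : List X}
    (hv : D + M + C ≤ v.length) {γ : Equiv.Perm (Stream' X)} (hγ : γ ∈ Subgroup.closure S) :
    ∃ w, PR K γ v w ∧ w.length ≤ v.length + M ∧ v.length ≤ w.length + M := by
  have key : ∃ w, PR K γ v w ∧ ∃ (n : ℕ) (p : ℕ → List X), IsPath K S D n p ∧ p 0 = v ∧ p n = w := by
    induction hγ using Subgroup.closure_induction_left with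
    | one =>
      exact ⟨v, PR.one K v, 0, fun _ => v, ⟨fun i _ => by omega, fun i hi => by omega⟩, rfl, rfl⟩
    | mul_left s hs y hy ih =>
      obtain ⟨w, hw, n, p, hp, h0, hn⟩ := ih
      have h1 := (hp.rev hS).bounded hK hB hfin
      simp only [Nat.sub_self, Nat.sub_zero] at h1
      rw [h0, hn, ← hM] at h1
      obtain ⟨w', hw', h2, h3⟩ := hB s hs w (by omega)
      refine ⟨w', hw.mul hw', n + 1, _, hp.snoc (w := w') (by omega) ⟨s, hs, hn ▸ hw'⟩, ?_, ?_⟩
      · simpa using h0
      · simp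
    | inv_mul_cancel s hs y hy ih =>
      obtain ⟨w, hw, n, p, hp, h0, hn⟩ := ih
      have h1 := (hp.rev hS).bounded hK hB hfin
      simp only [Nat.sub_self, Nat.sub_zero] at h1
      rw [h0, hn, ← hM] at h1
      obtain ⟨w', hw', h2, h3⟩ := hB s⁻¹ (hS s hs) w (by omega)
      refine ⟨w', hw.mul hw', n + 1, _, hp.snoc (w := w') (by omega) ⟨s⁻¹, hS s hs, hn ▸ hw'⟩,
        ?_, ?_⟩
      · simpa using h0
      · simp
  obtain ⟨w, hw, n, p, hp, h0, hn⟩ := key
  refine ⟨w, hw, ?_, ?_⟩
  · have h1 := hp.bounded hK hB hfin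
    rwa [h0, hn, ← hM] at h1
  · have h1 := (hp.rev hS).bounded hK hB hfin
    simp only [Nat.sub_self, Nat.sub_zero] at h1
    rwa [h0, hn, ← hM] at h1

/-- every finitely generated periodic subgroup preserves the cylinders of some level up to bounded
expansion -/
theorem exists_level (Δ : Subgroup (Equiv.Perm (Stream' X))) (hΔ : Δ ≤ RN K hK) (hfg : Δ.FG)
    (hfin : ∀ γ ∈ Δ, IsOfFinOrder γ) :
    ∃ L M : ℕ, ∀ v : List X, v.length = L → ∀ γ ∈ Δ, ∃ w, PR K γ v w ∧ w.length ≤ L + M := by
  obtain ⟨S₀, hS₀⟩ := hfg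
  let S : Set (Equiv.Perm (Stream' X)) := (S₀ : Set _) ∪ (S₀ : Set _)⁻¹
  have hSf : S.Finite := (S₀.finite_toSet).union (S₀.finite_toSet).inv
  have hSinv : ∀ s ∈ S, s⁻¹ ∈ S := by
    rintro s (hs | hs)
    · right
      simpa using hs
    · left
      simpa using hs
  have hSΔ : Subgroup.closure S = Δ := by
    apply le_antisymm
    · rw [Subgroup.closure_le]
      rintro s (hs | hs)
      · rw [← hS₀]; exact Subgroup.subset_closure hs
      · rw [← hS₀]
        have : s⁻¹ ∈ Subgroup.closure (S₀ : Set (Equiv.Perm (Stream' X))) :=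
          Subgroup.subset_closure (by simpa using hs)
        simpa using inv_mem this
    · rw [← hS₀]
      exact Subgroup.closure_mono Set.subset_union_left
  have hSRN : ∀ s ∈ S, s ∈ RN K hK := fun s hs => hΔ (hSΔ ▸ Subgroup.subset_closure hs)
  have : Finite S := hSf
  choose n c hnc using fun s : S => exists_bound hK (hSRN s.1 s.2)
  obtain ⟨D, hD⟩ := Finite.exists_le n
  obtain ⟨C, hC⟩ := Finite.exists_le c
  have hB : Bd K S D C := by
    intro s hs v hv
    obtain ⟨w, h1, h2, h3⟩ := hnc ⟨s, hs⟩ v ((hD ⟨s, hs⟩).trans hv)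
    have h4 := hC ⟨s, hs⟩
    exact ⟨w, h1, by omega, by omega⟩
  set M := Nat.card {l : List X // l.length = D} * (C + 1) with hM
  refine ⟨D + M + C, M, fun v hv γ hγ => ?_⟩
  obtain ⟨w, h1, h2, -⟩ := reach hK hSinv hB (by rw [hSΔ]; exact hfin) hM (v := v) hv.ge
    (hSΔ.symm ▸ hγ)
  exact ⟨w, h1, by rw [hv] at h2; exact h2⟩

omit [Finite X] [Nontrivial X] hK in
theorem app_inj {v : List X} {k k' : Equiv.Perm (Stream' X)} (h : ∀ ξ, v ++ₛ k ξ = v ++ₛ k' ξ) :
    k = k' :=
  Equiv.ext fun ξ => append_right_injective _ _ _ (h ξ)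

/-- **Structure of the finitely generated periodic subgroups**: a subgroup of finite index embeds
in a finite power of `K`. -/
theorem fg_periodic (Δ : Subgroup (Equiv.Perm (Stream' X))) (hΔ : Δ ≤ RN K hK) (hfg : Δ.FG)
    (hfin : ∀ γ ∈ Δ, IsOfFinOrder γ) :
    ∃ (L : ℕ) (Δ₀ : Subgroup Δ) (f : Δ₀ →* ({v : List X // v.length = L} → K)),
      Δ₀.FiniteIndex ∧ Function.Injective f := by
  classical
  obtain ⟨L, M, hLM⟩ := exists_level hK Δ hΔ hfg hfin
  let Δ₀ : Subgroup Δ :=
    { carrier := {γ | ∀ v : List X, v.length = L → PR K γ.1 v v}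
      one_mem' := fun v _ => PR.one K v
      mul_mem' := fun ha hb v hv => (hb v hv).mul (ha v hv)
      inv_mem' := fun ha v hv => (ha v hv).inv }
  have hfin1 : Finite {l : List X // l.length = L} := inferInstanceAs (Finite (List.Vector X L))
  have hfin2 : Finite {l : List X // l.length ≤ L + M} := List.finite_length_le X (L + M)
  -- finite index
  choose w hw hwl using fun (γ : Δ) (v : {l : List X // l.length = L}) => hLM v.1 v.2 γ.1 γ.2
  have hfinq : Finite (Δ ⧸ Δ₀) := by
    refine Finite.of_injective (fun (q : Δ ⧸ Δ₀) (v : {l : List X // l.length = L}) =>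
      (⟨w q.out v, hwl q.out v⟩ : {l : List X // l.length ≤ L + M})) ?_
    intro q q' hqq
    have h1 : ∀ v, w q.out v = w q'.out v := fun v => congrArg Subtype.val (congrFun hqq v)
    have h2 : (q.out)⁻¹ * q'.out ∈ Δ₀ := by
      intro v hv
      have h3 := hw q'.out ⟨v, hv⟩
      have h4 := (hw q.out ⟨v, hv⟩).inv
      rw [h1 ⟨v, hv⟩] at h4
      exact h3.mul h4
    have h5 : (QuotientGroup.mk q.out : Δ ⧸ Δ₀) = QuotientGroup.mk q'.out := QuotientGroup.eq.2 h2
    rwa [QuotientGroup.out_eq', QuotientGroup.out_eq'] at h5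
  -- the embedding
  choose k hk hk' using fun (γ : Δ₀) (v : {l : List X // l.length = L}) => γ.2 v.1 v.2
  let f : Δ₀ →* ({v : List X // v.length = L} → K) :=
    { toFun := fun γ v => ⟨k γ v, hk γ v⟩
      map_one' := by
        funext v
        apply Subtype.ext
        apply app_inj (v := v.1)
        intro ξ
        rw [← hk']
        rfl
      map_mul' := by
        intro a b
        funext v
        apply Subtype.ext
        apply app_inj (v := v.1)
        intro ξ
        rw [← hk']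
        change (a.1.1 * b.1.1) (v.1 ++ₛ ξ) = v.1 ++ₛ (k a v * k b v) ξ
        rw [Equiv.Perm.mul_apply, hk' b v ξ, hk' a v, Equiv.Perm.mul_apply] }
  refine ⟨L, Δ₀, f, Subgroup.finiteIndex_of_finite_quotient, ?_⟩
  rw [injective_iff_map_eq_one]
  intro γ hγ
  apply Subtype.ext
  apply Subtype.ext
  apply Equiv.ext
  intro ξ
  have h1 : (ξ.take L) ++ₛ (ξ.drop L) = ξ := append_take_drop L ξ
  have h2 : (ξ.take L).length = L := length_take L ξ
  have h3 : k γ ⟨ξ.take L, h2⟩ = 1 := congrArg Subtype.val (congrFun hγ ⟨ξ.take L, h2⟩)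
  have h4 := hk' γ ⟨ξ.take L, h2⟩ (ξ.drop L)
  rw [h3] at h4
  rw [← h1]
  exact h4

end main

/-- **Röver–Nekrashevych groups.** -/
theorem fpb_RN {X : Type*} [Finite X] {K : Subgroup (Equiv.Perm (Stream' X))} (hK : SelfSim K)
    (hF : FPB K) : FPB (RN K hK) := by
  rcases subsingleton_or_nontrivial X with hX | hX
  · have h1 : Subsingleton (Stream' X) := inferInstanceAs (Subsingleton (ℕ → X))
    have h2 : Subsingleton (Equiv.Perm (Stream' X)) := inferInstance
    have h3 : Finite (RN K hK) := Finite.of_subsingleton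
    exact fpb_of_finite _
  intro Γ _ hfp hfin F
  have hfg : Group.FG Γ := by
    obtain ⟨n, ψ, hψ, -⟩ := hfp.out
    exact Group.fg_of_surjective hψ
  let F' : Γ →* Equiv.Perm (Stream' X) := (RN K hK).subtype.comp F
  let Δ := F'.range
  have hΔ : Δ ≤ RN K hK := by
    rintro _ ⟨γ, rfl⟩
    exact (F γ).2
  have hΔfg : Δ.FG := (Group.fg_iff_subgroup_fg _).1 (Group.fg_range F')
  have hΔfin : ∀ γ ∈ Δ, IsOfFinOrder γ := by
    rintro _ ⟨γ, rfl⟩
    exact MonoidHom.isOfFinOrder F' (hfin γ)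
  obtain ⟨L, Δ₀, f, h1, h2⟩ := fg_periodic hK Δ hΔ hΔfg hΔfin
  have hfinL : Finite {v : List X // v.length = L} := inferInstanceAs (Finite (List.Vector X L))
  have h3 : FPB Δ₀ := fpb_of_injective f h2 (fpb_pi (fun _ => hF))
  have h4 : FPB Δ := fpb_of_finiteIndex Δ₀ h3
  have h5 := h4 Γ hfp hfin F'.rangeRestrict
  have h6 : (F'.rangeRestrict.range : Set Δ).Finite := Set.toFinite _
  have h7 : (Subtype.val '' (F.range : Set (RN K hK))).Finite := by
    refine (h6.image Subtype.val).subset ?_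
    rintro _ ⟨_, ⟨g, rfl⟩, rfl⟩
    exact ⟨F'.rangeRestrict g, ⟨g, rfl⟩, rfl⟩
  exact (h7.of_finite_image Subtype.val_injective.injOn).to_subtype

end Vale.Agent.P192.Rover
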