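import Vale.Agent.P192.H663.StepA
import Vale.Agent.P192.H260.Amalg

/-!
# P192: recurrent states moving their letter (HNN step)
-/

namespace Vale.Agent.P192

universe u v

open HNNExtension

namespace SS

variable {T : Type u} {Y : Type v} [Group T]

/-- `h` is a stable element of `H` from `x` to `w`. -/
def Stb (S : SS T Y) (H : Subgroup T) (x w : Y) (h : T) : Prop :=
  h ∈ H ∧ S.σ h x = w ∧ S.sec h x = h

theorem Stb.one (S : SS T Y) (H : Subgroup T) (x : Y) : S.Stb H x x 1 :=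
  ⟨one_mem _, by rw [map_one]; rfl, S.sec_one _⟩

theorem Stb.mul {S : SS T Y} {H : Subgroup T} {x w q : Y} {h g : T} (hh : S.Stb H x w h)
    (hg : S.Stb H w q g) : S.Stb H x q (g * h) :=
  ⟨mul_mem hg.1 hh.1, by rw [map_mul, Equiv.Perm.mul_apply, hh.2.1, hg.2.1],
    by rw [S.sec_mul, hh.2.1, hg.2.2, hh.2.2]⟩

theorem Stb.inv {S : SS T Y} {H : Subgroup T} {x w : Y} {h : T} (hh : S.Stb H x w h) :
    S.Stb H w x h⁻¹ :=
  ⟨inv_mem hh.1, S.σ_inv_apply h hh.2.1, by rw [S.sec_inv' h hh.2.1, hh.2.2]⟩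

/-- hypotheses of step B -/
structure BHyp (S : SS T Y) (H : Subgroup T) (y z : Y) (s : T) : Prop where
  hc : ∀ h ∈ H, ∀ y', S.sec h y' ∈ H
  h1 : S.σ s y = z
  h2 : S.sec s y = s
  h3 : ∀ y', y' ≠ y → S.sec s y' ∈ H
  hno : ¬ ∃ d, S.Stb H y z d
  hconj : ∀ b, S.Stb H z z b → s⁻¹ * b * s ∈ H

namespace BHyp

variable {S : SS T Y} {H : Subgroup T} {y z : Y} {s : T} (hB : BHyp S H y z s)

include hB

theorem conj_stb {b : T} (hb : S.Stb H z z b) : S.Stb H y y (s⁻¹ * b * s) := by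
  refine ⟨hB.hconj b hb, ?_, ?_⟩
  · rw [map_mul, map_mul, Equiv.Perm.mul_apply, Equiv.Perm.mul_apply, hB.h1, hb.2.1,
      S.σ_inv_apply s hB.h1]
  · rw [S.sec_mul, S.sec_mul, hB.h1, hb.2.1, hb.2.2, hB.h2, S.sec_inv' s hB.h1, hB.h2]

end BHyp

/-- the group of stable elements fixing `z` -/
def Bg (S : SS T Y) (H : Subgroup T) (z : Y) : Subgroup H where
  carrier := {b | S.Stb H z z b}
  one_mem' := Stb.one S H z
  mul_mem' := fun ha hb => Stb.mul hb ha
  inv_mem' := fun ha => Stb.inv ha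

section B

variable {S : SS T Y} {H : Subgroup T} {y z : Y} {s : T} (hB : BHyp S H y z s)

/-- conjugation by `s⁻¹` -/
def kap : S.Bg H z →* H where
  toFun := fun b => ⟨s⁻¹ * b.1.1 * s, hB.hconj _ b.2⟩
  map_one' := by
    apply Subtype.ext
    change s⁻¹ * 1 * s = 1
    group
  map_mul' := fun a b => by
    apply Subtype.ext
    change s⁻¹ * (a.1.1 * b.1.1) * s = (s⁻¹ * a.1.1 * s) * (s⁻¹ * b.1.1 * s)
    group

theorem kap_injective : Function.Injective (kap hB) := by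
  intro a b hab
  have h : s⁻¹ * a.1.1 * s = s⁻¹ * b.1.1 * s := congrArg Subtype.val hab
  have h2 : a.1.1 = b.1.1 := by
    have := mul_right_cancel h
    exact mul_left_cancel this
  exact Subtype.ext (Subtype.ext h2)

/-- the isomorphism of the associated subgroups -/
noncomputable def phiB : (kap hB).range ≃* S.Bg H z :=
  (MonoidHom.ofInjective (kap_injective hB)).symm

theorem phiB_kap (b : S.Bg H z) : phiB hB ⟨kap hB b, ⟨b, rfl⟩⟩ = b :=
  (MonoidHom.ofInjective (kap_injective hB)).symm_apply_apply b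

theorem phiB_spec (a : (kap hB).range) : s * a.1.1 = (phiB hB a).1.1 * s := by
  obtain ⟨_, b, rfl⟩ := a
  rw [phiB_kap]
  change s * (s⁻¹ * b.1.1 * s) = b.1.1 * s
  group

/-- the HNN extension -/
abbrev LB : Type u := HNNExtension H (kap hB).range (S.Bg H z) (phiB hB)

/-- wreath recursion on the base -/
noncomputable def recB : H →* Wr (LB hB) Y where
  toFun := fun h => ⟨S.σ h, fun y' => of ⟨S.sec h y', hB.hc h h.2 y'⟩⟩
  map_one' := by
    ext y'
    · simp
    · change (of (⟨S.sec 1 y', _⟩ : H) : LB hB) = 1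
      rw [← map_one (of : H →* LB hB)]
      congr 1
      exact Subtype.ext (S.sec_one _)
  map_mul' := fun a b => by
    ext y'
    · simp
    · change (of (⟨S.sec (a.1 * b.1) y', _⟩ : H) : LB hB) = of _ * of _
      rw [← map_mul (of : H →* LB hB)]
      congr 1
      exact Subtype.ext (S.sec_mul _ _ _)

open Classical in
/-- wreath recursion of the stable letter -/
noncomputable def recT : Wr (LB hB) Y :=
  ⟨S.σ s, fun y' => if h : y' = y then t else of ⟨S.sec s y', hB.h3 y' h⟩⟩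

/-- the wreath recursion on the HNN extension -/
noncomputable def ΦB : LB hB →* Wr (LB hB) Y :=
  HNNExtension.lift (recB hB) (recT hB) (by
    intro a
    have hs := phiB_spec hB a
    obtain ⟨b, hb⟩ : ∃ b : S.Bg H z, kap hB b = a.1 := a.2
    have hst : S.Stb H y y a.1.1 := by
      rw [← hb]
      exact hB.conj_stb b.2
    have hst2 : S.Stb H z z (phiB hB a).1.1 := (phiB hB a).2
    ext y'
    · change (S.σ s * S.σ a.1.1) _ = (S.σ (phiB hB a).1.1 * S.σ s) _
      rw [← map_mul, ← map_mul, hs]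
    · by_cases h : y' = y
      · subst h
        simp only [Wr.mul_f, recB, recT, MonoidHom.coe_mk, OneHom.coe_mk, hst.2.1, dif_pos]
        have e1 : (⟨S.sec a.1.1 y', hB.hc _ a.1.2 y'⟩ : H) = a.1 := Subtype.ext hst.2.2
        have e2 : (⟨S.sec (phiB hB a).1.1 (S.σ s y'), hB.hc _ (phiB hB a).1.2 _⟩ : H) =
            (phiB hB a).1 := by
          apply Subtype.ext
          change S.sec (phiB hB a).1.1 (S.σ s y') = _
          rw [hB.h1, hst2.2.2]
        rw [e1, e2]
        exact t_mul_of (φ := phiB hB) a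
      · have h' : ¬ S.σ a.1.1 y' = y := by
          intro h3
          exact h ((S.σ a.1.1).injective (h3.trans hst.2.1.symm))
        simp only [Wr.mul_f, recB, recT, MonoidHom.coe_mk, OneHom.coe_mk, dif_neg h, dif_neg h']
        rw [← map_mul (of : H →* LB hB), ← map_mul (of : H →* LB hB)]
        congr 1
        apply Subtype.ext
        change S.sec s (S.σ a.1.1 y') * S.sec a.1.1 y' =
          S.sec (phiB hB a).1.1 (S.σ s y') * S.sec s y'
        rw [← S.sec_mul, ← S.sec_mul, hs])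

theorem ΦB_of (h : H) : ΦB hB (of h) = recB hB h := HNNExtension.lift_of _ _ _ _

theorem ΦB_t : ΦB hB t = recT hB := HNNExtension.lift_t _ _ _

/-- the projection -/
noncomputable def πB : LB hB →* T := HNNExtension.lift H.subtype s (fun a => phiB_spec hB a)

theorem πB_of (h : H) : πB hB (of h) = h := HNNExtension.lift_of _ _ _ _

theorem πB_t : πB hB t = s := HNNExtension.lift_t _ _ _

/-- the self-similar structure on the HNN extension -/
noncomputable def SB : SS (LB hB) Y := SS.ofHom (ΦB hB)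

theorem SB_sec_of (h : H) (y' : Y) :
    (SB hB).sec (of h) y' = of ⟨S.sec h y', hB.hc h h.2 y'⟩ := by
  change ((ΦB hB) (of h)).f y' = _
  rw [ΦB_of]; rfl

theorem SB_sec_t : (SB hB).sec t y = t := by
  change ((ΦB hB) t).f y = _
  rw [ΦB_t]
  simp [recT]

theorem SB_sec_t' (y' : Y) (h : y' ≠ y) :
    (SB hB).sec t y' = of ⟨S.sec s y', hB.h3 y' h⟩ := by
  change ((ΦB hB) t).f y' = _
  rw [ΦB_t]
  simp [recT, h]

/-- compatibility of the recursions -/
theorem SB_both (g : LB hB) : (SB hB).σ g = S.σ (πB hB g) ∧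
    ∀ y', πB hB ((SB hB).sec g y') = S.sec (πB hB g) y' := by
  induction g using HNNExtension.induction_on with
  | of h =>
    refine ⟨?_, fun y' => ?_⟩
    · change ((ΦB hB) (of h)).p = _
      rw [ΦB_of, πB_of]; rfl
    · rw [SB_sec_of, πB_of, πB_of]
  | t =>
    refine ⟨?_, fun y' => ?_⟩
    · change ((ΦB hB) t).p = _
      rw [ΦB_t, πB_t]; rfl
    · by_cases h : y' = y
      · subst h
        rw [SB_sec_t, πB_t, hB.h2]
      · rw [SB_sec_t' hB y' h, πB_t, πB_of]
  | mul a b ha hb =>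
    refine ⟨by rw [map_mul, ha.1, hb.1, map_mul, map_mul], fun y' => ?_⟩
    rw [(SB hB).sec_mul, map_mul, ha.2, hb.2, map_mul, S.sec_mul, hb.1]
  | inv a ha =>
    refine ⟨by rw [map_inv, ha.1, map_inv, map_inv], fun y' => ?_⟩
    rw [(SB hB).sec_inv, map_inv (πB hB), ha.2, map_inv (πB hB), S.sec_inv, map_inv, ha.1,
      map_inv]

/-- the letters `y` and `z` -/
def pt (y z : Y) : Bool → Y
  | false => y
  | true => z

/-- `1` and the stable letter -/
noncomputable def tt : Bool → LB hB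
  | false => 1
  | true => t

theorem tt_sec (p : Bool) : (SB hB).sec (tt hB p) y = tt hB p := by
  cases p
  · exact (SB hB).sec_one y
  · exact SB_sec_t hB

theorem tt_out (p : Bool) : (SB hB).σ (tt hB p) y = pt y z p := by
  cases p
  · change (SB hB).σ 1 y = y
    rw [map_one]; rfl
  · change (SB hB).σ t y = z
    rw [(SB_both hB t).1, πB_t, hB.h1]

theorem tt_sec' (p : Bool) (y' : Y) (h : y' ≠ y) :
    (SB hB).sec (tt hB p) y' ∈ (of : H →* LB hB).range := by
  cases p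
  · change (SB hB).sec 1 y' ∈ _
    rw [(SB hB).sec_one]
    exact one_mem _
  · change (SB hB).sec t y' ∈ _
    rw [SB_sec_t' hB y' h]
    exact ⟨_, rfl⟩

/-- stable elements -/
def QB (x w : Y) : Set (LB hB) :=
  {g | ∃ (p q : Bool) (a b c : H), S.Stb H x (pt y z p) b ∧ S.Stb H y y c ∧
    S.Stb H (pt y z q) w a ∧ g = of a * tt hB q * of c * (tt hB p)⁻¹ * of b}

theorem of_out {x w : Y} {a : H} (h : S.Stb H x w a) : (SB hB).σ (of a) x = w := by
  rw [(SB_both hB _).1, πB_of]; exact h.2.1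

theorem of_sec {x w : Y} {a : H} (h : S.Stb H x w a) : (SB hB).sec (of a) x = of a := by
  rw [SB_sec_of]
  congr 1
  exact Subtype.ext h.2.2

theorem of_sec' (a : H) (x : Y) : (SB hB).sec (of a) x ∈ (of : H →* LB hB).range := by
  rw [SB_sec_of]; exact ⟨_, rfl⟩

include hB in
theorem no_cross {p q : Bool} {d : T} (hd : S.Stb H (pt y z p) (pt y z q) d) : p = q := by
  cases p <;> cases q
  · rfl
  · exact absurd ⟨d, hd⟩ hB.hno
  · exact absurd ⟨d⁻¹, hd.inv⟩ hB.hno
  · rfl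

/-- conjugates of the stable elements at `pt q` -/
theorem conj_tt (q : Bool) (d : H) (hd : S.Stb H (pt y z q) (pt y z q) d) :
    ∃ c : H, S.Stb H y y c ∧ (tt hB q)⁻¹ * of d * tt hB q = of c := by
  cases q
  · exact ⟨d, hd, by simp [tt]⟩
  · refine ⟨kap hB ⟨d, hd⟩, hB.conj_stb hd, ?_⟩
    have h := t_mul_of (φ := phiB hB) ⟨kap hB ⟨d, hd⟩, ⟨⟨d, hd⟩, rfl⟩⟩
    rw [phiB_kap] at h
    change t⁻¹ * of d * t = _
    rw [mul_assoc, ← h]
    group

theorem tt_conj_mem (p q : Bool) (c : H) (hc : S.Stb H y y c)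
    (h : πB hB (tt hB q * of c * (tt hB p)⁻¹) ∈ H) :
    tt hB q * of c * (tt hB p)⁻¹ ∈ (of : H →* LB hB).range := by
  cases p <;> cases q
  · exact ⟨c, by simp [tt]⟩
  · exfalso
    have e : πB hB (tt hB true * of c * (tt hB false)⁻¹) = s * c := by
      change πB hB (t * of c * 1⁻¹) = _
      rw [inv_one, mul_one, map_mul, πB_t, πB_of]
    rw [e] at h
    refine hB.hno ⟨s, ?_, hB.h1, hB.h2⟩
    have := mul_mem h (inv_mem c.2)
    rwa [mul_inv_cancel_right] at this
  · exfalso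
    have e : πB hB (tt hB false * of c * (tt hB true)⁻¹) = c * s⁻¹ := by
      change πB hB (1 * of c * t⁻¹) = _
      rw [one_mul, map_mul, map_inv, πB_t, πB_of]
    rw [e] at h
    refine hB.hno ⟨s, ?_, hB.h1, hB.h2⟩
    have := mul_mem (inv_mem h) c.2
    have e2 : (c.1 * s⁻¹)⁻¹ * c.1 = s := by group
    rwa [e2] at this
  · have e : πB hB (tt hB true * of c * (tt hB true)⁻¹) = s * c * s⁻¹ := by
      change πB hB (t * of c * t⁻¹) = _
      rw [map_mul, map_mul, map_inv, πB_t, πB_of]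
    rw [e] at h
    have hst : S.Stb H z z (s * c * s⁻¹) := by
      refine ⟨h, ?_, ?_⟩
      · rw [map_mul, map_mul, Equiv.Perm.mul_apply, Equiv.Perm.mul_apply,
          S.σ_inv_apply s hB.h1, hc.2.1, hB.h1]
      · rw [S.sec_mul, S.sec_mul, S.σ_inv_apply s hB.h1, S.sec_inv' s hB.h1, hB.h2, hc.2.1,
          hc.2.2, hB.h2]
    refine ⟨⟨s * c * s⁻¹, h⟩, ?_⟩
    have hk : kap hB ⟨⟨s * c * s⁻¹, h⟩, hst⟩ = c := by
      apply Subtype.ext
      change s⁻¹ * (s * c.1 * s⁻¹) * s = c.1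
      group
    have h5 := t_mul_of (φ := phiB hB)
      ⟨kap hB ⟨⟨s * c * s⁻¹, h⟩, hst⟩, ⟨⟨⟨s * c * s⁻¹, h⟩, hst⟩, rfl⟩⟩
    rw [phiB_kap] at h5
    simp only [hk] at h5
    change _ = t * of c * t⁻¹
    rw [h5, mul_inv_cancel_right]

/-- Data for step B. -/
noncomputable def dataB : ExtData S H (LB hB) where
  SL := SB hB
  π := πB hB
  i := of
  π_i := πB_of hB
  σ_eq := fun g => (SB_both hB g).1
  sec_eq := fun g => (SB_both hB g).2
  closed := hB.hc
  i_sec := SB_sec_of hB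
  Q := QB hB
  q_out := by
    rintro x w _ ⟨p, q, a, b, c, hb, hc, ha, rfl⟩
    rw [← (SB_both hB _).1, map_mul, map_mul, map_mul, map_mul]
    simp only [Equiv.Perm.mul_apply]
    rw [of_out hB hb, (SB hB).σ_inv_apply _ (tt_out hB p), of_out hB hc, tt_out hB q,
      of_out hB ha]
  q_sec := by
    rintro x w _ ⟨p, q, a, b, c, hb, hc, ha, rfl⟩
    rw [(SB hB).sec_mul, (SB hB).sec_mul, (SB hB).sec_mul, (SB hB).sec_mul, of_out hB hb,
      (SB hB).σ_inv_apply _ (tt_out hB p), of_out hB hc, tt_out hB q, of_sec hB hb,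
      (SB hB).sec_inv' _ (tt_out hB p), tt_sec, of_sec hB hc, tt_sec, of_sec hB ha]
  q_sec' := by
    rintro x w _ ⟨p, q, a, b, c, hb, hc, ha, rfl⟩ x' hx'
    rw [(SB hB).sec_mul, (SB hB).sec_mul, (SB hB).sec_mul, (SB hB).sec_mul]
    have h1 : (SB hB).σ (of b) x' ≠ pt y z p := fun h =>
      hx' (((SB hB).σ (of b)).injective (h.trans (of_out hB hb).symm))
    have h2 : (SB hB).σ (tt hB p)⁻¹ ((SB hB).σ (of b) x') ≠ y := fun h =>
      h1 (((SB hB).σ (tt hB p)⁻¹).injective (h.trans ((SB hB).σ_inv_apply _ (tt_out hB p)).symm))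
    have h3 : (SB hB).σ (of c) ((SB hB).σ (tt hB p)⁻¹ ((SB hB).σ (of b) x')) ≠ y := fun h =>
      h2 (((SB hB).σ (of c)).injective (h.trans (of_out hB hc).symm))
    refine mul_mem (mul_mem (mul_mem (mul_mem (of_sec' hB _ _) (tt_sec' hB q _ h3))
      (of_sec' hB _ _)) ?_) (of_sec' hB _ _)
    rw [(SB hB).sec_inv]
    exact inv_mem (tt_sec' hB p _ h2)
  q_left := by
    rintro x w w' _ h ⟨p, q, a, b, c, hb, hc, ha, rfl⟩ hh1 hh2
    refine ⟨p, q, h * a, b, c, hb, hc, ?_, ?_⟩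
    · exact ha.mul ⟨h.2, hh1, hh2⟩
    · rw [map_mul]; group
  q_right := by
    rintro w' x w _ h ⟨p, q, a, b, c, hb, hc, ha, rfl⟩ hh1 hh2
    refine ⟨p, q, a, b * h, c, ?_, hc, ha, ?_⟩
    · exact Stb.mul ⟨h.2, hh1, hh2⟩ hb
    · rw [map_mul]; group
  q_mul := by
    rintro x w w' _ _ ⟨p, q, a, b, c, hb, hc, ha, rfl⟩ ⟨p', q', a', b', c', hb', hc', ha', rfl⟩
    left
    have hd : S.Stb H (pt y z q) (pt y z p') (b'.1 * a.1) := ha.mul hb'
    have hqp := no_cross hB hd
    subst hqp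
    obtain ⟨e, he, hee⟩ := conj_tt hB q (b' * a) hd
    refine ⟨p, q', a', b, c' * e * c, hb, ?_, ha', ?_⟩
    · exact hc.mul (he.mul hc')
    · rw [map_mul, map_mul, ← hee, map_mul]
      group
  q_inv := by
    rintro x w _ ⟨p, q, a, b, c, hb, hc, ha, rfl⟩
    refine ⟨q, p, b⁻¹, a⁻¹, c⁻¹, ha.inv, hc.inv, hb.inv, ?_⟩
    rw [map_inv, map_inv, map_inv]
    group
  q_mem := by
    rintro x w _ ⟨p, q, a, b, c, hb, hc, ha, rfl⟩ hπ
    have e : of a * tt hB q * of c * (tt hB p)⁻¹ * of b =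
        of a * (tt hB q * of c * (tt hB p)⁻¹) * of b := by group
    rw [e] at hπ ⊢
    refine mul_mem (mul_mem ⟨_, rfl⟩ (tt_conj_mem hB p q c hc ?_)) ⟨_, rfl⟩
    rw [map_mul, map_mul, πB_of, πB_of] at hπ
    have := mul_mem (mul_mem (inv_mem a.2) hπ) (inv_mem b.2)
    have e2 : a.1⁻¹ * (a.1 * πB hB (tt hB q * of c * (tt hB p)⁻¹) * b.1) * b.1⁻¹ =
        πB hB (tt hB q * of c * (tt hB p)⁻¹) := by group
    rwa [e2] at this
  gen := by
    rw [eq_top_iff]
    intro g _
    induction g using HNNExtension.induction_on with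
    | of h => exact Subgroup.subset_closure (Or.inl ⟨h, rfl⟩)
    | t =>
      refine Subgroup.subset_closure (Or.inr ⟨y, z, false, true, 1, 1, 1, Stb.one S H y,
        Stb.one S H y, Stb.one S H z, ?_⟩)
      simp [tt]
    | mul a b ha hb => exact mul_mem (ha trivial) (hb trivial)
    | inv a ha => exact inv_mem (ha trivial)

end B

/-- the amalgam theorem -/
theorem amalgThm : AmalgThm.{u} := fun _ _ _ _ _ _ i j hi hj h1 h2 =>
  H260.fpb_amalg i j hi hj h1 h2

/-- **Step B.** -/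
theorem stepB [Finite Y] {S : SS T Y} (hf : S.Faithful) {H₀ : Subgroup T} (hH : S.Good H₀)
    {y z : Y} {s : T} (h1 : S.σ s y = z) (h2 : S.sec s y = s)
    (h3 : ∀ y', y' ≠ y → S.sec s y' ∈ H₀)
    (hno : ¬ ∃ d ∈ H₀, S.σ d y = z ∧ S.sec d y = d) :
    ∃ H', S.Good H' ∧ H₀ ≤ H' ∧ s ∈ H' := by
  have hG := S.stepA amalgThm hf hH y
  have hle := S.le_stepA H₀ y
  have hvg := S.vg_le_stepA H₀ y
  have hB : BHyp S (S.πA H₀ y).range y z s := by
    refine ⟨hG.closed, h1, h2, fun y' hy' => hle (h3 y' hy'), ?_, ?_⟩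
    · rintro ⟨d, hd1, hd2, hd3⟩
      rcases S.stepA_stable hH y hd1 hd3 with h | ⟨-, a, ha1, ha2, ha3⟩
      · exact hno ⟨d, h, hd2, hd3⟩
      · exact hno ⟨a, ha1, by rw [ha2, hd2], ha3⟩
    · rintro b ⟨hb1, hb2, hb3⟩
      have hb : b ∈ H₀ := by
        rcases S.stepA_stable hH y hb1 hb3 with h | ⟨⟨a, ha1, ha2, ha3⟩, -⟩
        · exact h
        · exfalso
          exact hno ⟨a⁻¹, inv_mem ha1, S.σ_inv_apply a ha2, by rw [S.sec_inv' a ha2, ha3]⟩
      apply hvg
      refine ⟨?_, ?_, ?_⟩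
      · rw [map_mul, map_mul, Equiv.Perm.mul_apply, Equiv.Perm.mul_apply, h1, hb2,
          S.σ_inv_apply s h1]
      · rw [S.sec_mul, S.sec_mul, h1, hb2, hb3, h2, S.sec_inv' s h1, h2]
      · intro y' hy'
        rw [S.sec_mul, S.sec_mul, S.sec_inv]
        refine mul_mem (mul_mem (inv_mem (h3 _ ?_)) (hH.closed b hb _)) (h3 y' hy')
        intro h
        have h5 : S.σ b (S.σ s y') = z := by
          rw [map_inv, Equiv.Perm.inv_eq_iff_eq] at h
          rw [h, h1]
        have h6 : S.σ s y' = z := (S.σ b).injective (h5.trans hb2.symm)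
        exact hy' ((S.σ s).injective (h6.trans h1.symm))
  refine ⟨(dataB hB).π.range, (dataB hB).good_range hf hG (H260.fpb_hnn _ hG.fpb),
    hle.trans (dataB hB).le_range, ⟨t, πB_t hB⟩⟩

end SS

end Vale.Agent.P192
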