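import Mathlib

/-!
# P192: a finite table which decides the actions of a finitely presented group
-/

namespace Vale.Agent.P192.H260

/-- For a finitely presented group there is a finite set `M` such that every map which is
multiplicative on `M` extends to an action. -/
theorem exists_table (G : Type) [Group G] [Group.IsFinitelyPresented G] :
    ∃ M : Set G, M.Finite ∧ 1 ∈ M ∧ (∀ a ∈ M, a⁻¹ ∈ M) ∧ Subgroup.closure M = ⊤ ∧
      ∀ (X : Type) (φ : G → X → X), φ 1 = id →
        (∀ a ∈ M, ∀ b ∈ M, φ (a * b) = φ a ∘ φ b) →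
        ∃ ψ : G →* Equiv.Perm X, ∀ a ∈ M, ∀ x, ψ a x = φ a x := by
  obtain ⟨n, q, hq, S, hS, hSk⟩ := (inferInstance : Group.IsFinitelyPresented G)
  have hSf : Finite S := hS
  obtain ⟨R₀, hR₀⟩ := Finite.exists_le (fun s : S => (s : FreeGroup (Fin n)).toWord.length)
  set R := R₀ + 1 with hR
  let M : Set G := (fun L : List (Fin n × Bool) => q (FreeGroup.mk L)) '' {L | L.length ≤ R}
  have hM : ∀ L : List (Fin n × Bool), L.length ≤ R → q (FreeGroup.mk L) ∈ M :=
    fun L hL => ⟨L, hL, rfl⟩
  have hMof : ∀ k, q (FreeGroup.of k) ∈ M := fun k => hM [(k, true)] (by simp [hR])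
  have hMinv : ∀ a ∈ M, a⁻¹ ∈ M := by
    rintro _ ⟨L, hL, rfl⟩
    change (q (FreeGroup.mk L))⁻¹ ∈ M
    rw [← map_inv, FreeGroup.inv_mk]
    exact hM _ (by rw [FreeGroup.invRev_length]; exact hL)
  refine ⟨M, (List.finite_length_le _ _).image _, ⟨[], by simp, map_one q⟩, hMinv, ?_, ?_⟩
  · rw [eq_top_iff]
    rintro g -
    obtain ⟨w, rfl⟩ := hq g
    induction w using FreeGroup.induction_on with
    | C1 => rw [map_one]; exact one_mem _
    | of k => exact Subgroup.subset_closure (hMof k)
    | inv_of k hk => rw [map_inv]; exact inv_mem hk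
    | mul x y hx hy => rw [map_mul]; exact mul_mem hx hy
  · intro X φ h1 hmul
    have hinv : ∀ a ∈ M, ∀ x, φ a⁻¹ (φ a x) = x := by
      intro a ha x
      have h2 := congrFun (hmul a⁻¹ (hMinv a ha) a ha) x
      rw [inv_mul_cancel, h1] at h2
      exact h2.symm
    let P : Fin n → Equiv.Perm X := fun k =>
      { toFun := φ (q (FreeGroup.of k))
        invFun := φ (q (FreeGroup.of k))⁻¹
        left_inv := hinv _ (hMof k)
        right_inv := by
          intro x
          have h2 := hinv _ (hMinv _ (hMof k)) x
          rw [inv_inv] at h2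
          exact h2 }
    let ψ₀ : FreeGroup (Fin n) →* Equiv.Perm X := FreeGroup.lift P
    have hlet : ∀ (k : Fin n) (b : Bool) (x : X),
        ψ₀ (FreeGroup.mk [(k, b)]) x = φ (q (FreeGroup.mk [(k, b)])) x := by
      intro k b x
      cases b with
      | true =>
        change ψ₀ (FreeGroup.of k) x = φ (q (FreeGroup.of k)) x
        rw [show ψ₀ (FreeGroup.of k) = P k from FreeGroup.lift_apply_of]
        rfl
      | false =>
        have h2 : (FreeGroup.mk [(k, false)] : FreeGroup (Fin n)) = (FreeGroup.of k)⁻¹ := rfl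
        rw [h2, map_inv, map_inv, show ψ₀ (FreeGroup.of k) = P k from FreeGroup.lift_apply_of]
        rfl
    have hw : ∀ L : List (Fin n × Bool), L.length ≤ R → ∀ x,
        ψ₀ (FreeGroup.mk L) x = φ (q (FreeGroup.mk L)) x := by
      intro L
      induction L with
      | nil =>
        intro _ x
        change ψ₀ 1 x = φ (q 1) x
        rw [map_one, map_one, h1]
        rfl
      | cons p L ih =>
        intro hL x
        obtain ⟨k, b⟩ := p
        have hL' : L.length ≤ R := by
          rw [List.length_cons] at hL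
          omega
        have h2 : (FreeGroup.mk ((k, b) :: L) : FreeGroup (Fin n)) =
            FreeGroup.mk [(k, b)] * FreeGroup.mk L := by
          rw [FreeGroup.mul_mk]
          rfl
        rw [h2, map_mul, map_mul, Equiv.Perm.mul_apply, ih hL', hlet,
          hmul _ (hM [(k, b)] (by simp [hR])) _ (hM L hL')]
        rfl
    have hker : q.ker ≤ ψ₀.ker := by
      rw [← hSk]
      apply Subgroup.normalClosure_le_normal
      intro s hs
      have hs1 : q s = 1 := by
        have : s ∈ q.ker := by
          rw [← hSk]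
          exact Subgroup.subset_normalClosure hs
        exact this
      rw [SetLike.mem_coe, MonoidHom.mem_ker]
      apply Equiv.ext
      intro x
      have hlen : s.toWord.length ≤ R := (hR₀ ⟨s, hs⟩).trans (Nat.le_succ _)
      have h2 := hw s.toWord hlen x
      rw [FreeGroup.mk_toWord, hs1, h1] at h2
      exact h2
    refine ⟨(q.liftOfRightInverse (Function.surjInv hq) (Function.rightInverse_surjInv hq))
      ⟨ψ₀, hker⟩, ?_⟩
    rintro _ ⟨L, hL, rfl⟩ x
    change ((q.liftOfRightInverse (Function.surjInv hq) (Function.rightInverse_surjInv hq))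
      ⟨ψ₀, hker⟩ (q (FreeGroup.mk L))) x = φ (q (FreeGroup.mk L)) x
    rw [MonoidHom.liftOfRightInverse_comp_apply]
    exact hw L hL x

end Vale.Agent.P192.H260
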