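import Vale.Agent.P192.H663.Calc
import Vale.Agent.P192.H260.Fix

/-!
# P192: groups acting on trees with stabilisers in the class
-/

namespace Vale.Agent.P192.H260

section parity

variable {V : Type*} {d : V → V → ℕ} (h : IsTree d)

include h

theorem parity : ∀ (n : ℕ) (u v w : V), d u v = n → Even (d u w + d v w + n) := by
  intro n
  induction n with
  | zero =>
    intro u v w huv
    have := (h.eq0 u v).1 huv
    subst this
    exact ⟨d u w, by ring⟩
  | succ n ih =>
    intro u v w huv
    have hne : u ≠ v := by
      rintro rfl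
      rw [d_self h] at huv
      omega
    obtain ⟨u', hu'⟩ := exists_St h hne
    have h1 := ih u' v w (by have := hu'.2; omega)
    have h2 := h.par u u' w hu'.1
    rcases h2 with h2 | h2
    · have e : d u w + d v w + (n + 1) = (d u' w + d v w + n) + 2 := by omega
      rw [e]
      exact h1.add (by decide)
    · have e : d u' w + d v w + n = d u w + d v w + (n + 1) := by omega
      rwa [e] at h1

end parity

/-- **Groups acting on trees.** -/
theorem fpb_of_isTree {V : Type*} {d : V → V → ℕ} (h : IsTree d) [Nonempty V] {G : Type*}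
    [Group G] [MulAction G V] (hiso : ∀ (g : G) (u v : V), d (g • u) (g • v) = d u v)
    (hst : ∀ v : V, FPB (MulAction.stabilizer G v)) : FPB G := by
  obtain ⟨v0⟩ := ‹Nonempty V›
  have hmul : ∀ g k : G, Even (d v0 (g • v0) + d v0 (k • v0) + d v0 ((g * k) • v0)) := by
    intro g k
    have h1 := parity h _ v0 (g • v0) ((g * k) • v0) rfl
    rw [mul_smul, hiso g v0 (k • v0), ← mul_smul] at h1
    have e : d v0 ((g * k) • v0) + d v0 (k • v0) + d v0 (g • v0) =
      d v0 (g • v0) + d v0 (k • v0) + d v0 ((g * k) • v0) := by ring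
    rwa [e] at h1
  -- the parity homomorphism
  let ε : G →* ℤˣ :=
    { toFun := fun g => (-1) ^ (d v0 (g • v0))
      map_one' := by rw [one_smul, d_self h, pow_zero]
      map_mul' := by
        intro g k
        have h1 := hmul g k
        rw [← pow_add]
        rcases Nat.even_or_odd (d v0 (g • v0) + d v0 (k • v0)) with h2 | h2
        · have h3 : Even (d v0 ((g * k) • v0)) := (Nat.even_add.1 h1).1 h2
          rw [h2.neg_one_pow, h3.neg_one_pow]
        · have h3 : Odd (d v0 ((g * k) • v0)) := by
            rw [← Nat.not_even_iff_odd] at h2 ⊢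
            exact fun h4 => h2 ((Nat.even_add.1 h1).2 h4)
          rw [h2.neg_one_pow, h3.neg_one_pow] }
  have hε : ∀ g : G, ε g = 1 → ∀ v : V, Even (d v (g • v)) := by
    intro g hg v
    have h1 : Even (d v0 (g • v0)) := by
      by_contra h2
      rw [Nat.not_even_iff_odd] at h2
      have h3 : ε g = (-1) ^ (d v0 (g • v0)) := rfl
      rw [h3, h2.neg_one_pow] at hg
      exact absurd hg (by decide)
    have h2 := parity h _ v (g • v) v0 rfl
    have h3 := parity h _ v0 (g • v0) (g • v) rfl
    rw [hiso g v0 v, h.symm v0 (g • v), h.symm v0 v] at h3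
    have h4 : Even (d (g • v) v0 + d v v0) := by
      have := (Nat.even_add.1 h3).2 h1
      exact this
    have h5 : Even (d v v0 + d (g • v) v0) := by rwa [add_comm]
    exact (Nat.even_add.1 h2).1 h5
  refine fpb_ext ε (fpb_of_finite _) ?_
  intro Γ _ hfp hfin f
  have hfg : Group.FG Γ := by
    obtain ⟨n, ψ, hψ, -⟩ := hfp.out
    exact Group.fg_of_surjective hψ
  let _ : MulAction Γ V := MulAction.compHom V ((ε.ker.subtype).comp f)
  have hs : ∀ (g : Γ) (v : V), g • v = ((f g : ε.ker) : G) • v := fun _ _ => rfl
  have hne : Nonempty V := ⟨v0⟩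
  obtain ⟨v, hv⟩ := exists_fixed h (Γ := Γ) (fun g u v => by rw [hs, hs, hiso]) hfin
    (fun g v => by rw [hs]; exact hε _ (f g).2 v)
  have hmem : ∀ g : Γ, ((f g : ε.ker) : G) ∈ MulAction.stabilizer G v := fun g => by
    rw [MulAction.mem_stabilizer_iff, ← hs]
    exact hv g
  have h1 := hst v Γ hfp hfin (((ε.ker.subtype).comp f).codRestrict _ hmem)
  have h2 : ((((ε.ker.subtype).comp f).codRestrict _ hmem).range :
    Set (MulAction.stabilizer G v)).Finite := Set.toFinite _
  have h3 : (Subtype.val '' (f.range : Set ε.ker)).Finite := by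
    refine (h2.image Subtype.val).subset ?_
    rintro _ ⟨_, ⟨g, rfl⟩, rfl⟩
    exact ⟨⟨_, hmem g⟩, ⟨g, rfl⟩, rfl⟩
  exact (h3.of_finite_image Subtype.val_injective.injOn).to_subtype

/-- the distance of a tree -/
theorem isTree_dist {V : Type*} {T : SimpleGraph V} (hT : T.IsTree) :
    IsTree (fun u v => T.dist u v) where
  eq0 := fun u v => hT.connected.dist_eq_zero_iff
  symm := fun u v => T.dist_comm
  par := by
    intro u v w huv
    have hadj : T.Adj u v := SimpleGraph.dist_eq_one_iff_adj.1 huv
    have := hT.dist_eq_dist_add_one_of_adj w hadj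
    rw [T.dist_comm (u := w), T.dist_comm (u := w)] at this
    exact this
  step := by
    intro v w hvw
    obtain ⟨p, hp, hl⟩ := hT.connected.exists_path_of_dist v w
    have hnil : ¬ p.Nil := SimpleGraph.Walk.not_nil_of_ne hvw
    have hadj : T.Adj v p.snd := p.adj_snd hnil
    refine ⟨p.snd, ⟨SimpleGraph.dist_eq_one_iff_adj.2 hadj, ?_⟩, ?_⟩
    · have h1 : T.dist p.snd w ≤ p.tail.length := SimpleGraph.dist_le _
      have h2 : p.tail.length + 1 = p.length := SimpleGraph.Walk.length_tail_add_one hnil
      have h3 := hT.dist_eq_dist_add_one_of_adj w hadj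
      rw [T.dist_comm (u := w), T.dist_comm (u := w)] at h3
      change T.dist p.snd w + 1 = T.dist v w
      omega
    · intro u' hu1 hu2
      have hadj' : T.Adj v u' := SimpleGraph.dist_eq_one_iff_adj.1 hu1
      obtain ⟨q, hq, hql⟩ := hT.connected.exists_path_of_dist u' w
      have hl' : (SimpleGraph.Walk.cons hadj' q).length = T.dist v w := by
        rw [SimpleGraph.Walk.length_cons, hql]
        exact hu2
      have hp' : (SimpleGraph.Walk.cons hadj' q).IsPath :=
        SimpleGraph.Walk.isPath_of_length_eq_dist _ hl'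
      have he : p = SimpleGraph.Walk.cons hadj' q := by
        have := (hT.isAcyclic.subsingleton_path v w).elim ⟨p, hp⟩ ⟨_, hp'⟩
        exact congrArg Subtype.val this
      rw [he]
      simp

/-- **A group acting on a tree with stabilisers in the class is in the class.** -/
theorem fpb_of_tree {V : Type*} (T : SimpleGraph V) (hT : T.IsTree) {G : Type*} [Group G]
    [MulAction G V] (hadj : ∀ (g : G) (u v : V), T.Adj u v → T.Adj (g • u) (g • v))
    (hst : ∀ v : V, FPB (MulAction.stabilizer G v)) : FPB G := by
  have hne : Nonempty V := hT.connected.nonempty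
  have hle : ∀ (g : G) (u v : V), T.dist (g • u) (g • v) ≤ T.dist u v := by
    intro g u v
    obtain ⟨p, hp⟩ := hT.connected.exists_walk_length_eq_dist u v
    let φ : T →g T := ⟨fun x => g • x, fun {a b} hab => hadj g a b hab⟩
    have := SimpleGraph.dist_le (p.map φ)
    rw [SimpleGraph.Walk.length_map, hp] at this
    exact this
  refine fpb_of_isTree (isTree_dist hT) ?_ hst
  intro g u v
  refine le_antisymm (hle g u v) ?_
  have := hle g⁻¹ (g • u) (g • v)
  rwa [inv_smul_smul, inv_smul_smul] at this

end Vale.Agent.P192.H260
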